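import Mathlib

/-! P166: asymptotic comparison of the potentials of two triangular arrays, and closeness of sorted
arrays. -/

open Filter Topology

namespace Vale.Agent.Lib.P166

theorem core (x y : ∀ N : ℕ, Fin N → ℝ) (F G : ℝ → ℝ) (A b : ℝ)
    (hx : ∀ t, Tendsto (fun N : ℕ => (∑ i, max (x N i - t) 0) / N) atTop (𝓝 (F t)))
    (hy : ∀ t, Tendsto (fun N : ℕ => (∑ i, max (y N i - t) 0) / N) atTop (𝓝 (G t)))
    (hFG : ∀ t, F t ≤ G t) (hG : ∀ s t, s < t → s < b → G t < G s)
    (hA : ∀ᶠ N in atTop, ∀ i, A ≤ x N i ∧ A ≤ y N i)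
    (hB : ∀ δ > 0, ∀ᶠ N in atTop, ∀ i, x N i ≤ b + δ) {δ : ℝ} (hδ : 0 < δ) :
    ∀ᶠ N in atTop, ∀ t, ∑ i, max (x N i - t) 0 ≤ ∑ i, max (y N i + δ - t) 0 := by
  set η := δ / 2 with hη
  have hηpos : 0 < η := by positivity
  set A' := min A (b - 1) with hA'
  have hA'b : A' < b + η := by
    have := min_le_right A (b - 1)
    linarith
  set K := ⌈(b + η - A') / η⌉₊ with hK
  have hgrid : ∀ᶠ N in atTop, ∀ j ∈ Finset.range (K + 1), A' + j * η < b + η →
      (∑ i, max (x N i - (A' + j * η)) 0) / N ≤ (∑ i, max (y N i - (A' + j * η - η)) 0) / N := by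
    refine (Filter.eventually_all_finset _).2 fun j _ => ?_
    by_cases hj : A' + j * η < b + η
    · have h1 : F (A' + j * η) < G (A' + j * η - η) :=
        lt_of_le_of_lt (hFG _) (hG _ _ (by linarith) (by linarith))
      filter_upwards [(hx (A' + j * η)).eventually_lt (hy (A' + j * η - η)) h1] with N hN _
      exact hN.le
    · exact Filter.Eventually.of_forall fun N h => absurd h hj
  filter_upwards [hgrid, hA, hB η hηpos, eventually_gt_atTop 0] with N h1 h2 h3 hN t
  have hNpos : (0 : ℝ) < N := by exact_mod_cast hN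
  have h1' : ∀ j ∈ Finset.range (K + 1), A' + j * η < b + η →
      (∑ i, max (x N i - (A' + j * η)) 0) ≤ (∑ i, max (y N i - (A' + j * η - η)) 0) := by
    intro j hj hj'
    have := h1 j hj hj'
    rwa [div_le_div_iff_of_pos_right hNpos] at this
  rcases le_or_gt t A' with ht | ht
  · have h4 := h1' 0 (by simp) (by simpa using hA'b)
    simp only [Nat.cast_zero, zero_mul, add_zero] at h4
    have h5 : ∀ i, max (x N i - A') 0 = x N i - A' := fun i =>
      max_eq_left (by have := (h2 i).1; have := min_le_left A (b - 1); linarith)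
    have h6 : ∀ i, max (y N i - (A' - η)) 0 = y N i - (A' - η) := fun i =>
      max_eq_left (by have := (h2 i).2; have := min_le_left A (b - 1); linarith)
    have h7 : ∀ i, max (x N i - t) 0 = x N i - t := fun i =>
      max_eq_left (by have := (h2 i).1; have := min_le_left A (b - 1); linarith)
    simp only [h5, h6] at h4
    simp only [h7]
    have h8 : ∑ i, (y N i + δ - t) ≤ ∑ i, max (y N i + δ - t) 0 :=
      Finset.sum_le_sum fun i _ => le_max_left _ _
    refine le_trans ?_ h8
    rw [Finset.sum_sub_distrib, Finset.sum_const, Finset.card_univ, Fintype.card_fin,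
      nsmul_eq_mul] at h4 ⊢
    rw [Finset.sum_sub_distrib, Finset.sum_const, Finset.card_univ, Fintype.card_fin,
      nsmul_eq_mul] at h4
    rw [Finset.sum_sub_distrib, Finset.sum_add_distrib, Finset.sum_const, Finset.sum_const,
      Finset.card_univ, Fintype.card_fin, nsmul_eq_mul, nsmul_eq_mul]
    nlinarith
  rcases le_or_gt (b + η) t with ht' | ht'
  · have h4 : ∑ i, max (x N i - t) 0 = 0 :=
      Finset.sum_eq_zero fun i _ => max_eq_right (by have := h3 i; linarith)
    rw [h4]
    exact Finset.sum_nonneg fun i _ => le_max_right _ _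
  · set j := ⌊(t - A') / η⌋₊ with hj
    have hj1 : (j : ℝ) * η ≤ t - A' := by
      have := Nat.floor_le (a := (t - A') / η) (div_nonneg (by linarith) hηpos.le)
      rwa [le_div_iff₀ hηpos] at this
    have hj2 : t - A' < (j + 1) * η := by
      have := Nat.lt_floor_add_one ((t - A') / η)
      rwa [div_lt_iff₀ hηpos] at this
    have hjK : j ∈ Finset.range (K + 1) := by
      rw [Finset.mem_range]
      have h5 : (j : ℝ) ≤ K := by
        have h6 := Nat.le_ceil ((b + η - A') / η)
        have h7 : (j : ℝ) ≤ (t - A') / η := by rwa [le_div_iff₀ hηpos]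
        have h8 : (t - A') / η ≤ (b + η - A') / η := by gcongr
        linarith
      have : j ≤ K := by exact_mod_cast h5
      omega
    calc ∑ i, max (x N i - t) 0 ≤ ∑ i, max (x N i - (A' + j * η)) 0 :=
          Finset.sum_le_sum fun i _ => max_le_max (by linarith) le_rfl
      _ ≤ ∑ i, max (y N i - (A' + j * η - η)) 0 := h1' j hjK (by linarith)
      _ ≤ ∑ i, max (y N i + δ - t) 0 :=
          Finset.sum_le_sum fun i _ => max_le_max (by linarith) le_rfl

/-- counting lemma for two sorted vectors -/
theorem count_le {N : ℕ} (x y : Fin N → ℝ) (hx : Monotone x) (hy : Monotone y) {g g' : ℝ}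
    (h : ℝ → ℝ) (h0 : ∀ z, 0 ≤ h z) (h1 : ∀ z, h z ≤ 1) (hg : ∀ z, z < g → h z = 1)
    (hg' : ∀ z, g' < z → h z = 0) :
    ((Finset.univ.filter fun i => x i < g ∧ g' < y i).card : ℝ) ≤
      max 0 (∑ i, h (x i) - ∑ i, h (y i)) := by
  classical
  rcases (Finset.univ.filter fun i => x i < g ∧ g' < y i).eq_empty_or_nonempty with he | ⟨i0, hi0⟩
  · rw [he]; simp
  · rw [Finset.mem_filter] at hi0
    refine le_trans ?_ (le_max_right _ _)
    have hcard : ((Finset.univ.filter fun i => x i < g ∧ g' < y i).card : ℝ) =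
        ∑ i, if x i < g ∧ g' < y i then (1 : ℝ) else 0 := by
      rw [Finset.sum_boole]
    rw [hcard, ← Finset.sum_sub_distrib]
    refine Finset.sum_le_sum fun i _ => ?_
    by_cases hy' : g' < y i
    · rw [hg' _ hy']
      by_cases hx' : x i < g
      · rw [if_pos ⟨hx', hy'⟩, hg _ hx']; norm_num
      · rw [if_neg (fun h => hx' h.1)]; have := h0 (x i); linarith
    · rw [if_neg (fun h => hy' h.2)]
      have h3 : i ≤ i0 := by
        by_contra hcon
        have := hy (not_le.1 hcon).le
        have := hi0.2.2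
        linarith
      have h4 := hx h3
      rw [hg (x i) (lt_of_le_of_lt h4 hi0.2.1)]
      have := h1 (y i)
      linarith

theorem sorted_close (x y : ∀ N : ℕ, Fin N → ℝ) (hx : ∀ N, Monotone (x N))
    (hy : ∀ N, Monotone (y N)) (A B : ℝ)
    (hAB : ∀ᶠ N in atTop, ∀ i, (A ≤ x N i ∧ x N i ≤ B) ∧ (A ≤ y N i ∧ y N i ≤ B))
    (hf : ∀ f : ℝ → ℝ, Continuous f → (∃ C, ∀ x, |f x| ≤ C) →
      Tendsto (fun N : ℕ => (∑ i, f (x N i)) / N - (∑ i, f (y N i)) / N) atTop (𝓝 0))
    {ε : ℝ} (hε : 0 < ε) :
    ∀ᶠ N : ℕ in atTop, ∑ i, max (y N i - x N i) 0 ≤ ε * N := by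
  classical
  set η := ε / 4 with hη
  have hηpos : 0 < η := by positivity
  set c := max (B - A) 0 with hc
  have hc0 : 0 ≤ c := le_max_right _ _
  set K := ⌈c / η⌉₊ + 1 with hK
  set ε' := ε / (2 * (c + 1) * (K + 1)) with hε'
  have hε'pos : 0 < ε' := by positivity
  set hh : ℕ → ℝ → ℝ := fun j z => max 0 (min 1 ((A + (j + 1) * η - z) / η)) with hhh
  have hcont : ∀ j, Continuous (hh j) := by
    intro j
    simp only [hhh]
    fun_prop
  have hh0 : ∀ j z, 0 ≤ hh j z := fun j z => le_max_left _ _
  have hh1 : ∀ j z, hh j z ≤ 1 := fun j z => max_le zero_le_one (min_le_left _ _)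
  have hgrid : ∀ᶠ N : ℕ in atTop, ∀ j ∈ Finset.range (K + 1),
      (∑ i, hh j (x N i)) / N - (∑ i, hh j (y N i)) / N ≤ ε' := by
    refine (Filter.eventually_all_finset _).2 fun j _ => ?_
    have h1 := hf (hh j) (hcont j) ⟨1, fun z => by
      rw [abs_of_nonneg (hh0 j z)]; exact hh1 j z⟩
    filter_upwards [h1.eventually_lt_const hε'pos] with N hN
    exact hN.le
  filter_upwards [hgrid, hAB, eventually_gt_atTop 0] with N h1 h2 hN
  have hNpos : (0 : ℝ) < N := by exact_mod_cast hN
  have hpt : ∀ i, max (y N i - x N i) 0 ≤ 2 * η + c * ∑ j ∈ Finset.range (K + 1),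
      (if x N i < A + j * η ∧ A + (j + 1) * η < y N i then (1 : ℝ) else 0) := by
    intro i
    have hsum0 : 0 ≤ ∑ j ∈ Finset.range (K + 1),
      (if x N i < A + j * η ∧ A + (j + 1) * η < y N i then (1 : ℝ) else 0) :=
      Finset.sum_nonneg fun j _ => by split_ifs <;> norm_num
    by_cases hb : y N i - x N i ≤ 2 * η
    · refine max_le (hb.trans ?_) ?_
      · have := mul_nonneg hc0 hsum0; linarith
      · have := mul_nonneg hc0 hsum0; linarith
    · push Not at hb
      obtain ⟨⟨hxA, hxB⟩, hyA, hyB⟩ := h2 i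
      set j := ⌊(x N i - A) / η⌋₊ + 1 with hj
      have hj1 : ((⌊(x N i - A) / η⌋₊ : ℕ) : ℝ) * η ≤ x N i - A := by
        have := Nat.floor_le (a := (x N i - A) / η) (div_nonneg (by linarith) hηpos.le)
        rwa [le_div_iff₀ hηpos] at this
      have hj2 : x N i - A < (((⌊(x N i - A) / η⌋₊ : ℕ) : ℝ) + 1) * η := by
        have := Nat.lt_floor_add_one ((x N i - A) / η)
        rwa [div_lt_iff₀ hηpos] at this
      have hjK : j ∈ Finset.range (K + 1) := by
        rw [Finset.mem_range]
        have h5 : ((⌊(x N i - A) / η⌋₊ : ℕ) : ℝ) ≤ (⌈c / η⌉₊ : ℕ) := by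
          have h6 := Nat.le_ceil (c / η)
          have h7 : ((⌊(x N i - A) / η⌋₊ : ℕ) : ℝ) ≤ (x N i - A) / η := by
            rwa [le_div_iff₀ hηpos]
          have h8 : (x N i - A) / η ≤ c / η := by
            have := le_max_left (B - A) 0
            gcongr
            linarith
          linarith
        have : ⌊(x N i - A) / η⌋₊ ≤ ⌈c / η⌉₊ := by exact_mod_cast h5
        omega
      have hterm : (1 : ℝ) ≤ ∑ j ∈ Finset.range (K + 1),
          (if x N i < A + j * η ∧ A + (j + 1) * η < y N i then (1 : ℝ) else 0) := by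
        have h9 := Finset.single_le_sum (f := fun j : ℕ =>
          (if x N i < A + j * η ∧ A + (j + 1) * η < y N i then (1 : ℝ) else 0))
          (fun j _ => by split_ifs <;> norm_num) hjK
        refine le_trans ?_ h9
        rw [if_pos]
        constructor
        · rw [hj]; push_cast; linarith
        · rw [hj]; push_cast
          nlinarith
      have h10 : y N i - x N i ≤ c := by
        have := le_max_left (B - A) 0
        linarith
      refine max_le ?_ (by positivity)
      nlinarith
  calc ∑ i, max (y N i - x N i) 0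
      ≤ ∑ i : Fin N, (2 * η + c * ∑ j ∈ Finset.range (K + 1),
      (if x N i < A + j * η ∧ A + (j + 1) * η < y N i then (1 : ℝ) else 0)) :=
        Finset.sum_le_sum fun i _ => hpt i
    _ = 2 * η * N + c * ∑ j ∈ Finset.range (K + 1), ∑ i : Fin N,
      (if x N i < A + j * η ∧ A + (j + 1) * η < y N i then (1 : ℝ) else 0) := by
        rw [Finset.sum_add_distrib, Finset.sum_const, Finset.card_univ, Fintype.card_fin,
          nsmul_eq_mul, ← Finset.mul_sum, Finset.sum_comm]
        ring
    _ ≤ 2 * η * N + c * ∑ j ∈ Finset.range (K + 1), ε' * N := by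
        gcongr with j hj
        have h11 := count_le (x N) (y N) (hx N) (hy N) (g := A + j * η)
          (g' := A + (j + 1) * η) (hh j) (hh0 j) (hh1 j) (by
            intro z hz
            simp only [hhh]
            rw [min_eq_left, max_eq_right zero_le_one]
            rw [le_div_iff₀ hηpos]
            nlinarith) (by
            intro z hz
            simp only [hhh]
            rw [max_eq_left]
            refine (min_le_right _ _).trans ?_
            exact div_nonpos_of_nonpos_of_nonneg (by linarith) hηpos.le)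
        rw [← Finset.sum_boole] at h11
        refine h11.trans (max_le (by positivity) ?_)
        have h12 := h1 j hj
        rw [← sub_div, div_le_iff₀ hNpos] at h12
        exact h12
    _ ≤ ε * N := by
        rw [Finset.sum_const, Finset.card_range, nsmul_eq_mul]
        have h13 : c * ((K + 1 : ℕ) * (ε' * N)) ≤ ε / 2 * N := by
          have h14 : c * ((K + 1 : ℕ) * ε') ≤ ε / 2 := by
            rw [hε']
            push_cast
            have : c * (((K : ℝ) + 1) * (ε / (2 * (c + 1) * (K + 1)))) = ε / 2 * (c / (c + 1)) := by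
              field_simp
            rw [this]
            have h15 : c / (c + 1) ≤ 1 := by
              rw [div_le_one (by linarith)]; linarith
            nlinarith
          calc c * ((K + 1 : ℕ) * (ε' * N)) = c * ((K + 1 : ℕ) * ε') * N := by ring
            _ ≤ ε / 2 * N := by gcongr
        have : 2 * η * N = ε / 2 * N := by rw [hη]; ring
        rw [this]
        linarith

end Vale.Agent.Lib.P166
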