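import Mathlib

/-! P166: a rearrangement lemma (weak majorization). -/

namespace Vale.Agent.Lib.P166

theorem abel_sum : ∀ {n : ℕ} (g z : Fin n → ℝ), Monotone g → (∀ i, 0 ≤ g i) →
    (∀ k : ℕ, 0 ≤ ∑ j : Fin n, if k ≤ (j : ℕ) then z j else 0) → 0 ≤ ∑ j, g j * z j := by
  intro n
  induction n with
  | zero => intro g z _ _ _; simp
  | succ n ih =>
    intro g z hg h0 hz
    have h1 : ∑ j, g j * z j = g 0 * ∑ j, z j +
        ∑ j : Fin n, (g j.succ - g 0) * z j.succ := by
      rw [Fin.sum_univ_succ, Fin.sum_univ_succ (f := z), mul_add, Finset.mul_sum]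
      simp only [sub_mul]
      rw [Finset.sum_sub_distrib]
      ring
    rw [h1]
    have h2 : 0 ≤ ∑ j, z j := by simpa using hz 0
    refine add_nonneg (mul_nonneg (h0 0) h2) (ih _ _ ?_ ?_ ?_)
    · intro a b hab
      have := hg (Fin.succ_le_succ_iff.2 hab)
      simp only
      linarith
    · intro i
      have := hg (Fin.zero_le i.succ)
      linarith
    · intro k
      have := hz (k + 1)
      rw [Fin.sum_univ_succ] at this
      simpa using this

theorem tail_le {n : ℕ} (x y : Fin n → ℝ) (hy : Monotone y)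
    (h : ∀ t, ∑ i, max (x i - t) 0 ≤ ∑ i, max (y i - t) 0) (k : ℕ) :
    0 ≤ ∑ j : Fin n, if k ≤ (j : ℕ) then (y j - x j) else 0 := by
  rcases lt_or_ge k n with hk | hk
  · set t := y ⟨k, hk⟩ with ht
    have h1 : ∀ j : Fin n, (if k ≤ (j : ℕ) then (y j - x j) else 0) ≥
        max (y j - t) 0 - max (x j - t) 0 := by
      intro j
      split_ifs with hj
      · have h2 : t ≤ y j := hy (show (⟨k, hk⟩ : Fin n) ≤ j from hj)
        rw [max_eq_left (by linarith)]
        have := le_max_left (x j - t) 0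
        linarith
      · have h2 : y j ≤ t := hy (show j ≤ (⟨k, hk⟩ : Fin n) from (not_le.1 hj).le)
        rw [max_eq_right (by linarith : y j - t ≤ 0)]
        have := le_max_right (x j - t) 0
        linarith
    have h3 : ∑ j : Fin n, (if k ≤ (j : ℕ) then (y j - x j) else 0) ≥
        ∑ j, (max (y j - t) 0 - max (x j - t) 0) := Finset.sum_le_sum fun j _ => h1 j
    rw [Finset.sum_sub_distrib] at h3
    have := h t
    linarith
  · refine le_of_eq (Finset.sum_eq_zero fun j _ => ?_).symm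
    rw [if_neg]
    have := j.2
    omega

theorem exists_perm {n : ℕ} (g x y : Fin n → ℝ) (hg : ∀ i, 0 ≤ g i)
    (h : ∀ t, ∑ i, max (x i - t) 0 ≤ ∑ i, max (y i - t) 0) :
    ∃ π : Equiv.Perm (Fin n), ∑ i, g i * x i ≤ ∑ i, g i * y (π i) := by
  set τ := Tuple.sort g with hτ
  set ρ := Tuple.sort y with hρ
  refine ⟨τ.symm.trans ρ, ?_⟩
  have h1 : ∑ i, g i * y ((τ.symm.trans ρ) i) = ∑ j, g (τ j) * y (ρ j) := by
    rw [← Equiv.sum_comp τ]
    exact Finset.sum_congr rfl fun j _ => by simp
  have h2 : ∑ i, g i * x i = ∑ j, g (τ j) * x (τ j) := (Equiv.sum_comp τ _).symm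
  rw [h1, h2]
  have h3 := abel_sum (fun j => g (τ j)) (fun j => y (ρ j) - x (τ j))
    (Tuple.monotone_sort g) (fun i => hg _)
    (tail_le (fun j => x (τ j)) (fun j => y (ρ j)) (Tuple.monotone_sort y) (fun t => by
      rw [Equiv.sum_comp τ (fun i => max (x i - t) 0), Equiv.sum_comp ρ (fun i => max (y i - t) 0)]
      exact h t))
  simp only [mul_sub] at h3
  rw [Finset.sum_sub_distrib] at h3
  linarith

end Vale.Agent.Lib.P166
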