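import Vale.Agent.Lib.P166.Defs

/-! P166: elementary properties of the pressure: monotone, shift, tangent inequality,
permutation invariance of the law. -/

open MeasureTheory Filter Topology Matrix

namespace Vale.Agent.Lib.P166

variable {N : ℕ}

/-- exponent -/
noncomputable def ener (lam : Fin N → ℝ) (U : Matrix (Fin N) (Fin N) ℝ) (σ : Fin N → Bool) : ℝ :=
  ∑ i, lam i * ((U *ᵥ spin σ) i) ^ 2

theorem quad_eq (lam : Fin N → ℝ) (U : Matrix (Fin N) (Fin N) ℝ) (σ : Fin N → Bool) :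
    spin σ ⬝ᵥ (coupling lam U *ᵥ spin σ) = ener lam U σ := by
  unfold coupling ener
  rw [← Matrix.mulVec_mulVec, ← Matrix.mulVec_mulVec, Matrix.dotProduct_mulVec,
    Matrix.vecMul_transpose]
  simp only [dotProduct, Matrix.mulVec_diagonal]
  refine Finset.sum_congr rfl fun i _ => ?_
  ring

/-- logarithm of the partition function -/
noncomputable def L (β : ℝ) (lam : Fin N → ℝ) (U : Matrix (Fin N) (Fin N) ℝ) : ℝ :=
  Real.log (∑ σ : Fin N → Bool, Real.exp (β / 2 * ener lam U σ))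

theorem Z_pos (β : ℝ) (lam : Fin N → ℝ) (U : Matrix (Fin N) (Fin N) ℝ) :
    0 < ∑ σ : Fin N → Bool, Real.exp (β / 2 * ener lam U σ) :=
  Finset.sum_pos (fun _ _ => Real.exp_pos _) Finset.univ_nonempty

theorem pressure_eq (β : ℝ) (lam : Fin N → ℝ) (U : Matrix (Fin N) (Fin N) ℝ) :
    pressure β (coupling lam U) = 1 / N * (N * Real.log (1 / 2) + L β lam U) := by
  unfold pressure L
  simp only [quad_eq]
  rw [Real.log_mul (by positivity) (Z_pos β lam U).ne', Real.log_pow]

theorem ener_mono {lam lam' : Fin N → ℝ} (h : ∀ i, lam i ≤ lam' i)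
    (U : Matrix (Fin N) (Fin N) ℝ) (σ : Fin N → Bool) : ener lam U σ ≤ ener lam' U σ :=
  Finset.sum_le_sum fun i _ => mul_le_mul_of_nonneg_right (h i) (sq_nonneg _)

theorem L_mono {β : ℝ} (hβ : 0 ≤ β) {lam lam' : Fin N → ℝ} (h : ∀ i, lam i ≤ lam' i)
    (U : Matrix (Fin N) (Fin N) ℝ) : L β lam U ≤ L β lam' U := by
  unfold L
  refine Real.log_le_log (Z_pos β lam U) (Finset.sum_le_sum fun σ _ => Real.exp_le_exp.2 ?_)
  exact mul_le_mul_of_nonneg_left (ener_mono h U σ) (by linarith)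

theorem norm_sq {U : Matrix (Fin N) (Fin N) ℝ} (hU : Uᵀ * U = 1) (σ : Fin N → Bool) :
    ∑ i, ((U *ᵥ spin σ) i) ^ 2 = N := by
  have h1 : ∑ i, ((U *ᵥ spin σ) i) ^ 2 = (U *ᵥ spin σ) ⬝ᵥ (U *ᵥ spin σ) := by
    simp only [dotProduct]
    exact Finset.sum_congr rfl fun i _ => by ring
  rw [h1, Matrix.dotProduct_mulVec, ← Matrix.mulVec_transpose, Matrix.mulVec_mulVec, hU,
    Matrix.one_mulVec]
  simp only [dotProduct, spin]
  have : ∀ i : Fin N, ((if σ i then (1 : ℝ) else -1) * (if σ i then (1 : ℝ) else -1)) = 1 := by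
    intro i; split_ifs <;> norm_num
  simp [this]

theorem L_shift (β : ℝ) (lam : Fin N → ℝ) (c : ℝ) {U : Matrix (Fin N) (Fin N) ℝ}
    (hU : Uᵀ * U = 1) : L β (fun i => lam i + c) U = L β lam U + β / 2 * c * N := by
  unfold L
  have h1 : ∀ σ : Fin N → Bool, Real.exp (β / 2 * ener (fun i => lam i + c) U σ) =
      Real.exp (β / 2 * c * N) * Real.exp (β / 2 * ener lam U σ) := by
    intro σ
    rw [← Real.exp_add]
    congr 1
    unfold ener
    simp only [add_mul]
    rw [Finset.sum_add_distrib, ← Finset.mul_sum, norm_sq hU]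
    ring
  simp only [h1]
  rw [← Finset.mul_sum, Real.log_mul (Real.exp_pos _).ne' (Z_pos β lam U).ne', Real.log_exp]
  ring

/-- gradient of `L` -/
noncomputable def grad (β : ℝ) (lam : Fin N → ℝ) (U : Matrix (Fin N) (Fin N) ℝ) (i : Fin N) : ℝ :=
  (∑ σ : Fin N → Bool, Real.exp (β / 2 * ener lam U σ) * (β / 2 * ((U *ᵥ spin σ) i) ^ 2)) /
    ∑ σ : Fin N → Bool, Real.exp (β / 2 * ener lam U σ)

theorem grad_nonneg {β : ℝ} (hβ : 0 ≤ β) (lam : Fin N → ℝ) (U : Matrix (Fin N) (Fin N) ℝ)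
    (i : Fin N) : 0 ≤ grad β lam U i := by
  unfold grad
  refine div_nonneg (Finset.sum_nonneg fun σ _ => ?_) (Z_pos β lam U).le
  positivity

theorem tangent (β : ℝ) (lam lam' : Fin N → ℝ) (U : Matrix (Fin N) (Fin N) ℝ) :
    L β lam U + ∑ i, grad β lam U i * (lam' i - lam i) ≤ L β lam' U := by
  set Z := ∑ σ : Fin N → Bool, Real.exp (β / 2 * ener lam U σ) with hZ
  have hZpos : 0 < Z := Z_pos β lam U
  set m := ∑ i, grad β lam U i * (lam' i - lam i) with hm
  have hm' : m * Z = ∑ σ : Fin N → Bool, Real.exp (β / 2 * ener lam U σ) *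
      (β / 2 * (ener lam' U σ - ener lam U σ)) := by
    rw [hm, Finset.sum_mul]
    unfold grad
    simp only [← hZ]
    have : ∀ i, (∑ σ : Fin N → Bool, Real.exp (β / 2 * ener lam U σ) *
        (β / 2 * ((U *ᵥ spin σ) i) ^ 2)) / Z * (lam' i - lam i) * Z =
        ∑ σ : Fin N → Bool, Real.exp (β / 2 * ener lam U σ) *
        (β / 2 * ((U *ᵥ spin σ) i) ^ 2) * (lam' i - lam i) := by
      intro i
      rw [← Finset.sum_mul]
      field_simp
    simp only [this]
    rw [Finset.sum_comm]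
    refine Finset.sum_congr rfl fun σ _ => ?_
    have h5 : ener lam' U σ - ener lam U σ =
        ∑ i, (lam' i - lam i) * ((U *ᵥ spin σ) i) ^ 2 := by
      unfold ener
      rw [← Finset.sum_sub_distrib]
      exact Finset.sum_congr rfl fun i _ => by ring
    rw [h5, Finset.mul_sum, Finset.mul_sum]
    refine Finset.sum_congr rfl fun i _ => ?_
    ring
  have key : Real.exp m * Z ≤ ∑ σ : Fin N → Bool, Real.exp (β / 2 * ener lam' U σ) := by
    have h1 : ∀ σ : Fin N → Bool, Real.exp m * (Real.exp (β / 2 * ener lam U σ) *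
        (1 + (β / 2 * (ener lam' U σ - ener lam U σ) - m))) ≤
        Real.exp (β / 2 * ener lam' U σ) := by
      intro σ
      have h2 := Real.add_one_le_exp (β / 2 * (ener lam' U σ - ener lam U σ) - m)
      have h3 : Real.exp (β / 2 * ener lam' U σ) = Real.exp m *
          (Real.exp (β / 2 * ener lam U σ) *
            Real.exp (β / 2 * (ener lam' U σ - ener lam U σ) - m)) := by
        rw [← Real.exp_add, ← Real.exp_add]; congr 1; ring
      rw [h3]
      gcongr
      linarith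
    refine le_trans (le_of_eq ?_) (Finset.sum_le_sum fun σ _ => h1 σ)
    rw [← Finset.mul_sum]
    congr 1
    have : ∀ σ : Fin N → Bool, Real.exp (β / 2 * ener lam U σ) *
        (1 + (β / 2 * (ener lam' U σ - ener lam U σ) - m)) =
        Real.exp (β / 2 * ener lam U σ) + Real.exp (β / 2 * ener lam U σ) *
        (β / 2 * (ener lam' U σ - ener lam U σ)) - Real.exp (β / 2 * ener lam U σ) * m := by
      intro σ; ring
    simp only [this]
    rw [Finset.sum_sub_distrib, Finset.sum_add_distrib, ← hm', ← Finset.sum_mul, ← hZ]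
    ring
  have := Real.log_le_log (by positivity) key
  rw [Real.log_mul (Real.exp_pos _).ne' hZpos.ne', Real.log_exp] at this
  unfold L
  rw [← hZ]
  linarith

theorem L_perm (β : ℝ) (lam : Fin N → ℝ) (π : Equiv.Perm (Fin N))
    (U : Matrix (Fin N) (Fin N) ℝ) :
    L β (lam ∘ π) U = L β lam (U.submatrix π.symm id) := by
  unfold L
  congr 1
  refine Finset.sum_congr rfl fun σ _ => ?_
  congr 2
  unfold ener
  rw [← Equiv.sum_comp π (fun j => lam j * ((U.submatrix π.symm id *ᵥ spin σ) j) ^ 2)]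
  refine Finset.sum_congr rfl fun i _ => ?_
  simp [Matrix.mulVec, dotProduct]

end Vale.Agent.Lib.P166
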