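import Vale.Agent.Lib.P166.Defs
import Vale.Agent.Lib.P166.Press
import Vale.Agent.Lib.P166.Major

/-! P166: expectations of the pressure under the Haar measure. -/

open MeasureTheory Filter Topology Matrix

namespace Vale.Agent.Lib.P166

variable {N : ℕ} {Ω : Type} [MeasurableSpace Ω] {P : Measure Ω}
  {U : Ω → Matrix (Fin N) (Fin N) ℝ}

theorem IsHaar.meas' (hU : IsHaar P U) :
    Measurable (fun ω => (fun i j => U ω i j : Fin N → Fin N → ℝ)) :=
  measurable_pi_lambda _ fun i => measurable_pi_lambda _ fun j => hU.meas i j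

theorem permMat_orth (π : Equiv.Perm (Fin N)) :
    (Matrix.of fun i j : Fin N => if j = π i then (1 : ℝ) else 0)ᵀ *
      (Matrix.of fun i j : Fin N => if j = π i then (1 : ℝ) else 0) = 1 := by
  ext i j
  rw [Matrix.mul_apply, Matrix.one_apply]
  simp only [Matrix.transpose_apply, Matrix.of_apply, mul_ite, mul_one, mul_zero]
  rw [Finset.sum_eq_single (π.symm j)]
  · simp
  · intro b _ hb
    rw [if_neg]
    rintro rfl
    simp at hb
  · simp

theorem permMat_mul (π : Equiv.Perm (Fin N)) (M : Matrix (Fin N) (Fin N) ℝ) (i j : Fin N) :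
    ((Matrix.of fun i j : Fin N => if j = π i then (1 : ℝ) else 0) * M) i j = M (π i) j := by
  rw [Matrix.mul_apply]
  simp

theorem integral_perm (hU : IsHaar P U) (π : Equiv.Perm (Fin N))
    (F : (Fin N → Fin N → ℝ) → ℝ) (hF : Measurable F) :
    ∫ ω, F (fun i j => U ω (π i) j) ∂P = ∫ ω, F (fun i j => U ω i j) ∂P := by
  have h := hU.inv _ (permMat_orth π)
  simp only [permMat_mul] at h
  have h1 : Measurable (fun ω => (fun i j => U ω (π i) j : Fin N → Fin N → ℝ)) :=
    measurable_pi_lambda _ fun i => measurable_pi_lambda _ fun j => hU.meas _ j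
  rw [← integral_map (φ := fun ω => (fun i j => U ω (π i) j : Fin N → Fin N → ℝ)) h1.aemeasurable
    hF.aestronglyMeasurable, h, integral_map hU.meas'.aemeasurable hF.aestronglyMeasurable]

theorem measurable_L (β : ℝ) (lam : Fin N → ℝ) :
    Measurable (fun M : Fin N → Fin N → ℝ => L β lam (Matrix.of M)) := by
  unfold L ener
  simp only [Matrix.mulVec, dotProduct, Matrix.of_apply]
  fun_prop

theorem measurable_grad (β : ℝ) (lam : Fin N → ℝ) (i : Fin N) :
    Measurable (fun M : Fin N → Fin N → ℝ => grad β lam (Matrix.of M) i) := by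
  unfold grad ener
  simp only [Matrix.mulVec, dotProduct, Matrix.of_apply]
  fun_prop

theorem L_measurable' (hU : IsHaar P U) (β : ℝ) (lam : Fin N → ℝ) :
    Measurable (fun ω => L β lam (U ω)) := (measurable_L β lam).comp hU.meas'

theorem integral_L_perm (hU : IsHaar P U) (β : ℝ) (lam : Fin N → ℝ) (π : Equiv.Perm (Fin N))
    (φ : ℝ → ℝ) (hφ : Measurable φ) :
    ∫ ω, φ (L β (lam ∘ π) (U ω)) ∂P = ∫ ω, φ (L β lam (U ω)) ∂P := by
  have h := integral_perm hU π.symm (fun M => φ (L β lam (Matrix.of M)))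
    (hφ.comp (measurable_L β lam))
  simp only [L_perm]
  exact h

theorem abs_L_le {β : ℝ} (hβ : 0 ≤ β) (lam : Fin N → ℝ) {M : Matrix (Fin N) (Fin N) ℝ}
    (hM : Mᵀ * M = 1) :
    |L β lam M| ≤ |Real.log (∑ _σ : Fin N → Bool, (1 : ℝ))| + β / 2 * (∑ i, |lam i|) * N := by
  set c := ∑ i, |lam i| with hc
  have h0 : L β (fun _ => (0 : ℝ)) M = Real.log (∑ _σ : Fin N → Bool, (1 : ℝ)) := by
    unfold L ener
    simp
  have hci : ∀ i, |lam i| ≤ c := fun i =>
    Finset.single_le_sum (f := fun i => |lam i|) (fun i _ => abs_nonneg _) (Finset.mem_univ i)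
  have h1 := L_shift β (fun _ : Fin N => (0 : ℝ)) c hM
  have h2 := L_shift β (fun _ : Fin N => (0 : ℝ)) (-c) hM
  have h3 := L_mono hβ (lam := lam) (lam' := fun i => (fun _ : Fin N => (0 : ℝ)) i + c)
    (fun i => by have := (abs_le.1 (hci i)).2; simpa using this) M
  have h4 := L_mono hβ (lam := fun i => (fun _ : Fin N => (0 : ℝ)) i + -c) (lam' := lam)
    (fun i => by have := (abs_le.1 (hci i)).1; simpa using this) M
  rw [h0] at h1 h2
  rw [h1] at h3
  rw [h2] at h4
  rw [abs_le]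
  have h5 := neg_abs_le (Real.log (∑ _σ : Fin N → Bool, (1 : ℝ)))
  have h6 := le_abs_self (Real.log (∑ _σ : Fin N → Bool, (1 : ℝ)))
  constructor
  · have : β / 2 * -c * N = -(β / 2 * c * N) := by ring
    linarith
  · linarith

theorem integrable_L [IsProbabilityMeasure P] (hU : IsHaar P U) {β : ℝ} (hβ : 0 ≤ β)
    (lam : Fin N → ℝ) : Integrable (fun ω => L β lam (U ω)) P :=
  Integrable.of_bound (L_measurable' hU β lam).aestronglyMeasurable _
    (Filter.Eventually.of_forall fun ω => by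
      rw [Real.norm_eq_abs]; exact abs_L_le hβ lam (hU.orth ω))

theorem grad_le {β : ℝ} (hβ : 0 ≤ β) (lam : Fin N → ℝ) {M : Matrix (Fin N) (Fin N) ℝ}
    (hM : Mᵀ * M = 1) (i : Fin N) : grad β lam M i ≤ β / 2 * N := by
  unfold grad
  rw [div_le_iff₀ (Z_pos β lam M), Finset.mul_sum]
  refine Finset.sum_le_sum fun σ _ => ?_
  have h1 : ((M *ᵥ spin σ) i) ^ 2 ≤ N := by
    rw [← norm_sq hM σ]
    exact Finset.single_le_sum (f := fun i => ((M *ᵥ spin σ) i) ^ 2)
      (fun i _ => sq_nonneg _) (Finset.mem_univ i)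
  rw [mul_comm]
  gcongr

theorem integrable_grad [IsProbabilityMeasure P] (hU : IsHaar P U) {β : ℝ} (hβ : 0 ≤ β)
    (lam : Fin N → ℝ) (i : Fin N) : Integrable (fun ω => grad β lam (U ω) i) P :=
  Integrable.of_bound ((measurable_grad β lam i).comp hU.meas').aestronglyMeasurable
    (β / 2 * N) (Filter.Eventually.of_forall fun ω => by
      rw [Real.norm_eq_abs]
      show |grad β lam (U ω) i| ≤ _
      rw [abs_of_nonneg (grad_nonneg hβ lam _ i)]
      exact grad_le hβ lam (hU.orth ω) i)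

/-- Schur monotonicity of the expected pressure -/
theorem schur [IsProbabilityMeasure P] (hU : IsHaar P U) {β : ℝ} (hβ : 0 ≤ β) (x y : Fin N → ℝ)
    (h : ∀ t, ∑ i, max (x i - t) 0 ≤ ∑ i, max (y i - t) 0) :
    ∫ ω, L β x (U ω) ∂P ≤ ∫ ω, L β y (U ω) ∂P := by
  obtain ⟨π, hπ⟩ := exists_perm (fun i => ∫ ω, grad β x (U ω) i ∂P) x y
    (fun i => integral_nonneg fun ω => grad_nonneg hβ x _ i) h
  have h1 : ∫ ω, L β y (U ω) ∂P = ∫ ω, L β (y ∘ π) (U ω) ∂P :=
    (integral_L_perm hU β y π id measurable_id).symm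
  rw [h1]
  have hI : ∀ i, Integrable (fun ω => grad β x (U ω) i * ((y ∘ π) i - x i)) P := fun i =>
    (integrable_grad hU hβ x i).mul_const _
  have h2 : ∫ ω, (L β x (U ω) + ∑ i, grad β x (U ω) i * ((y ∘ π) i - x i)) ∂P ≤
      ∫ ω, L β (y ∘ π) (U ω) ∂P :=
    integral_mono ((integrable_L hU hβ x).add (integrable_finsetSum _ fun i _ => hI i))
      (integrable_L hU hβ _) fun ω => tangent β x (y ∘ π) (U ω)
  rw [integral_add (integrable_L hU hβ x) (integrable_finsetSum _ fun i _ => hI i),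
    integral_finsetSum _ fun i _ => hI i] at h2
  simp only [integral_mul_const] at h2
  have h3 : 0 ≤ ∑ i, (∫ ω, grad β x (U ω) i ∂P) * ((y ∘ π) i - x i) := by
    simp only [mul_sub, Function.comp_apply]
    rw [Finset.sum_sub_distrib]
    linarith
  linarith

end Vale.Agent.Lib.P166
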