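import Vale.Agent.Lib.P166.Defs
import Vale.Agent.Lib.P166.Haar
import Vale.Agent.Lib.P166.Asym

/-! P166: comparison and universality for admissible arrays. -/

open MeasureTheory Filter Topology Matrix

namespace Vale.Agent.Lib.P166

variable {μ μ' : Measure ℝ} {lam lam' : (N : ℕ) → Fin N → ℝ}

theorem adm_ae (h : Admissible μ lam) :
    ∀ᵐ x ∂μ, sInf μ.support ≤ x ∧ x ≤ sSup μ.support := by
  filter_upwards [Measure.support_mem_ae (μ := μ)] with x hx
  exact ⟨csInf_le h.compact.bddBelow hx, le_csSup h.compact.bddAbove hx⟩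

theorem adm_high (h : Admissible μ lam) {c : ℝ} (hc : sSup μ.support < c) :
    ∀ᶠ N in atTop, ∀ i, lam N i ≤ c := by
  filter_upwards [h.high.eventually_lt_const hc] with N hN i
  exact (le_ciSup (Set.finite_range _).bddAbove i).trans hN.le

theorem adm_low (h : Admissible μ lam) {c : ℝ} (hc : c < sInf μ.support) :
    ∀ᶠ N in atTop, ∀ i, c ≤ lam N i := by
  filter_upwards [h.low.eventually_const_lt hc] with N hN i
  exact hN.le.trans (ciInf_le (Set.finite_range _).bddBelow i)

theorem integrable_posPart (h : Admissible μ lam) (t : ℝ) :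
    Integrable (fun x => max (x - t) 0) μ := by
  have := h.prob
  refine Integrable.of_bound (C := max (sSup μ.support - t) 0)
    (by fun_prop : Measurable fun x : ℝ => max (x - t) 0).aestronglyMeasurable ?_
  filter_upwards [adm_ae h] with x hx
  rw [Real.norm_eq_abs, abs_of_nonneg (le_max_right _ _)]
  exact max_le_max (by linarith) le_rfl

theorem adm_pot (h : Admissible μ lam) (t : ℝ) :
    Tendsto (fun N : ℕ => (∑ i, max (lam N i - t) 0) / N) atTop
      (𝓝 (∫ x, max (x - t) 0 ∂μ)) := by
  set b := sSup μ.support with hb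
  have h1 := h.weak (fun x => min (max (x - t) 0) (max (b + 1 - t) 0)) (by fun_prop)
    ⟨max (b + 1 - t) 0, fun x => by
      rw [abs_of_nonneg (le_min (le_max_right _ _) (le_max_right _ _))]
      exact min_le_right _ _⟩
  have h2 : ∫ x, min (max (x - t) 0) (max (b + 1 - t) 0) ∂μ = ∫ x, max (x - t) 0 ∂μ := by
    refine integral_congr_ae ?_
    filter_upwards [adm_ae h] with x hx
    exact min_eq_left (max_le_max (by linarith) le_rfl)
  rw [h2] at h1
  refine h1.congr' ?_
  filter_upwards [adm_high h (show b < b + 1 by linarith)] with N hN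
  congr 1
  exact Finset.sum_congr rfl fun i _ =>
    min_eq_left (max_le_max (by have := hN i; linarith) le_rfl)

theorem adm_strict (h : Admissible μ lam) {s t : ℝ} (hst : s < t) (hs : s < sSup μ.support) :
    ∫ x, max (x - t) 0 ∂μ < ∫ x, max (x - s) 0 ∂μ := by
  have := h.prob
  have hne : μ.support.Nonempty := Measure.nonempty_support (IsProbabilityMeasure.ne_zero μ)
  have hb := h.compact.sSup_mem hne
  have hpos : 0 < μ (Set.Ioi s) := (Measure.mem_support_iff_forall _).1 hb _ (Ioi_mem_nhds hs)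
  have hint : Integrable (fun x => max (x - s) 0 - max (x - t) 0) μ :=
    (integrable_posPart h s).sub (integrable_posPart h t)
  have h1 : 0 < ∫ x, (max (x - s) 0 - max (x - t) 0) ∂μ := by
    rw [integral_pos_iff_support_of_nonneg _ hint]
    · refine lt_of_lt_of_le hpos (measure_mono ?_)
      intro x hx
      rw [Function.mem_support]
      have hx' : s < x := hx
      rw [max_eq_left (by linarith : (0 : ℝ) ≤ x - s)]
      rcases le_total x t with hxt | hxt
      · rw [max_eq_right (by linarith : x - t ≤ 0)]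
        intro h0; linarith
      · rw [max_eq_left (by linarith : (0 : ℝ) ≤ x - t)]
        intro h0; linarith
    · intro x
      simp only [Pi.zero_apply, sub_nonneg]
      exact max_le_max (by linarith) le_rfl
  rw [integral_sub (integrable_posPart h s) (integrable_posPart h t)] at h1
  linarith

theorem adm_zero (h : Admissible μ lam) {t : ℝ} (ht : sSup μ.support ≤ t) :
    ∫ x, max (x - t) 0 ∂μ = 0 := by
  rw [integral_eq_zero_of_ae]
  filter_upwards [adm_ae h] with x hx
  exact max_eq_right (by linarith [hx.2])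

theorem eventually_maj (h : Admissible μ lam) (h' : Admissible μ' lam')
    (hcx : ∀ t, ∫ x, max (x - t) 0 ∂μ ≤ ∫ x, max (x - t) 0 ∂μ') {δ : ℝ} (hδ : 0 < δ) :
    ∀ᶠ N in atTop, ∀ t, ∑ i, max (lam N i - t) 0 ≤ ∑ i, max (lam' N i + δ - t) 0 := by
  have hbb : sSup μ.support ≤ sSup μ'.support := by
    by_contra hcon
    push Not at hcon
    have h1 := adm_strict h hcon hcon
    have h2 := hcx (sSup μ'.support)
    rw [adm_zero h' le_rfl] at h2
    have h3 : 0 ≤ ∫ x, max (x - sSup μ.support) 0 ∂μ :=
      integral_nonneg fun x => le_max_right _ _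
    linarith
  refine core lam lam' _ _ (min (sInf μ.support) (sInf μ'.support) - 1) (sSup μ'.support)
    (adm_pot h) (adm_pot h') hcx (fun s t hst hs => adm_strict h' hst hs) ?_ ?_ hδ
  · have h1 := min_le_left (sInf μ.support) (sInf μ'.support)
    have h2 := min_le_right (sInf μ.support) (sInf μ'.support)
    filter_upwards [adm_low h (c := min (sInf μ.support) (sInf μ'.support) - 1) (by linarith),
      adm_low h' (c := min (sInf μ.support) (sInf μ'.support) - 1) (by linarith)] with N h3 h4 i
    exact ⟨h3 i, h4 i⟩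
  · intro δ' hδ'
    exact adm_high h (by linarith)

variable {Ω : ℕ → Type} [∀ N, MeasurableSpace (Ω N)] {P : ∀ N, Measure (Ω N)}
  [∀ N, IsProbabilityMeasure (P N)] {U : ∀ N, Ω N → Matrix (Fin N) (Fin N) ℝ}

theorem integral_pressure {N : ℕ} {Ω : Type} [MeasurableSpace Ω] {P : Measure Ω}
    [IsProbabilityMeasure P] {U : Ω → Matrix (Fin N) (Fin N) ℝ} (hU : IsHaar P U) {β : ℝ}
    (hβ : 0 ≤ β) (x : Fin N → ℝ) :
    ∫ ω, pressure β (coupling x (U ω)) ∂P =
      1 / N * (N * Real.log (1 / 2) + ∫ ω, L β x (U ω) ∂P) := by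
  simp only [pressure_eq]
  rw [integral_const_mul, integral_add (integrable_const _) (integrable_L hU hβ x),
    integral_const]
  simp

theorem integral_L_shift {N : ℕ} {Ω : Type} [MeasurableSpace Ω] {P : Measure Ω}
    [IsProbabilityMeasure P] {U : Ω → Matrix (Fin N) (Fin N) ℝ} (hU : IsHaar P U) {β : ℝ}
    (hβ : 0 ≤ β) (x : Fin N → ℝ) (c : ℝ) :
    ∫ ω, L β (fun i => x i + c) (U ω) ∂P = ∫ ω, L β x (U ω) ∂P + β / 2 * c * N := by
  have h1 : ∀ ω, L β (fun i => x i + c) (U ω) = L β x (U ω) + β / 2 * c * N :=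
    fun ω => L_shift β x c (hU.orth ω)
  simp only [h1]
  rw [integral_add (integrable_L hU hβ x) (integrable_const _), integral_const]
  simp

theorem comparison {β : ℝ} (hβ : 0 ≤ β) (hU : ∀ N, IsHaar (P N) (U N))
    (h : Admissible μ lam) (h' : Admissible μ' lam')
    (hcx : ∀ t, ∫ x, max (x - t) 0 ∂μ ≤ ∫ x, max (x - t) 0 ∂μ') {ε : ℝ} (hε : 0 < ε) :
    ∀ᶠ N in atTop, ∫ ω, pressure β (coupling (lam N) (U N ω)) ∂(P N) ≤
      ∫ ω, pressure β (coupling (lam' N) (U N ω)) ∂(P N) + ε := by
  set δ := 2 * ε / (β + 1) with hδ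
  have hδpos : 0 < δ := by positivity
  have hβδ : β / 2 * δ ≤ ε := by
    have : β / 2 * δ = ε * (β / (β + 1)) := by rw [hδ]; field_simp
    rw [this]
    have h1 : β / (β + 1) ≤ 1 := by rw [div_le_one (by linarith)]; linarith
    nlinarith
  filter_upwards [eventually_maj h h' hcx hδpos, eventually_gt_atTop 0] with N h1 hN
  have hNpos : (0 : ℝ) < N := by exact_mod_cast hN
  have h2 := schur (hU N) hβ (lam N) (fun i => lam' N i + δ) h1
  rw [integral_L_shift (hU N) hβ] at h2
  rw [integral_pressure (hU N) hβ, integral_pressure (hU N) hβ]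
  have h3 : 1 / (N : ℝ) * (N * Real.log (1 / 2) + ∫ ω, L β (lam N) (U N ω) ∂(P N)) ≤
      1 / (N : ℝ) * (N * Real.log (1 / 2) +
        (∫ ω, L β (lam' N) (U N ω) ∂(P N) + β / 2 * δ * N)) := by
    gcongr
  refine h3.trans ?_
  have h4 : 1 / (N : ℝ) * (N * Real.log (1 / 2) +
        (∫ ω, L β (lam' N) (U N ω) ∂(P N) + β / 2 * δ * N)) =
      1 / (N : ℝ) * (N * Real.log (1 / 2) + ∫ ω, L β (lam' N) (U N ω) ∂(P N)) +
        β / 2 * δ := by
    field_simp
    ring
  rw [h4]
  linarith

/-- closeness in the mean for two sorted arrays with the same limit -/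
theorem sorted_L1 {β : ℝ} (hβ : 0 ≤ β) (hU : ∀ N, IsHaar (P N) (U N))
    {x y : (N : ℕ) → Fin N → ℝ} (h : Admissible μ x) (h' : Admissible μ y)
    (hx : ∀ N, Monotone (x N)) (hy : ∀ N, Monotone (y N)) {ε : ℝ} (hε : 0 < ε) :
    ∀ᶠ N : ℕ in atTop, ∫ ω, |L β (x N) (U N ω) - L β (y N) (U N ω)| ∂(P N) ≤ ε * N := by
  have hprob := h.prob
  set δ := ε / (β + 1) with hδ
  have hδpos : 0 < δ := by positivity
  have hβδ : β * δ ≤ ε := by
    have : β * δ = ε * (β / (β + 1)) := by rw [hδ]; field_simp
    rw [this]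
    have h1 : β / (β + 1) ≤ 1 := by rw [div_le_one (by linarith)]; linarith
    nlinarith
  set A := sInf μ.support - 1 with hA
  set B := sSup μ.support + 1 with hB
  have hb : ∀ᶠ N in atTop, ∀ i, (A ≤ x N i ∧ x N i ≤ B) ∧ (A ≤ y N i ∧ y N i ≤ B) := by
    filter_upwards [adm_low h (c := A) (by linarith), adm_low h' (c := A) (by linarith),
      adm_high h (c := B) (by linarith), adm_high h' (c := B) (by linarith)] with N h1 h2 h3 h4 i
    exact ⟨⟨h1 i, h3 i⟩, h2 i, h4 i⟩
  have hf : ∀ f : ℝ → ℝ, Continuous f → (∃ C, ∀ x, |f x| ≤ C) →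
      Tendsto (fun N : ℕ => (∑ i, f (x N i)) / N - (∑ i, f (y N i)) / N) atTop (𝓝 0) := by
    intro f hfc hfb
    have := (h.weak f hfc hfb).sub (h'.weak f hfc hfb)
    rwa [sub_self] at this
  have hb' : ∀ᶠ N in atTop, ∀ i, (A ≤ y N i ∧ y N i ≤ B) ∧ (A ≤ x N i ∧ x N i ≤ B) := by
    filter_upwards [hb] with N h1 i
    exact ⟨(h1 i).2, (h1 i).1⟩
  have hf' : ∀ f : ℝ → ℝ, Continuous f → (∃ C, ∀ x, |f x| ≤ C) →
      Tendsto (fun N : ℕ => (∑ i, f (y N i)) / N - (∑ i, f (x N i)) / N) atTop (𝓝 0) := by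
    intro f hfc hfb
    have := (h'.weak f hfc hfb).sub (h.weak f hfc hfb)
    rwa [sub_self] at this
  -- the maximum of two arrays
  have key : ∀ (x y : (N : ℕ) → Fin N → ℝ), Admissible μ x → Admissible μ y →
      (∀ᶠ N in atTop, ∀ i, (A ≤ x N i ∧ x N i ≤ B) ∧ (A ≤ y N i ∧ y N i ≤ B)) →
      (∀ ε : ℝ, 0 < ε → ∀ᶠ N : ℕ in atTop, ∑ i, max (y N i - x N i) 0 ≤ ε * N) →
      ∀ᶠ N in atTop, ∀ t, ∑ i, max (max (x N i) (y N i) - t) 0 ≤
        ∑ i, max (x N i + δ - t) 0 := by
    intro x y hxa hya hbd hcl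
    refine core (fun N i => max (x N i) (y N i)) x _ _ A (sSup μ.support) ?_
      (adm_pot hxa) (fun t => le_rfl) (fun s t hst hs => adm_strict hxa hst hs) ?_ ?_ hδpos
    · intro t
      have h1 := adm_pot hxa t
      have h2 : Tendsto (fun N : ℕ => (∑ i, max (max (x N i) (y N i) - t) 0) / N -
          (∑ i, max (x N i - t) 0) / N) atTop (𝓝 0) := by
        rw [Metric.tendsto_nhds]
        intro e he
        filter_upwards [hcl (e / 2) (by positivity), eventually_gt_atTop 0] with N h3 hN
        have hNpos : (0 : ℝ) < N := by exact_mod_cast hN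
        have h4 : ∀ i, max (x N i - t) 0 ≤ max (max (x N i) (y N i) - t) 0 := fun i =>
          max_le_max (by linarith [le_max_left (x N i) (y N i)]) le_rfl
        have h5 : ∀ i, max (max (x N i) (y N i) - t) 0 ≤
            max (x N i - t) 0 + max (y N i - x N i) 0 := by
          intro i
          have e1 := le_max_left (x N i - t) 0
          have e2 := le_max_right (x N i - t) 0
          have e3 := le_max_left (y N i - x N i) 0
          have e4 := le_max_right (y N i - x N i) 0
          refine max_le ?_ (by linarith)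
          rw [sub_le_iff_le_add]
          exact max_le (by linarith) (by linarith)
        have h6 : ∑ i, max (x N i - t) 0 ≤ ∑ i, max (max (x N i) (y N i) - t) 0 :=
          Finset.sum_le_sum fun i _ => h4 i
        have h7 : ∑ i, max (max (x N i) (y N i) - t) 0 ≤
            ∑ i, max (x N i - t) 0 + ∑ i, max (y N i - x N i) 0 := by
          rw [← Finset.sum_add_distrib]
          exact Finset.sum_le_sum fun i _ => h5 i
        rw [Real.dist_eq, sub_zero, ← sub_div, abs_of_nonneg (div_nonneg (by linarith) hNpos.le),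
          div_lt_iff₀ hNpos]
        have : e / 2 * N < e * N := by nlinarith
        linarith
      have h3 := h2.add h1
      simpa using h3
    · filter_upwards [hbd] with N h1 i
      exact ⟨(h1 i).1.1.trans (le_max_left _ _), (h1 i).1.1⟩
    · intro δ' hδ'
      filter_upwards [adm_high hxa (c := sSup μ.support + δ') (by linarith),
        adm_high hya (c := sSup μ.support + δ') (by linarith)] with N h1 h2 i
      exact max_le (h1 i) (h2 i)
  have k1 := key x y h h' hb (fun e he => sorted_close x y hx hy A B hb hf he)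
  have k2 := key y x h' h hb' (fun e he => sorted_close y x hy hx A B hb' hf' he)
  filter_upwards [k1, k2] with N h1 h2
  have s1 := schur (hU N) hβ (fun i => max (x N i) (y N i)) (fun i => x N i + δ) h1
  have s2 := schur (hU N) hβ (fun i => max (x N i) (y N i)) (fun i => y N i + δ) (by
    intro t
    have := h2 t
    simp only [max_comm (y N _) (x N _)] at this
    exact this)
  rw [integral_L_shift (hU N) hβ] at s1 s2
  have i1 := integrable_L (hU N) hβ (fun i => max (x N i) (y N i))
  have i2 := integrable_L (hU N) hβ (x N)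
  have i3 := integrable_L (hU N) hβ (y N)
  have hpt : ∀ ω, |L β (x N) (U N ω) - L β (y N) (U N ω)| ≤
      (L β (fun i => max (x N i) (y N i)) (U N ω) - L β (x N) (U N ω)) +
      (L β (fun i => max (x N i) (y N i)) (U N ω) - L β (y N) (U N ω)) := by
    intro ω
    have e1 := L_mono hβ (lam := x N) (lam' := fun i => max (x N i) (y N i))
      (fun i => le_max_left _ _) (U N ω)
    have e2 := L_mono hβ (lam := y N) (lam' := fun i => max (x N i) (y N i))
      (fun i => le_max_right _ _) (U N ω)
    rw [abs_le]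
    constructor <;> linarith
  have j1 : Integrable (fun ω => L β (fun i => max (x N i) (y N i)) (U N ω) -
      L β (x N) (U N ω)) (P N) := i1.sub i2
  have j2 : Integrable (fun ω => L β (fun i => max (x N i) (y N i)) (U N ω) -
      L β (y N) (U N ω)) (P N) := i1.sub i3
  have h3 := integral_mono (i2.sub i3).abs (j1.add j2) hpt
  have h4 : ∫ ω, ((L β (fun i => max (x N i) (y N i)) (U N ω) - L β (x N) (U N ω)) +
      (L β (fun i => max (x N i) (y N i)) (U N ω) - L β (y N) (U N ω))) ∂(P N) =
      (∫ ω, L β (fun i => max (x N i) (y N i)) (U N ω) ∂(P N) - ∫ ω, L β (x N) (U N ω) ∂(P N)) +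
      (∫ ω, L β (fun i => max (x N i) (y N i)) (U N ω) ∂(P N) -
        ∫ ω, L β (y N) (U N ω) ∂(P N)) := by
    rw [integral_add j1 j2, integral_sub i1 i2, integral_sub i1 i3]
  refine h3.trans ?_
  refine (le_of_eq h4).trans ?_
  have h5 : β / 2 * δ * N + β / 2 * δ * N ≤ ε * N := by
    have : β / 2 * δ * N + β / 2 * δ * N = (β * δ) * N := by ring
    rw [this]
    gcongr
  linarith

end Vale.Agent.Lib.P166
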