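import Vale.Agent.Lib.P166.Haar

/-! P166, concentration of the pressure: auxiliary definitions. -/

open MeasureTheory Filter Topology Matrix

namespace Vale.Agent.Lib.P166

/-- Householder reflection (identity for `k = 0`) -/
noncomputable def refl {N : ℕ} (k : Fin N → ℝ) : Matrix (Fin N) (Fin N) ℝ :=
  1 - (2 / (k ⬝ᵥ k)) • Matrix.vecMulVec k k

/-- embedding of `O(n)` in `O(n+1)` (fixing the first basis vector) -/
noncomputable def emb {n : ℕ} (W : Matrix (Fin n) (Fin n) ℝ) :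
    Matrix (Fin (n + 1)) (Fin (n + 1)) ℝ :=
  Matrix.of (Fin.cons (Fin.cons 1 0) (fun i => Fin.cons 0 (W i)))

/-- Gibbs average of `g(σ)`, `σ ∈ {-1,1}^N`, for the coupling matrix `Uᵀ diag(lam) U` -/
noncomputable def gav {N : ℕ} (β : ℝ) (lam : Fin N → ℝ) (U : Matrix (Fin N) (Fin N) ℝ)
    (g : (Fin N → ℝ) → ℝ) : ℝ :=
  (∑ σ : Fin N → Bool, Real.exp (β / 2 * ener lam U σ) * g (spin σ)) /
    ∑ σ : Fin N → Bool, Real.exp (β / 2 * ener lam U σ)

end Vale.Agent.Lib.P166
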