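import Vale.Agent.Lib.P166.CDefs

/-! P166, concentration: the energy difference of a reflection and the tangent inequality. -/

open MeasureTheory Filter Topology Matrix

namespace Vale.Agent.Lib.P166

variable {N : ℕ}

namespace Diff

theorem cs (β : ℝ) (lam : Fin N → ℝ) (U : Matrix (Fin N) (Fin N) ℝ)
    (f g : (Fin N → ℝ) → ℝ) :
    gav β lam U (fun s => f s * g s) ^ 2 ≤
      gav β lam U (fun s => f s ^ 2) * gav β lam U (fun s => g s ^ 2) := by
  unfold gav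
  have hZ := Z_pos β lam U
  rw [div_pow, div_mul_div_comm, ← sq]
  refine div_le_div_of_nonneg_right ?_ (by positivity)
  refine Finset.sum_sq_le_sum_mul_sum_of_sq_eq_mul _ (fun σ _ => ?_) (fun σ _ => ?_) fun σ _ => ?_
  · exact mul_nonneg (Real.exp_pos _).le (sq_nonneg _)
  · exact mul_nonneg (Real.exp_pos _).le (sq_nonneg _)
  · ring

theorem refl_mulVec {κ : Fin N → ℝ} (hκ : κ ⬝ᵥ κ = 1) (x : Fin N → ℝ) :
    refl κ *ᵥ x = x - (2 * (κ ⬝ᵥ x)) • κ := by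
  unfold refl
  rw [hκ, Matrix.sub_mulVec, Matrix.one_mulVec, Matrix.smul_mulVec, Matrix.vecMulVec_mulVec]
  ext i
  simp only [Pi.sub_apply, Pi.smul_apply, smul_eq_mul, MulOpposite.smul_eq_mul_unop,
    MulOpposite.unop_op]
  ring

theorem refl_refl {κ : Fin N → ℝ} (hκ : κ ⬝ᵥ κ = 1) (x : Fin N → ℝ) :
    refl κ *ᵥ (refl κ *ᵥ x) = x := by
  rw [refl_mulVec hκ, refl_mulVec hκ]
  rw [dotProduct_sub, dotProduct_smul, hκ]
  ext i
  simp only [Pi.sub_apply, Pi.smul_apply, smul_eq_mul]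
  ring

/-- quadratic form -/
theorem quad (lam : Fin N → ℝ) (U : Matrix (Fin N) (Fin N) ℝ) (x y : Fin N → ℝ) :
    x ⬝ᵥ (coupling lam U *ᵥ y) = ∑ i, lam i * ((U *ᵥ x) i * (U *ᵥ y) i) := by
  unfold coupling
  rw [← Matrix.mulVec_mulVec, ← Matrix.mulVec_mulVec, Matrix.dotProduct_mulVec,
    Matrix.vecMul_transpose]
  simp only [dotProduct, Matrix.mulVec_diagonal]
  refine Finset.sum_congr rfl fun i _ => ?_
  ring

/-- the energy difference as a function of the configuration -/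
noncomputable def del (lam : Fin N → ℝ) (U : Matrix (Fin N) (Fin N) ℝ) (κ x : Fin N → ℝ) : ℝ :=
  -4 * ((κ ⬝ᵥ x) * (κ ⬝ᵥ (coupling lam U *ᵥ x))) +
    4 * (κ ⬝ᵥ (coupling lam U *ᵥ κ)) * (κ ⬝ᵥ x) ^ 2

theorem ener_refl (lam : Fin N → ℝ) (U : Matrix (Fin N) (Fin N) ℝ) {κ : Fin N → ℝ}
    (hκ : κ ⬝ᵥ κ = 1) (σ : Fin N → Bool) :
    ener lam (U * refl κ) σ = ener lam U σ + del lam U κ (spin σ) := by
  unfold ener del
  rw [quad, quad]
  set a := κ ⬝ᵥ spin σ with ha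
  have h1 : ∀ i, ((U * refl κ) *ᵥ spin σ) i = (U *ᵥ spin σ) i - 2 * a * (U *ᵥ κ) i := by
    intro i
    rw [← Matrix.mulVec_mulVec, refl_mulVec hκ, Matrix.mulVec_sub, Matrix.mulVec_smul]
    simp only [Pi.sub_apply, Pi.smul_apply, smul_eq_mul]
    rw [ha]
  simp_rw [h1]
  rw [Finset.mul_sum, Finset.mul_sum, Finset.mul_sum, Finset.sum_mul, ← Finset.sum_add_distrib,
    ← Finset.sum_add_distrib]
  refine Finset.sum_congr rfl fun i _ => ?_
  ring

theorem ener_refl_refl (lam : Fin N → ℝ) (U : Matrix (Fin N) (Fin N) ℝ) {κ : Fin N → ℝ}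
    (hκ : κ ⬝ᵥ κ = 1) (σ : Fin N → Bool) :
    ener lam (U * refl κ * refl κ) σ = ener lam U σ := by
  unfold ener
  have h1 : (U * refl κ * refl κ) *ᵥ spin σ = U *ᵥ spin σ := by
    rw [← Matrix.mulVec_mulVec, ← Matrix.mulVec_mulVec, refl_refl hκ]
  rw [h1]

/-- tangent inequality -/
theorem tang (β : ℝ) (lam : Fin N → ℝ) (U V : Matrix (Fin N) (Fin N) ℝ) (D : (Fin N → ℝ) → ℝ)
    (h : ∀ σ : Fin N → Bool, ener lam V σ = ener lam U σ + D (spin σ)) :
    L β lam U + β / 2 * gav β lam U D ≤ L β lam V := by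
  have hZ := Z_pos β lam U
  set Z := ∑ σ : Fin N → Bool, Real.exp (β / 2 * ener lam U σ) with hZdef
  set m := β / 2 * gav β lam U D with hm
  have hmZ : m * Z = ∑ σ : Fin N → Bool,
      Real.exp (β / 2 * ener lam U σ) * (β / 2 * D (spin σ)) := by
    rw [hm]; unfold gav
    rw [mul_assoc, div_mul_cancel₀ _ hZ.ne', Finset.mul_sum]
    exact Finset.sum_congr rfl fun σ _ => by ring
  have key : Real.exp m * Z ≤ ∑ σ : Fin N → Bool, Real.exp (β / 2 * ener lam V σ) := by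
    have h1 : ∀ σ : Fin N → Bool, Real.exp m * (Real.exp (β / 2 * ener lam U σ) *
        (1 + (β / 2 * D (spin σ) - m))) ≤ Real.exp (β / 2 * ener lam V σ) := by
      intro σ
      have h2 : 1 + (β / 2 * D (spin σ) - m) ≤ Real.exp (β / 2 * D (spin σ) - m) := by
        have := Real.add_one_le_exp (β / 2 * D (spin σ) - m)
        linarith
      calc Real.exp m * (Real.exp (β / 2 * ener lam U σ) * (1 + (β / 2 * D (spin σ) - m)))
          ≤ Real.exp m * (Real.exp (β / 2 * ener lam U σ) *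
            Real.exp (β / 2 * D (spin σ) - m)) := by
            refine mul_le_mul_of_nonneg_left ?_ (Real.exp_pos _).le
            exact mul_le_mul_of_nonneg_left h2 (Real.exp_pos _).le
        _ = Real.exp (β / 2 * ener lam V σ) := by
            rw [← Real.exp_add, ← Real.exp_add, h σ]
            congr 1; ring
    refine le_trans (le_of_eq ?_) (Finset.sum_le_sum fun σ _ => h1 σ)
    rw [← Finset.mul_sum]
    congr 1
    have h3 : ∀ σ : Fin N → Bool, Real.exp (β / 2 * ener lam U σ) *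
        (1 + (β / 2 * D (spin σ) - m)) = Real.exp (β / 2 * ener lam U σ)
        + Real.exp (β / 2 * ener lam U σ) * (β / 2 * D (spin σ))
        - m * Real.exp (β / 2 * ener lam U σ) := fun σ => by ring
    simp_rw [h3]
    rw [Finset.sum_sub_distrib, Finset.sum_add_distrib, ← hmZ, ← Finset.mul_sum]
    ring
  have h4 : Real.log (Real.exp m * Z) ≤ L β lam V :=
    Real.log_le_log (mul_pos (Real.exp_pos _) hZ) key
  rw [Real.log_mul (Real.exp_pos _).ne' hZ.ne', Real.log_exp] at h4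
  have h5 : L β lam U = Real.log Z := rfl
  rw [h5]; linarith

theorem quad_kk (lam : Fin N → ℝ) (l : ℝ) (hl : ∀ i, |lam i| ≤ l)
    {U : Matrix (Fin N) (Fin N) ℝ} (hU : Uᵀ * U = 1) {κ : Fin N → ℝ} (hκ : κ ⬝ᵥ κ = 1) :
    |κ ⬝ᵥ (coupling lam U *ᵥ κ)| ≤ l := by
  rw [quad]
  have h1 : ∑ i, (U *ᵥ κ) i * (U *ᵥ κ) i = 1 := by
    have : ∑ i, (U *ᵥ κ) i * (U *ᵥ κ) i = (U *ᵥ κ) ⬝ᵥ (U *ᵥ κ) := rfl
    rw [this, Matrix.dotProduct_mulVec, ← Matrix.mulVec_transpose, Matrix.mulVec_mulVec, hU,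
      Matrix.one_mulVec, hκ]
  calc |∑ i, lam i * ((U *ᵥ κ) i * (U *ᵥ κ) i)|
      ≤ ∑ i, |lam i * ((U *ᵥ κ) i * (U *ᵥ κ) i)| := Finset.abs_sum_le_sum_abs _ _
    _ ≤ ∑ i, l * ((U *ᵥ κ) i * (U *ᵥ κ) i) := by
        refine Finset.sum_le_sum fun i _ => ?_
        rw [abs_mul, abs_of_nonneg (mul_self_nonneg ((U *ᵥ κ) i))]
        exact mul_le_mul_of_nonneg_right (hl i) (mul_self_nonneg _)
    _ = l := by rw [← Finset.mul_sum, h1, mul_one]

theorem gav_del (β : ℝ) (lam : Fin N → ℝ) (l : ℝ) (hl : ∀ i, |lam i| ≤ l)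
    {U : Matrix (Fin N) (Fin N) ℝ} (hU : Uᵀ * U = 1) {κ : Fin N → ℝ} (hκ : κ ⬝ᵥ κ = 1) :
    gav β lam U (del lam U κ) ^ 2 ≤ 32 *
      (gav β lam U (fun s => (κ ⬝ᵥ s) ^ 2) *
          gav β lam U (fun s => (κ ⬝ᵥ (coupling lam U *ᵥ s)) ^ 2) +
        l ^ 2 * gav β lam U (fun s => (κ ⬝ᵥ s) ^ 2) ^ 2) := by
  set c := κ ⬝ᵥ (coupling lam U *ᵥ κ) with hc
  have hcl : |c| ≤ l := quad_kk lam l hl hU hκ
  have hlin : gav β lam U (del lam U κ)
      = -4 * gav β lam U (fun s => (κ ⬝ᵥ s) * (κ ⬝ᵥ (coupling lam U *ᵥ s)))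
        + 4 * c * gav β lam U (fun s => (κ ⬝ᵥ s) ^ 2) := by
    unfold gav
    rw [← mul_div_assoc, ← mul_div_assoc, ← add_div]
    congr 1
    rw [Finset.mul_sum, Finset.mul_sum, ← Finset.sum_add_distrib]
    refine Finset.sum_congr rfl fun σ _ => ?_
    unfold del
    ring
  set A := gav β lam U (fun s => (κ ⬝ᵥ s) * (κ ⬝ᵥ (coupling lam U *ᵥ s))) with hA
  set X := gav β lam U (fun s => (κ ⬝ᵥ s) ^ 2) with hX
  have hAA : A ^ 2 ≤ X * gav β lam U (fun s => (κ ⬝ᵥ (coupling lam U *ᵥ s)) ^ 2) :=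
    cs β lam U (fun s => κ ⬝ᵥ s) (fun s => κ ⬝ᵥ (coupling lam U *ᵥ s))
  have hc2 : c ^ 2 ≤ l ^ 2 := by
    have := abs_le.1 hcl
    exact sq_le_sq' this.1 this.2
  rw [hlin]
  have h1 : (-4 * A + 4 * c * X) ^ 2 ≤ 32 * (A ^ 2 + c ^ 2 * X ^ 2) := by
    nlinarith [sq_nonneg (4 * A + 4 * c * X)]
  have h2 : c ^ 2 * X ^ 2 ≤ l ^ 2 * X ^ 2 := mul_le_mul_of_nonneg_right hc2 (sq_nonneg _)
  linarith

end Diff

/-- tangent inequality and the formula for the energy difference, `κ` a unit vector -/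
theorem diff_le {β : ℝ} (hβ : 0 ≤ β) (lam : Fin N → ℝ) (l : ℝ) (hl : ∀ i, |lam i| ≤ l)
    {U : Matrix (Fin N) (Fin N) ℝ} (hU : Uᵀ * U = 1) (κ : Fin N → ℝ) (hκ : κ ⬝ᵥ κ = 1) :
    (L β lam U - L β lam (U * refl κ)) ^ 2 ≤ 8 * β ^ 2 *
      ((gav β lam U (fun s => (κ ⬝ᵥ s) ^ 2) *
          gav β lam U (fun s => (κ ⬝ᵥ (coupling lam U *ᵥ s)) ^ 2) +
        l ^ 2 * gav β lam U (fun s => (κ ⬝ᵥ s) ^ 2) ^ 2) +
      (gav β lam (U * refl κ) (fun s => (κ ⬝ᵥ s) ^ 2) *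
          gav β lam (U * refl κ) (fun s => (κ ⬝ᵥ (coupling lam (U * refl κ) *ᵥ s)) ^ 2) +
        l ^ 2 * gav β lam (U * refl κ) (fun s => (κ ⬝ᵥ s) ^ 2) ^ 2)) := by
  have hR : (refl κ)ᵀ * refl κ = 1 := by
    have h1 : (refl κ)ᵀ = refl κ := by
      unfold refl
      rw [Matrix.transpose_sub, Matrix.transpose_one, Matrix.transpose_smul,
        Matrix.transpose_vecMulVec]
    rw [h1]
    apply Matrix.ext_of_mulVec_single
    intro i
    rw [← Matrix.mulVec_mulVec, Diff.refl_refl hκ, Matrix.one_mulVec]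
  have hU' : (U * refl κ)ᵀ * (U * refl κ) = 1 := by
    rw [Matrix.transpose_mul, Matrix.mul_assoc, ← Matrix.mul_assoc Uᵀ, hU, Matrix.one_mul, hR]
  have t1 := Diff.tang β lam U (U * refl κ) (Diff.del lam U κ) (Diff.ener_refl lam U hκ)
  have t2 := Diff.tang β lam (U * refl κ) U (Diff.del lam (U * refl κ) κ) (fun σ => by
    rw [← Diff.ener_refl lam (U * refl κ) hκ σ, Diff.ener_refl_refl lam U hκ σ])
  have g1 := Diff.gav_del β lam l hl hU hκ
  have g2 := Diff.gav_del β lam l hl hU' hκ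
  set a := gav β lam U (Diff.del lam U κ) with ha
  set b := gav β lam (U * refl κ) (Diff.del lam (U * refl κ) κ) with hb
  set d := L β lam U - L β lam (U * refl κ) with hd
  have hda : d ≤ -(β / 2 * a) := by rw [hd]; linarith
  have hdb : β / 2 * b ≤ d := by rw [hd]; linarith
  have hmain : d ^ 2 ≤ (β / 2) ^ 2 * (a ^ 2 + b ^ 2) := by
    rcases le_total 0 d with h | h
    · have : d ^ 2 ≤ (β / 2 * a) ^ 2 := by nlinarith
      nlinarith [mul_nonneg (sq_nonneg (β / 2)) (sq_nonneg b)]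
    · have : d ^ 2 ≤ (β / 2 * b) ^ 2 := by nlinarith
      nlinarith [mul_nonneg (sq_nonneg (β / 2)) (sq_nonneg a)]
  have h3 := mul_le_mul_of_nonneg_left (add_le_add g1 g2) (sq_nonneg (β / 2))
  refine hmain.trans (h3.trans (le_of_eq ?_))
  ring

end Vale.Agent.Lib.P166
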