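import Vale.Agent.Lib.P166.CDefs

/-! P166, concentration of the pressure: Householder reflections and the embedding of `O(n)` in
`O(n+1)`. -/

open MeasureTheory Filter Topology Matrix

namespace Vale.Agent.Lib.P166

variable {N n : ℕ}

theorem refl_apply (k : Fin N → ℝ) (i j : Fin N) :
    refl k i j = (1 : Matrix (Fin N) (Fin N) ℝ) i j - 2 / (k ⬝ᵥ k) * (k i * k j) := by
  simp [refl, Matrix.sub_apply, Matrix.smul_apply, Matrix.vecMulVec_apply]

theorem refl_transpose (k : Fin N → ℝ) : (refl k)ᵀ = refl k := by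
  ext i j
  rw [Matrix.transpose_apply, refl_apply, refl_apply, Matrix.one_apply, Matrix.one_apply]
  by_cases h : i = j
  · subst h; ring
  · rw [if_neg h, if_neg (Ne.symm h)]; ring

theorem vmv_mul (k : Fin N → ℝ) (Q : Matrix (Fin N) (Fin N) ℝ) :
    Matrix.vecMulVec k k * Q = Matrix.vecMulVec k (Qᵀ *ᵥ k) := by
  ext i j
  simp only [Matrix.mul_apply, Matrix.vecMulVec_apply, Matrix.mulVec, dotProduct,
    Matrix.transpose_apply, Finset.mul_sum]
  exact Finset.sum_congr rfl fun l _ => by ring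

theorem mul_vmv (a b : Fin N → ℝ) (Q : Matrix (Fin N) (Fin N) ℝ) :
    Q * Matrix.vecMulVec a b = Matrix.vecMulVec (Q *ᵥ a) b := by
  ext i j
  simp only [Matrix.mul_apply, Matrix.vecMulVec_apply, Matrix.mulVec, dotProduct,
    Finset.sum_mul]
  exact Finset.sum_congr rfl fun l _ => by ring

theorem vmv_self (k : Fin N → ℝ) :
    Matrix.vecMulVec k k * Matrix.vecMulVec k k = (k ⬝ᵥ k) • Matrix.vecMulVec k k := by
  ext i j
  simp only [Matrix.mul_apply, Matrix.vecMulVec_apply, Matrix.smul_apply, dotProduct,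
    smul_eq_mul, Finset.sum_mul]
  exact Finset.sum_congr rfl fun l _ => by ring

theorem refl_mul_self (k : Fin N → ℝ) : refl k * refl k = 1 := by
  unfold refl
  rw [sub_mul, mul_sub, mul_sub, one_mul, one_mul, mul_one, smul_mul_assoc, mul_smul_comm,
    vmv_self, smul_smul, smul_smul]
  by_cases h : k ⬝ᵥ k = 0
  · rw [h]; simp
  · have : 2 / (k ⬝ᵥ k) * (2 / (k ⬝ᵥ k)) * (k ⬝ᵥ k) = 2 / (k ⬝ᵥ k) + 2 / (k ⬝ᵥ k) := by
      field_simp; ring
    rw [this, add_smul]
    abel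

theorem refl_conj (k : Fin N → ℝ) {Q : Matrix (Fin N) (Fin N) ℝ} (hQ : Qᵀ * Q = 1) :
    refl k * Q = Q * refl (Qᵀ *ᵥ k) := by
  have hQ2 : Q * Qᵀ = 1 := mul_eq_one_comm.1 hQ
  have h1 : Q *ᵥ (Qᵀ *ᵥ k) = k := by rw [Matrix.mulVec_mulVec, hQ2, Matrix.one_mulVec]
  have h2 : (Qᵀ *ᵥ k) ⬝ᵥ (Qᵀ *ᵥ k) = k ⬝ᵥ k := by
    rw [Matrix.dotProduct_mulVec, Matrix.vecMul_transpose, h1]
  unfold refl
  rw [sub_mul, mul_sub, one_mul, mul_one, smul_mul_assoc, mul_smul_comm, vmv_mul, mul_vmv, h1, h2]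

theorem emb_00 (A : Matrix (Fin n) (Fin n) ℝ) : emb A 0 0 = 1 := by simp [emb]
theorem emb_0s (A : Matrix (Fin n) (Fin n) ℝ) (j : Fin n) : emb A 0 j.succ = 0 := by simp [emb]
theorem emb_s0 (A : Matrix (Fin n) (Fin n) ℝ) (i : Fin n) : emb A i.succ 0 = 0 := by simp [emb]
theorem emb_ss (A : Matrix (Fin n) (Fin n) ℝ) (i j : Fin n) :
    emb A i.succ j.succ = A i j := by simp [emb]

theorem emb_ext {M : Matrix (Fin (n + 1)) (Fin (n + 1)) ℝ} {A : Matrix (Fin n) (Fin n) ℝ}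
    (h0 : M 0 0 = 1) (h1 : ∀ j : Fin n, M 0 j.succ = 0) (h2 : ∀ i : Fin n, M i.succ 0 = 0)
    (h3 : ∀ i j : Fin n, M i.succ j.succ = A i j) : M = emb A := by
  ext i j
  refine Fin.cases ?_ (fun i => ?_) i
  · refine Fin.cases ?_ (fun j => ?_) j
    · rw [h0, emb_00]
    · rw [h1, emb_0s]
  · refine Fin.cases ?_ (fun j => ?_) j
    · rw [h2, emb_s0]
    · rw [h3, emb_ss]

theorem emb_mul (A B : Matrix (Fin n) (Fin n) ℝ) : emb (A * B) = emb A * emb B := by
  symm
  apply emb_ext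
  · rw [Matrix.mul_apply, Fin.sum_univ_succ]
    simp [emb_00, emb_0s]
  · intro j
    rw [Matrix.mul_apply, Fin.sum_univ_succ]
    simp [emb_00, emb_0s]
  · intro i
    rw [Matrix.mul_apply, Fin.sum_univ_succ]
    simp [emb_s0]
  · intro i j
    rw [Matrix.mul_apply, Fin.sum_univ_succ, Matrix.mul_apply]
    simp [emb_s0, emb_ss]

theorem emb_one : emb (1 : Matrix (Fin n) (Fin n) ℝ) = 1 := by
  symm
  apply emb_ext
  · simp
  · intro j; simp [(Fin.succ_ne_zero j).symm]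
  · intro i; simp [Fin.succ_ne_zero i]
  · intro i j; simp [Matrix.one_apply]

theorem emb_transpose (A : Matrix (Fin n) (Fin n) ℝ) : (emb A)ᵀ = emb Aᵀ := by
  apply emb_ext
  · rw [Matrix.transpose_apply, emb_00]
  · intro j; rw [Matrix.transpose_apply, emb_s0]
  · intro i; rw [Matrix.transpose_apply, emb_0s]
  · intro i j; rw [Matrix.transpose_apply, emb_ss, Matrix.transpose_apply]

theorem emb_orth {A : Matrix (Fin n) (Fin n) ℝ} (hA : Aᵀ * A = 1) :
    (emb A)ᵀ * emb A = 1 := by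
  rw [emb_transpose, ← emb_mul, hA, emb_one]

theorem emb_refl (k : Fin n → ℝ) : emb (refl k) = refl (Fin.cons 0 k) := by
  have hd : (Fin.cons 0 k : Fin (n + 1) → ℝ) ⬝ᵥ (Fin.cons 0 k : Fin (n + 1) → ℝ) = k ⬝ᵥ k := by
    simp [dotProduct, Fin.sum_univ_succ]
  symm
  apply emb_ext
  · rw [refl_apply]; simp
  · intro j; rw [refl_apply]; simp [(Fin.succ_ne_zero j).symm]
  · intro i; rw [refl_apply]; simp [Fin.succ_ne_zero i]
  · intro i j
    rw [refl_apply, refl_apply, hd]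
    simp [Matrix.one_apply]

theorem decomp {V : Matrix (Fin (n + 1)) (Fin (n + 1)) ℝ} (hV : Vᵀ * V = 1) :
    ∃ (k : Fin (n + 1) → ℝ) (W : Matrix (Fin n) (Fin n) ℝ), Wᵀ * W = 1 ∧
      V = refl k * emb W := by
  set v : Fin (n + 1) → ℝ := fun i => V i 0 with hv
  set e : Fin (n + 1) → ℝ := Pi.single 0 1 with he
  set k : Fin (n + 1) → ℝ := v - e with hk
  have hvv : v ⬝ᵥ v = 1 := by
    have h := congrFun (congrFun hV 0) 0
    rw [Matrix.mul_apply, Matrix.one_apply_eq] at h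
    simpa [dotProduct, Matrix.transpose_apply] using h
  have hev : e ⬝ᵥ v = v 0 := by rw [he, single_one_dotProduct]
  have hve : v ⬝ᵥ e = v 0 := by rw [dotProduct_comm, hev]
  have hee : e ⬝ᵥ e = 1 := by rw [he, single_one_dotProduct]; simp
  have hkk : k ⬝ᵥ k = 2 - 2 * v 0 := by
    rw [hk, sub_dotProduct, dotProduct_sub, dotProduct_sub, hvv, hve, hev, hee]; ring
  have hkv : k ⬝ᵥ v = 1 - v 0 := by rw [hk, sub_dotProduct, hvv, hev]
  set M := refl k * V with hM
  have hMV : V = refl k * M := by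
    rw [hM, ← Matrix.mul_assoc, refl_mul_self, Matrix.one_mul]
  have hMo : Mᵀ * M = 1 := by
    rw [hM, Matrix.transpose_mul, refl_transpose, Matrix.mul_assoc, ← Matrix.mul_assoc (refl k),
      refl_mul_self, Matrix.one_mul, hV]
  have hMo2 : M * Mᵀ = 1 := mul_eq_one_comm.1 hMo
  have hcol : ∀ i, M i 0 = e i := by
    intro i
    have h1 : M i 0 = v i - 2 / (k ⬝ᵥ k) * (k i * (k ⬝ᵥ v)) := by
      rw [hM, Matrix.mul_apply]
      simp only [refl_apply, sub_mul, Finset.sum_sub_distrib]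
      congr 1
      · simp [Matrix.one_apply, hv]
      · have h7 : k ⬝ᵥ v = ∑ l, k l * V l 0 := rfl
        rw [h7, Finset.mul_sum, Finset.mul_sum]
        exact Finset.sum_congr rfl fun l _ => by ring
    rw [h1]
    by_cases h0 : k ⬝ᵥ k = 0
    · have h2 : k = 0 := dotProduct_self_eq_zero.1 h0
      have h3 : v i = e i := by
        have := congrFun h2 i
        simp only [hk, Pi.sub_apply, Pi.zero_apply] at this
        linarith
      rw [h0]; simp [h3]
    · have h4 : k ⬝ᵥ v = (k ⬝ᵥ k) / 2 := by rw [hkv, hkk]; ring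
      rw [h4]
      have h5 : 2 / (k ⬝ᵥ k) * (k i * ((k ⬝ᵥ k) / 2)) = k i := by field_simp
      rw [h5, hk, Pi.sub_apply]; ring
  have hM00 : M 0 0 = 1 := by rw [hcol]; simp [he]
  have hMs0 : ∀ i : Fin n, M i.succ 0 = 0 := fun i => by
    rw [hcol]; simp [he, Fin.succ_ne_zero]
  have hM0s : ∀ j : Fin n, M 0 j.succ = 0 := by
    have h := congrFun (congrFun hMo2 0) 0
    rw [Matrix.mul_apply, Fin.sum_univ_succ, Matrix.one_apply_eq] at h
    simp only [Matrix.transpose_apply, hM00, one_mul] at h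
    have h2 : ∑ j : Fin n, M 0 j.succ * M 0 j.succ = 0 := by linarith
    intro j
    have h3 := (Finset.sum_eq_zero_iff_of_nonneg (fun j _ => mul_self_nonneg (M 0 (Fin.succ j)))).1
      h2 j (Finset.mem_univ _)
    exact mul_self_eq_zero.1 h3
  set W : Matrix (Fin n) (Fin n) ℝ := fun i j => M i.succ j.succ with hW
  have hME : M = emb W := emb_ext hM00 hM0s hMs0 fun _ _ => rfl
  refine ⟨k, W, ?_, by rw [← hME]; exact hMV⟩
  ext i j
  have h := congrFun (congrFun hMo i.succ) j.succ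
  rw [Matrix.mul_apply, Fin.sum_univ_succ] at h
  simp only [Matrix.transpose_apply, hM0s, zero_mul, zero_add, Matrix.one_apply,
    Fin.succ_inj] at h
  rw [Matrix.mul_apply, Matrix.one_apply]
  exact h

end Vale.Agent.Lib.P166
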