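import Vale.Agent.Lib.P166.CDefs

/-! P166, module RINV: invariance of integrals under left and right multiplication. -/

open MeasureTheory Filter Topology Matrix

namespace Vale.Agent.Lib.P166

variable {N : ℕ}

theorem integral_left {Ω : Type} [MeasurableSpace Ω] {P : Measure Ω} [IsProbabilityMeasure P]
    {U : Ω → Matrix (Fin N) (Fin N) ℝ} (hU : IsHaar P U) {O : Matrix (Fin N) (Fin N) ℝ}
    (hO : Oᵀ * O = 1) (F : Matrix (Fin N) (Fin N) ℝ → ℝ)
    (hF : Measurable fun M : Fin N → Fin N → ℝ => F (Matrix.of M)) :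
    ∫ ω, F (O * U ω) ∂P = ∫ ω, F (U ω) ∂P := by
  have h := hU.inv O hO
  have h1 : Measurable (fun ω => (fun i j => (O * U ω) i j : Fin N → Fin N → ℝ)) := by
    refine measurable_pi_lambda _ fun i => measurable_pi_lambda _ fun j => ?_
    simp only [Matrix.mul_apply]
    exact Finset.measurable_sum _ fun k _ => (hU.meas k j).const_mul _
  have e1 : ∫ ω, F (O * U ω) ∂P =
      ∫ M, F (Matrix.of M) ∂(P.map (fun ω => (fun i j => (O * U ω) i j : Fin N → Fin N → ℝ))) := by
    rw [integral_map h1.aemeasurable hF.aestronglyMeasurable]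
    rfl
  have e2 : ∫ ω, F (U ω) ∂P =
      ∫ M, F (Matrix.of M) ∂(P.map (fun ω => (fun i j => U ω i j : Fin N → Fin N → ℝ))) := by
    rw [integral_map hU.meas'.aemeasurable hF.aestronglyMeasurable]
    rfl
  rw [e1, e2, h]

theorem orth_comm {O : Matrix (Fin N) (Fin N) ℝ} (hO : Oᵀ * O = 1) : O * Oᵀ = 1 :=
  mul_eq_one_comm.1 hO

theorem measurable_transpose {F : Matrix (Fin N) (Fin N) ℝ → ℝ}
    (hF : Measurable fun M : Fin N → Fin N → ℝ => F (Matrix.of M)) :
    Measurable fun M : Fin N → Fin N → ℝ => F (Matrix.of M)ᵀ := by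
  have h : Measurable fun M : Fin N → Fin N → ℝ => (fun i j => M j i : Fin N → Fin N → ℝ) :=
    measurable_pi_lambda _ fun i => measurable_pi_lambda _ fun j =>
      (measurable_pi_apply i).comp (measurable_pi_apply j)
  exact hF.comp h

/-- a Haar matrix and its transpose have the same law -/
theorem integral_transpose {Ω : Type} [MeasurableSpace Ω] {P : Measure Ω} [IsProbabilityMeasure P]
    {U : Ω → Matrix (Fin N) (Fin N) ℝ} (hU : IsHaar P U) (F : Matrix (Fin N) (Fin N) ℝ → ℝ)
    (hF : Measurable fun M : Fin N → Fin N → ℝ => F (Matrix.of M))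
    (hb : ∃ C, ∀ M, Mᵀ * M = 1 → |F M| ≤ C) :
    ∫ ω, F (U ω)ᵀ ∂P = ∫ ω, F (U ω) ∂P := by
  obtain ⟨C, hC⟩ := hb
  have ho : ∀ ω ω', ((U ω)ᵀ * U ω')ᵀ * ((U ω)ᵀ * U ω') = 1 := by
    intro ω ω'
    rw [Matrix.transpose_mul, Matrix.transpose_transpose, Matrix.mul_assoc,
      ← Matrix.mul_assoc (U ω), orth_comm (hU.orth ω), Matrix.one_mul, hU.orth ω']
  have hm : Measurable fun p : Ω × Ω => F ((U p.1)ᵀ * U p.2) := by
    have h : Measurable fun p : Ω × Ω =>
        (fun i j => ((U p.1)ᵀ * U p.2) i j : Fin N → Fin N → ℝ) := by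
      refine measurable_pi_lambda _ fun i => measurable_pi_lambda _ fun j => ?_
      simp only [Matrix.mul_apply, Matrix.transpose_apply]
      exact Finset.measurable_sum _ fun k _ =>
        ((hU.meas k i).comp measurable_fst).mul ((hU.meas k j).comp measurable_snd)
    exact hF.comp h
  have hint : Integrable (fun p : Ω × Ω => F ((U p.1)ᵀ * U p.2)) (P.prod P) :=
    Integrable.of_bound hm.aestronglyMeasurable C
      (Filter.Eventually.of_forall fun p => by
        rw [Real.norm_eq_abs]; exact hC _ (ho p.1 p.2))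
  have h1 : ∫ ω, ∫ ω', F ((U ω)ᵀ * U ω') ∂P ∂P = ∫ ω, F (U ω) ∂P := by
    have : ∀ ω, ∫ ω', F ((U ω)ᵀ * U ω') ∂P = ∫ ω', F (U ω') ∂P := fun ω =>
      integral_left hU (O := (U ω)ᵀ)
        (by rw [Matrix.transpose_transpose]; exact orth_comm (hU.orth ω)) F hF
    simp only [this, integral_const, probReal_univ, one_smul]
  have h2 : ∫ ω', ∫ ω, F ((U ω)ᵀ * U ω') ∂P ∂P = ∫ ω, F (U ω)ᵀ ∂P := by
    have : ∀ ω', ∫ ω, F ((U ω)ᵀ * U ω') ∂P = ∫ ω, F (U ω)ᵀ ∂P := by
      intro ω'
      have h3 := integral_left hU (O := (U ω')ᵀ)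
        (by rw [Matrix.transpose_transpose]; exact orth_comm (hU.orth ω'))
        (fun M => F Mᵀ) (measurable_transpose hF)
      simp only [Matrix.transpose_mul, Matrix.transpose_transpose] at h3
      exact h3
    simp only [this, integral_const, probReal_univ, one_smul]
  rw [← h1, ← h2]
  exact (integral_integral_swap hint).symm

theorem integral_right {Ω : Type} [MeasurableSpace Ω] {P : Measure Ω} [IsProbabilityMeasure P]
    {U : Ω → Matrix (Fin N) (Fin N) ℝ} (hU : IsHaar P U) {O : Matrix (Fin N) (Fin N) ℝ}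
    (hO : Oᵀ * O = 1) (F : Matrix (Fin N) (Fin N) ℝ → ℝ)
    (hF : Measurable fun M : Fin N → Fin N → ℝ => F (Matrix.of M))
    (hb : ∃ C, ∀ M, Mᵀ * M = 1 → |F M| ≤ C) :
    ∫ ω, F (U ω * O) ∂P = ∫ ω, F (U ω) ∂P := by
  obtain ⟨C, hC⟩ := hb
  have hmO : Measurable fun M : Fin N → Fin N → ℝ => F (Matrix.of M * O) := by
    have h : Measurable fun M : Fin N → Fin N → ℝ =>
        (fun i j => (Matrix.of M * O) i j : Fin N → Fin N → ℝ) := by
      refine measurable_pi_lambda _ fun i => measurable_pi_lambda _ fun j => ?_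
      simp only [Matrix.mul_apply, Matrix.of_apply]
      exact Finset.measurable_sum _ fun k _ =>
        ((measurable_pi_apply k).comp (measurable_pi_apply i)).mul_const _
    exact hF.comp h
  have h1 := integral_transpose hU (fun M => F (M * O)) hmO ⟨C, fun M hM => hC _ (by
    rw [Matrix.transpose_mul, Matrix.mul_assoc, ← Matrix.mul_assoc Mᵀ, hM, Matrix.one_mul, hO])⟩
  have h2 := integral_left hU (O := Oᵀ)
    (by rw [Matrix.transpose_transpose]; exact orth_comm hO)
    (fun M => F Mᵀ) (measurable_transpose hF)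
  simp only [Matrix.transpose_mul, Matrix.transpose_transpose] at h2
  rw [← h1, h2]
  exact integral_transpose hU F hF ⟨C, hC⟩

end Vale.Agent.Lib.P166
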