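import Vale.Agent.Lib.P166.CDefs
import Vale.Agent.Lib.P166.Refl
import Vale.Agent.Lib.P166.RInv

/-! P166: variance bound by reflections, along the chain of orthogonal groups. -/

open MeasureTheory Filter Topology Matrix

namespace Vale.Agent.Lib.P166

namespace VarB

section tools

variable {α β γ : Type} [MeasurableSpace α] [MeasurableSpace β] [MeasurableSpace γ]

theorem bint (ρ : Measure α) [IsProbabilityMeasure ρ] {h : α → ℝ} (K : ℝ) (hh : Measurable h)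
    (hK : ∀ z, |h z| ≤ K) : Integrable h ρ :=
  Integrable.of_bound hh.aestronglyMeasurable K
    (Filter.Eventually.of_forall fun z => by rw [Real.norm_eq_abs]; exact hK z)

theorem babs (ρ : Measure α) [IsProbabilityMeasure ρ] {h : α → ℝ} (K : ℝ)
    (hK : ∀ z, |h z| ≤ K) : |∫ z, h z ∂ρ| ≤ K := by
  have := norm_integral_le_of_norm_le_const (μ := ρ) (f := h) (C := K)
    (Filter.Eventually.of_forall fun z => by rw [Real.norm_eq_abs]; exact hK z)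
  simpa using this

theorem sq_bd {x K : ℝ} (h : |x| ≤ K) : |x ^ 2| ≤ K ^ 2 := by
  rw [abs_of_nonneg (sq_nonneg _), ← sq_abs]
  exact pow_le_pow_left₀ (abs_nonneg _) h 2

theorem sub_bd {x y K : ℝ} (h : |x| ≤ K) (h' : |y| ≤ K) : |x - y| ≤ 2 * K := by
  have := abs_sub x y
  linarith

theorem sqd {x y K : ℝ} (h : |x| ≤ K) (h' : |y| ≤ K) : |(x - y) ^ 2| ≤ (2 * K) ^ 2 :=
  sq_bd (sub_bd h h')

theorem imeas (ν : Measure β) [IsProbabilityMeasure ν] {h : α → β → ℝ}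
    (hh : Measurable fun p : α × β => h p.1 p.2) : Measurable fun x => ∫ y, h x y ∂ν :=
  (hh.stronglyMeasurable.integral_prod_right' (ν := ν)).measurable

theorem jensen2 (ρ : Measure α) [IsProbabilityMeasure ρ] {h : α → ℝ} (K : ℝ)
    (hh : Measurable h) (hK : ∀ z, |h z| ≤ K) : (∫ z, h z ∂ρ) ^ 2 ≤ ∫ z, h z ^ 2 ∂ρ := by
  set m := ∫ z, h z ∂ρ with hm
  have i1 := bint ρ K hh hK
  have i2 : Integrable (fun z => h z ^ 2) ρ := bint ρ (K ^ 2) (hh.pow_const 2) fun z => sq_bd (hK z)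
  have i3 : Integrable (fun z => (-2 * m) * h z + m ^ 2) ρ :=
    (i1.const_mul _).add (integrable_const _)
  have h0 : 0 ≤ ∫ z, (h z - m) ^ 2 ∂ρ := integral_nonneg fun z => sq_nonneg _
  have h1 : ∀ z, (h z - m) ^ 2 = h z ^ 2 + ((-2 * m) * h z + m ^ 2) := fun z => by ring
  simp only [h1] at h0
  rw [integral_add i2 i3, integral_add (i1.const_mul _) (integrable_const _)] at h0
  simp only [integral_const_mul, integral_const, probReal_univ, smul_eq_mul, one_mul] at h0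
  rw [← hm] at h0
  nlinarith

/-- variance decomposition -/
theorem var_dec (ρ : Measure α) [IsProbabilityMeasure ρ] {h : α → ℝ} (K : ℝ)
    (hh : Measurable h) (hK : ∀ z, |h z| ≤ K) (t : ℝ) :
    ∫ z, (h z - t) ^ 2 ∂ρ = ∫ z, (h z - ∫ z', h z' ∂ρ) ^ 2 ∂ρ + ((∫ z, h z ∂ρ) - t) ^ 2 := by
  set m := ∫ z, h z ∂ρ with hm
  have i1 := bint ρ K hh hK
  have i2 : Integrable (fun z => h z ^ 2) ρ := bint ρ (K ^ 2) (hh.pow_const 2) fun z => sq_bd (hK z)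
  have key : ∀ c : ℝ, ∫ z, (h z - c) ^ 2 ∂ρ = ∫ z, h z ^ 2 ∂ρ + (-2 * c * m + c ^ 2) := by
    intro c
    have i3 : Integrable (fun z => (-2 * c) * h z + c ^ 2) ρ :=
      (i1.const_mul _).add (integrable_const _)
    have h1 : ∀ z, (h z - c) ^ 2 = h z ^ 2 + ((-2 * c) * h z + c ^ 2) := fun z => by ring
    simp only [h1]
    rw [integral_add i2 i3, integral_add (i1.const_mul _) (integrable_const _)]
    simp only [integral_const_mul, integral_const, probReal_univ, smul_eq_mul, one_mul]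
    rw [← hm]
  rw [key, key]
  ring

theorem swap2 (μ : Measure α) (ν : Measure β) [IsProbabilityMeasure μ] [IsProbabilityMeasure ν]
    {h : α → β → ℝ} (K : ℝ) (hh : Measurable fun p : α × β => h p.1 p.2)
    (hK : ∀ a b, |h a b| ≤ K) : ∫ a, ∫ b, h a b ∂ν ∂μ = ∫ b, ∫ a, h a b ∂μ ∂ν := by
  refine integral_integral_swap ?_
  exact bint _ K hh fun z => hK _ _

theorem swap3_le (μ : Measure α) (ν : Measure β) (ρ : Measure γ) [IsProbabilityMeasure μ]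
    [IsProbabilityMeasure ν] [IsProbabilityMeasure ρ] (h : α → β → γ → ℝ) (K : ℝ)
    (hh : Measurable fun q : (α × β) × γ => h q.1.1 q.1.2 q.2) (hK : ∀ a b c, |h a b c| ≤ K)
    (B : ℝ) (hB : ∀ c, ∫ a, ∫ b, h a b c ∂ν ∂μ ≤ B) :
    ∫ a, ∫ b, ∫ c, h a b c ∂ρ ∂ν ∂μ ≤ B := by
  have h1 : ∀ a, ∫ b, ∫ c, h a b c ∂ρ ∂ν = ∫ c, ∫ b, h a b c ∂ν ∂ρ := by
    intro a
    refine swap2 ν ρ K ?_ (hK a)
    exact hh.comp ((measurable_const.prodMk measurable_fst).prodMk measurable_snd)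
  simp only [h1]
  have h2 : Measurable fun p : α × γ => ∫ b, h p.1 b p.2 ∂ν := by
    refine imeas ν (h := fun (p : α × γ) b => h p.1 b p.2) ?_
    exact hh.comp (((measurable_fst.comp measurable_fst).prodMk measurable_snd).prodMk
      (measurable_snd.comp measurable_fst))
  rw [swap2 μ ρ K h2 fun a c => babs ν K fun b => hK a b c]
  have h3 : ∫ _c, B ∂ρ = B := by simp only [integral_const, probReal_univ, smul_eq_mul, one_mul]
  rw [← h3]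
  refine integral_mono (bint _ K ?_ fun c => babs μ K fun a => babs ν K fun b => hK a b c)
    (integrable_const _) hB
  exact imeas μ (h := fun (c : γ) a => ∫ b, h a b c ∂ν) (h2.comp measurable_swap)

theorem mono2 (μ : Measure α) (ν : Measure β) [IsProbabilityMeasure μ] [IsProbabilityMeasure ν]
    (f g : α → β → ℝ) (K : ℝ) (hf : Measurable fun p : α × β => f p.1 p.2)
    (hg : Measurable fun p : α × β => g p.1 p.2) (bf : ∀ a b, |f a b| ≤ K)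
    (bg : ∀ a b, |g a b| ≤ K) (h : ∀ a b, f a b ≤ g a b) :
    ∫ a, ∫ b, f a b ∂ν ∂μ ≤ ∫ a, ∫ b, g a b ∂ν ∂μ := by
  refine integral_mono (bint _ K (imeas ν hf) fun a => babs ν K fun b => bf a b)
    (bint _ K (imeas ν hg) fun a => babs ν K fun b => bg a b) fun a => ?_
  exact integral_mono (bint _ K (hf.comp (measurable_const.prodMk measurable_id)) (bf a))
    (bint _ K (hg.comp (measurable_const.prodMk measurable_id)) (bg a)) (h a)

theorem mmul {m : ℕ} {A B : α → Matrix (Fin m) (Fin m) ℝ} (hA : ∀ i j, Measurable fun x => A x i j)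
    (hB : ∀ i j, Measurable fun x => B x i j) (i j : Fin m) :
    Measurable fun x => (A x * B x) i j := by
  simp only [Matrix.mul_apply]
  exact Finset.measurable_fun_sum _ fun k _ => (hA i k).mul (hB k j)

theorem memb {n : ℕ} {A : α → Matrix (Fin n) (Fin n) ℝ} (hA : ∀ i j, Measurable fun x => A x i j)
    (i j : Fin (n + 1)) : Measurable fun x => emb (A x) i j := by
  refine Fin.cases ?_ (fun i => ?_) i
  · refine Fin.cases ?_ (fun j => ?_) j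
    · show Measurable fun _ => (1 : ℝ)
      exact measurable_const
    · show Measurable fun _ => (0 : ℝ)
      exact measurable_const
  · refine Fin.cases ?_ (fun j => ?_) j
    · show Measurable fun _ => (0 : ℝ)
      exact measurable_const
    · show Measurable fun x => A x i j
      exact hA i j

theorem mF {m : ℕ} {Θ : Type} [MeasurableSpace Θ] {F : Θ → Matrix (Fin m) (Fin m) ℝ → ℝ}
    (hF : Measurable fun p : Θ × (Fin m → Fin m → ℝ) => F p.1 (Matrix.of p.2))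
    {a : α → Θ} (ha : Measurable a) {M : α → Matrix (Fin m) (Fin m) ℝ}
    (hM : ∀ i j, Measurable fun x => M x i j) : Measurable fun x => F (a x) (M x) := by
  have h : Measurable fun x => ((a x, fun i j => M x i j) : Θ × (Fin m → Fin m → ℝ)) :=
    ha.prodMk (measurable_pi_lambda _ fun i => measurable_pi_lambda _ fun j => hM i j)
  exact hF.comp h

theorem mof {m : ℕ} {f : α → (Fin m → Fin m → ℝ)} (hf : Measurable f) (i j : Fin m) :
    Measurable fun x => (Matrix.of (f x)) i j :=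
  (measurable_pi_apply j).comp ((measurable_pi_apply i).comp hf)

end tools

section step

variable {n : ℕ} {Ω1 Ω2 Θ : Type} [MeasurableSpace Ω1] [MeasurableSpace Ω2] [MeasurableSpace Θ]
  {P1 : Measure Ω1} {P2 : Measure Ω2} [IsProbabilityMeasure P1] [IsProbabilityMeasure P2]
  {V : Ω1 → Matrix (Fin (n + 1)) (Fin (n + 1)) ℝ} {W : Ω2 → Matrix (Fin n) (Fin n) ℝ}
  {F : Θ → Matrix (Fin (n + 1)) (Fin (n + 1)) ℝ → ℝ} {C : ℝ}

/-- average over the smaller group -/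
noncomputable def Gf (P2 : Measure Ω2) (W : Ω2 → Matrix (Fin n) (Fin n) ℝ)
    (F : Θ → Matrix (Fin (n + 1)) (Fin (n + 1)) ℝ → ℝ) (θ : Θ)
    (M : Matrix (Fin (n + 1)) (Fin (n + 1)) ℝ) : ℝ := ∫ ω', F θ (M * emb (W ω')) ∂P2

theorem Gf_meas (hn : IsHaar P2 W)
    (hF : Measurable fun p : Θ × (Fin (n + 1) → Fin (n + 1) → ℝ) => F p.1 (Matrix.of p.2)) :
    Measurable fun p : Θ × (Fin (n + 1) → Fin (n + 1) → ℝ) => Gf P2 W F p.1 (Matrix.of p.2) := by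
  refine imeas P2 (h := fun (p : Θ × (Fin (n + 1) → Fin (n + 1) → ℝ)) ω' =>
    F p.1 (Matrix.of p.2 * emb (W ω'))) ?_
  exact mF hF (measurable_fst.comp measurable_fst)
    (mmul (mof (measurable_snd.comp measurable_fst))
      (memb fun i j => (hn.meas i j).comp measurable_snd))

theorem Gf_bd (hC : ∀ θ M, |F θ M| ≤ C) (θ : Θ) (M : Matrix (Fin (n + 1)) (Fin (n + 1)) ℝ) :
    |Gf P2 W F θ M| ≤ C := babs P2 C fun ω' => hC _ _

theorem mVW (hn1 : IsHaar P1 V) (hn : IsHaar P2 W) (i j : Fin (n + 1)) :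
    Measurable fun q : (Θ × Ω1) × Ω2 => (V q.1.2 * emb (W q.2)) i j :=
  mmul (fun i j => (hn1.meas i j).comp (measurable_snd.comp measurable_fst))
    (memb fun i j => (hn.meas i j).comp measurable_snd) i j

theorem mFVW (hn1 : IsHaar P1 V) (hn : IsHaar P2 W)
    (hF : Measurable fun p : Θ × (Fin (n + 1) → Fin (n + 1) → ℝ) => F p.1 (Matrix.of p.2)) :
    Measurable fun q : (Θ × Ω1) × Ω2 => F q.1.1 (V q.1.2 * emb (W q.2)) :=
  mF hF (measurable_fst.comp measurable_fst) (mVW hn1 hn)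

theorem mFV (hn1 : IsHaar P1 V)
    (hF : Measurable fun p : Θ × (Fin (n + 1) → Fin (n + 1) → ℝ) => F p.1 (Matrix.of p.2)) :
    Measurable fun q : Θ × Ω1 => F q.1 (V q.2) :=
  mF hF measurable_fst fun i j => (hn1.meas i j).comp measurable_snd

theorem m2 (hn1 : IsHaar P1 V) (hn : IsHaar P2 W)
    (hF : Measurable fun p : Θ × (Fin (n + 1) → Fin (n + 1) → ℝ) => F p.1 (Matrix.of p.2)) :
    Measurable fun q : (Θ × Ω1) × Ω2 =>
      (F q.1.1 (V q.1.2 * emb (W q.2)) - Gf P2 W F q.1.1 (V q.1.2)) ^ 2 :=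
  ((mFVW hn1 hn hF).sub ((mFV hn1 (Gf_meas hn hF)).comp measurable_fst)).pow_const 2

theorem m3 (hn1 : IsHaar P1 V) (hn : IsHaar P2 W)
    (hF : Measurable fun p : Θ × (Fin (n + 1) → Fin (n + 1) → ℝ) => F p.1 (Matrix.of p.2)) :
    Measurable fun q : Θ × Ω1 =>
      ∫ ω', (F q.1 (V q.2 * emb (W ω')) - Gf P2 W F q.1 (V q.2)) ^ 2 ∂P2 :=
  imeas P2 (h := fun (q : Θ × Ω1) ω' =>
    (F q.1 (V q.2 * emb (W ω')) - Gf P2 W F q.1 (V q.2)) ^ 2) (m2 hn1 hn hF)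

theorem b3 (hC : ∀ θ M, |F θ M| ≤ C) (θ : Θ) (ω : Ω1) :
    |∫ ω', (F θ (V ω * emb (W ω')) - Gf P2 W F θ (V ω)) ^ 2 ∂P2| ≤ (2 * C) ^ 2 :=
  babs P2 _ fun ω' => sqd (hC _ _) (Gf_bd hC _ _)

theorem mTf (hn1 : IsHaar P1 V)
    (hF : Measurable fun p : Θ × (Fin (n + 1) → Fin (n + 1) → ℝ) => F p.1 (Matrix.of p.2)) :
    Measurable fun θ => ∫ ω, F θ (V ω) ∂P1 := imeas P1 (h := fun θ ω => F θ (V ω)) (mFV hn1 hF)

theorem m4 (hn1 : IsHaar P1 V) (hn : IsHaar P2 W)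
    (hF : Measurable fun p : Θ × (Fin (n + 1) → Fin (n + 1) → ℝ) => F p.1 (Matrix.of p.2)) :
    Measurable fun q : Θ × Ω1 =>
      (Gf P2 W F q.1 (V q.2) - ∫ ω, F q.1 (V ω) ∂P1) ^ 2 :=
  ((mFV hn1 (Gf_meas hn hF)).sub ((mTf hn1 hF).comp measurable_fst)).pow_const 2

theorem b4 (hC : ∀ θ M, |F θ M| ≤ C) (θ : Θ) (ω : Ω1) :
    |(Gf P2 W F θ (V ω) - ∫ ω, F θ (V ω) ∂P1) ^ 2| ≤ (2 * C) ^ 2 :=
  sqd (Gf_bd hC _ _) (babs P1 C fun ω => hC _ _)

theorem hFθ (hF : Measurable fun p : Θ × (Fin (n + 1) → Fin (n + 1) → ℝ) => F p.1 (Matrix.of p.2))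
    (θ : Θ) : Measurable fun M : Fin (n + 1) → Fin (n + 1) → ℝ => F θ (Matrix.of M) :=
  hF.comp (measurable_const.prodMk measurable_id)

theorem stepA (hn1 : IsHaar P1 V) (hn : IsHaar P2 W)
    (hF : Measurable fun p : Θ × (Fin (n + 1) → Fin (n + 1) → ℝ) => F p.1 (Matrix.of p.2))
    (hC : ∀ θ M, |F θ M| ≤ C) (θ : Θ) :
    ∫ ω, (F θ (V ω) - ∫ ω', F θ (V ω') ∂P1) ^ 2 ∂P1 =
      ∫ ω, ∫ ω', (F θ (V ω * emb (W ω')) - Gf P2 W F θ (V ω)) ^ 2 ∂P2 ∂P1 +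
        ∫ ω, (Gf P2 W F θ (V ω) - ∫ ω', F θ (V ω') ∂P1) ^ 2 ∂P1 := by
  set t : ℝ := ∫ ω', F θ (V ω') ∂P1 with ht
  have htC : |t| ≤ C := babs P1 C fun ω => hC _ _
  have a1 : ∀ ω', ∫ ω, (F θ (V ω * emb (W ω')) - t) ^ 2 ∂P1 =
      ∫ ω, (F θ (V ω) - t) ^ 2 ∂P1 := fun ω' =>
    integral_right hn1 (emb_orth (hn.orth ω')) (fun M => (F θ M - t) ^ 2)
      (((hFθ hF θ).sub measurable_const).pow_const 2)
      ⟨(2 * C) ^ 2, fun M _ => sqd (hC _ _) htC⟩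
  have mθ : Measurable fun q : Ω1 × Ω2 => F θ (V q.1 * emb (W q.2)) :=
    (mFVW hn1 hn hF).comp ((measurable_const.prodMk measurable_fst).prodMk measurable_snd)
  have a2 : ∫ ω, ∫ ω', (F θ (V ω * emb (W ω')) - t) ^ 2 ∂P2 ∂P1 =
      ∫ ω, (F θ (V ω) - t) ^ 2 ∂P1 := by
    rw [swap2 P1 P2 ((2 * C) ^ 2) ((mθ.sub measurable_const).pow_const 2)
      (fun _ _ => sqd (hC _ _) htC)]
    simp only [a1, integral_const, probReal_univ, smul_eq_mul, one_mul]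
  rw [← a2]
  have a3 : ∀ ω, ∫ ω', (F θ (V ω * emb (W ω')) - t) ^ 2 ∂P2 =
      ∫ ω', (F θ (V ω * emb (W ω')) - Gf P2 W F θ (V ω)) ^ 2 ∂P2 +
        (Gf P2 W F θ (V ω) - t) ^ 2 :=
    fun ω => var_dec P2 C (mθ.comp (measurable_const.prodMk measurable_id))
      (fun _ => hC _ _) t
  simp only [a3]
  exact integral_add
    (bint _ _ ((m3 hn1 hn hF).comp (measurable_const.prodMk measurable_id))
      fun ω => b3 (V := V) hC θ ω)
    (bint _ _ ((m4 hn1 hn hF).comp (measurable_const.prodMk measurable_id))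
      fun ω => b4 (P1 := P1) hC θ ω)

theorem stepR (hn1 : IsHaar P1 V)
    (hF : Measurable fun p : Θ × (Fin (n + 1) → Fin (n + 1) → ℝ) => F p.1 (Matrix.of p.2))
    (hC : ∀ θ M, |F θ M| ≤ C) (k : Fin (n + 1) → ℝ)
    (O : Matrix (Fin (n + 1)) (Fin (n + 1)) ℝ) (hO : Oᵀ * O = 1) (θ : Θ) :
    ∫ ω, (F θ (V ω * O) - F θ (V ω * O * refl k)) ^ 2 ∂P1 =
      ∫ ω, (F θ (V ω) - F θ (V ω * refl k)) ^ 2 ∂P1 := by
  refine integral_right hn1 hO (fun M => (F θ M - F θ (M * refl k)) ^ 2) ?_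
    ⟨(2 * C) ^ 2, fun M _ => sqd (hC _ _) (hC _ _)⟩
  refine ((hFθ hF θ).sub ?_).pow_const 2
  exact mF hF (a := fun _ => θ) measurable_const
    (mmul (mof measurable_id) fun i j => measurable_const)

theorem int_const_prob {X : Type} [MeasurableSpace X] (ρ : Measure X) [IsProbabilityMeasure ρ]
    (c : ℝ) : ∫ _x, c ∂ρ = c := by
  simp only [integral_const, probReal_univ, smul_eq_mul, one_mul]

theorem stepB (hn1 : IsHaar P1 V) (hn : IsHaar P2 W) (τ : Measure Θ) [IsProbabilityMeasure τ]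
    (hF : Measurable fun p : Θ × (Fin (n + 1) → Fin (n + 1) → ℝ) => F p.1 (Matrix.of p.2))
    (hC : ∀ θ M, |F θ M| ≤ C) (B : ℝ)
    (hB : ∀ k : Fin (n + 1) → ℝ,
      ∫ θ, ∫ ω, (F θ (V ω) - F θ (V ω * refl k)) ^ 2 ∂P1 ∂τ ≤ B) (k : Fin n → ℝ) :
    ∫ p : Θ × Ω1, ∫ ω', (F p.1 (V p.2 * emb (W ω')) -
      F p.1 (V p.2 * emb (W ω' * refl k))) ^ 2 ∂P2 ∂(τ.prod P1) ≤ B := by
  have e : ∀ (ω : Ω1) (ω' : Ω2), V ω * emb (W ω' * refl k) =
      V ω * emb (W ω') * refl (Fin.cons 0 k) := fun ω ω' => by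
    rw [emb_mul, emb_refl, Matrix.mul_assoc]
  simp only [e]
  have m5a : ∀ i j, Measurable fun q : (Θ × Ω1) × Ω2 =>
      (V q.1.2 * emb (W q.2) * refl (Fin.cons 0 k)) i j :=
    mmul (A := fun q : (Θ × Ω1) × Ω2 => V q.1.2 * emb (W q.2))
      (B := fun _ => refl (Fin.cons 0 k)) (mVW hn1 hn) (fun i j => measurable_const)
  have m5b : Measurable fun q : (Θ × Ω1) × Ω2 =>
      F q.1.1 (V q.1.2 * emb (W q.2) * refl (Fin.cons 0 k)) :=
    mF (α := (Θ × Ω1) × Ω2) hF (a := fun q => q.1.1)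
      (M := fun q => V q.1.2 * emb (W q.2) * refl (Fin.cons 0 k))
      (measurable_fst.comp measurable_fst) m5a
  have m5 : Measurable fun q : (Θ × Ω1) × Ω2 =>
      (F q.1.1 (V q.1.2 * emb (W q.2)) -
        F q.1.1 (V q.1.2 * emb (W q.2) * refl (Fin.cons 0 k))) ^ 2 :=
    ((mFVW hn1 hn hF).sub m5b).pow_const 2
  have m6 := imeas P2 (h := fun (q : Θ × Ω1) ω' =>
    (F q.1 (V q.2 * emb (W ω')) -
        F q.1 (V q.2 * emb (W ω') * refl (Fin.cons 0 k))) ^ 2) m5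
  rw [integral_prod _ (bint _ ((2 * C) ^ 2) m6 fun q => babs P2 _ fun ω' =>
    sqd (hC _ _) (hC _ _))]
  refine swap3_le τ P1 P2 (fun θ ω ω' => (F θ (V ω * emb (W ω')) -
        F θ (V ω * emb (W ω') * refl (Fin.cons 0 k))) ^ 2) ((2 * C) ^ 2) m5
    (fun _ _ _ => sqd (hC _ _) (hC _ _)) B ?_
  intro ω'
  have := fun θ => stepR hn1 hF hC (Fin.cons 0 k) _ (emb_orth (hn.orth ω')) θ
  simp only [this]
  exact hB _

theorem stepC1 (hn1 : IsHaar P1 V) (hn : IsHaar P2 W)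
    (hF : Measurable fun p : Θ × (Fin (n + 1) → Fin (n + 1) → ℝ) => F p.1 (Matrix.of p.2))
    (hC : ∀ θ M, |F θ M| ≤ C) (θ : Θ) (M : Matrix (Fin (n + 1)) (Fin (n + 1)) ℝ)
    (hM : Mᵀ * M = 1) : ∫ ω, F θ (V ω) ∂P1 = ∫ ω, Gf P2 W F θ (M * V ω) ∂P1 := by
  have m7 : Measurable fun q : Ω1 × Ω2 => F θ (M * V q.1 * emb (W q.2)) :=
    mF hF (a := fun _ => θ) measurable_const
      (mmul (mmul (fun i j => measurable_const) fun i j => (hn1.meas i j).comp measurable_fst)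
        (memb fun i j => (hn.meas i j).comp measurable_snd))
  have e1 : ∫ ω, Gf P2 W F θ (M * V ω) ∂P1 =
      ∫ ω', ∫ ω, F θ (M * V ω * emb (W ω')) ∂P1 ∂P2 :=
    swap2 P1 P2 C m7 fun _ _ => hC _ _
  have e2 : ∀ ω', ∫ ω, F θ (M * V ω * emb (W ω')) ∂P1 = ∫ ω, F θ (V ω) ∂P1 := by
    intro ω'
    rw [integral_left hn1 hM (fun M' => F θ (M' * emb (W ω')))
      (mF hF (a := fun _ => θ) measurable_const
        (mmul (mof measurable_id) fun i j => measurable_const))]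
    exact integral_right hn1 (emb_orth (hn.orth ω')) (F θ) (hFθ hF θ) ⟨C, fun M _ => hC _ _⟩
  rw [e1]
  simp only [e2]
  rw [int_const_prob]

theorem m8' (hn1 : IsHaar P1 V) (hn : IsHaar P2 W)
    (hF : Measurable fun p : Θ × (Fin (n + 1) → Fin (n + 1) → ℝ) => F p.1 (Matrix.of p.2))
    (k : Fin (n + 1) → ℝ) : Measurable fun q : (Θ × Ω1) × Ω2 =>
      (F q.1.1 (V q.1.2 * emb (W q.2)) - F q.1.1 (V q.1.2 * refl k * emb (W q.2))) ^ 2 := by
  have h1 : ∀ i j, Measurable fun q : (Θ × Ω1) × Ω2 => V q.1.2 i j := fun i j =>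
    (hn1.meas i j).comp (measurable_snd.comp measurable_fst)
  have h2 : ∀ i j, Measurable fun q : (Θ × Ω1) × Ω2 => (V q.1.2 * refl k) i j :=
    mmul (A := fun q : (Θ × Ω1) × Ω2 => V q.1.2) (B := fun _ => refl k) h1
      (fun i j => measurable_const)
  have h3 : ∀ i j, Measurable fun q : (Θ × Ω1) × Ω2 => emb (W q.2) i j :=
    memb (A := fun q : (Θ × Ω1) × Ω2 => W q.2) fun i j => (hn.meas i j).comp measurable_snd
  have h4 : ∀ i j, Measurable fun q : (Θ × Ω1) × Ω2 => (V q.1.2 * refl k * emb (W q.2)) i j :=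
    mmul (A := fun q : (Θ × Ω1) × Ω2 => V q.1.2 * refl k) (B := fun q => emb (W q.2)) h2 h3
  have h5 : Measurable fun q : (Θ × Ω1) × Ω2 => F q.1.1 (V q.1.2 * refl k * emb (W q.2)) :=
    mF (α := (Θ × Ω1) × Ω2) hF (a := fun q => q.1.1)
      (M := fun q => V q.1.2 * refl k * emb (W q.2)) (measurable_fst.comp measurable_fst) h4
  exact ((mFVW hn1 hn hF).sub h5).pow_const 2

theorem stepC4 (hn1 : IsHaar P1 V) (hn : IsHaar P2 W) (τ : Measure Θ) [IsProbabilityMeasure τ]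
    (hF : Measurable fun p : Θ × (Fin (n + 1) → Fin (n + 1) → ℝ) => F p.1 (Matrix.of p.2))
    (hC : ∀ θ M, |F θ M| ≤ C) (B : ℝ)
    (hB : ∀ k : Fin (n + 1) → ℝ,
      ∫ θ, ∫ ω, (F θ (V ω) - F θ (V ω * refl k)) ^ 2 ∂P1 ∂τ ≤ B) (k : Fin (n + 1) → ℝ) :
    ∫ θ, ∫ ω, ∫ ω', (F θ (V ω * emb (W ω')) - F θ (V ω * refl k * emb (W ω'))) ^ 2
      ∂P2 ∂P1 ∂τ ≤ B := by
  have m8 := m8' (Θ := Θ) hn1 hn hF k
  refine swap3_le τ P1 P2 (fun θ ω ω' => (F θ (V ω * emb (W ω')) -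
        F θ (V ω * refl k * emb (W ω'))) ^ 2) ((2 * C) ^ 2) m8
    (fun _ _ _ => sqd (hC _ _) (hC _ _)) B ?_
  intro ω'
  have hO := emb_orth (hn.orth ω')
  have e1 : ∀ ω, V ω * refl k * emb (W ω') =
      V ω * emb (W ω') * refl ((emb (W ω'))ᵀ *ᵥ k) := by
    intro ω
    rw [Matrix.mul_assoc, refl_conj k hO, ← Matrix.mul_assoc]
  simp only [e1]
  have := fun θ => stepR hn1 hF hC ((emb (W ω'))ᵀ *ᵥ k) _ hO θ
  simp only [this]
  exact hB _

theorem mconst (M : Matrix (Fin (n + 1)) (Fin (n + 1)) ℝ) (hn : IsHaar P2 W)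
    (hF : Measurable fun p : Θ × (Fin (n + 1) → Fin (n + 1) → ℝ) => F p.1 (Matrix.of p.2))
    (θ : Θ) : Measurable fun ω' => F θ (M * emb (W ω')) :=
  mF hF (a := fun _ => θ) (M := fun ω' => M * emb (W ω')) measurable_const
    (mmul (A := fun _ => M) (B := fun ω' => emb (W ω')) (fun i j => measurable_const)
      (memb hn.meas))

theorem mconst' (M : Matrix (Fin (n + 1)) (Fin (n + 1)) ℝ)
    (hF : Measurable fun p : Θ × (Fin (n + 1) → Fin (n + 1) → ℝ) => F p.1 (Matrix.of p.2))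
    (θ : Θ) : Measurable fun N : Fin n → Fin n → ℝ => F θ (M * emb (Matrix.of N)) :=
  mF hF (a := fun _ => θ) (M := fun N => M * emb (Matrix.of N)) measurable_const
    (mmul (A := fun _ => M) (B := fun N => emb (Matrix.of N)) (fun i j => measurable_const)
      (memb (mof measurable_id)))

theorem stepG1 (hn : IsHaar P2 W)
    (hF : Measurable fun p : Θ × (Fin (n + 1) → Fin (n + 1) → ℝ) => F p.1 (Matrix.of p.2))
    (O : Matrix (Fin (n + 1)) (Fin (n + 1)) ℝ) (k : Fin (n + 1) → ℝ)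
    (W2 : Matrix (Fin n) (Fin n) ℝ) (hW2 : W2ᵀ * W2 = 1) (hV2 : O = refl k * emb W2) (θ : Θ)
    (M : Matrix (Fin (n + 1)) (Fin (n + 1)) ℝ) :
    Gf P2 W F θ (M * O) = ∫ ω', F θ (M * refl k * emb (W ω')) ∂P2 := by
  have := integral_left hn hW2 (fun N => F θ (M * refl k * emb N)) (mconst' (M * refl k) hF θ)
  rw [← this]
  unfold Gf
  have e : ∀ ω', M * O * emb (W ω') = M * refl k * emb (W2 * W ω') := by
    intro ω'
    rw [hV2, emb_mul, Matrix.mul_assoc, Matrix.mul_assoc, Matrix.mul_assoc]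
  simp only [e]

theorem stepG2 (hn : IsHaar P2 W)
    (hF : Measurable fun p : Θ × (Fin (n + 1) → Fin (n + 1) → ℝ) => F p.1 (Matrix.of p.2))
    (hC : ∀ θ M, |F θ M| ≤ C) (O : Matrix (Fin (n + 1)) (Fin (n + 1)) ℝ) (k : Fin (n + 1) → ℝ)
    (W2 : Matrix (Fin n) (Fin n) ℝ) (hW2 : W2ᵀ * W2 = 1) (hV2 : O = refl k * emb W2) (θ : Θ)
    (M : Matrix (Fin (n + 1)) (Fin (n + 1)) ℝ) :
    (Gf P2 W F θ M - Gf P2 W F θ (M * O)) ^ 2 ≤
      ∫ ω', (F θ (M * emb (W ω')) - F θ (M * refl k * emb (W ω'))) ^ 2 ∂P2 := by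
  rw [stepG1 hn hF O k W2 hW2 hV2]
  have i1 := mconst M hn hF θ
  have i2 := mconst (M * refl k) hn hF θ
  have e1 : Gf P2 W F θ M - ∫ ω', F θ (M * refl k * emb (W ω')) ∂P2 =
      ∫ ω', (F θ (M * emb (W ω')) - F θ (M * refl k * emb (W ω'))) ∂P2 :=
    (integral_sub (bint _ C i1 fun _ => hC _ _) (bint _ C i2 fun _ => hC _ _)).symm
  rw [e1]
  exact jensen2 P2 (2 * C) (i1.sub i2) fun _ => sub_bd (hC _ _) (hC _ _)

theorem m10' (hn1 : IsHaar P1 V) (hn : IsHaar P2 W)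
    (hF : Measurable fun p : Θ × (Fin (n + 1) → Fin (n + 1) → ℝ) => F p.1 (Matrix.of p.2))
    (O : Matrix (Fin (n + 1)) (Fin (n + 1)) ℝ) : Measurable fun q : Θ × Ω1 =>
      (Gf P2 W F q.1 (V q.2) - Gf P2 W F q.1 (V q.2 * O)) ^ 2 := by
  have h1 : ∀ i j, Measurable fun q : Θ × Ω1 => (V q.2 * O) i j :=
    mmul (A := fun q : Θ × Ω1 => V q.2) (B := fun _ => O)
      (fun i j => (hn1.meas i j).comp measurable_snd) (fun i j => measurable_const)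
  have h2 : Measurable fun q : Θ × Ω1 => Gf P2 W F q.1 (V q.2 * O) :=
    mF (α := Θ × Ω1) (F := Gf P2 W F) (Gf_meas hn hF) (a := fun q => q.1)
      (M := fun q => V q.2 * O) measurable_fst h1
  exact ((mFV hn1 (Gf_meas hn hF)).sub h2).pow_const 2

theorem stepC5 (hn1 : IsHaar P1 V) (hn : IsHaar P2 W) (τ : Measure Θ) [IsProbabilityMeasure τ]
    (hF : Measurable fun p : Θ × (Fin (n + 1) → Fin (n + 1) → ℝ) => F p.1 (Matrix.of p.2))
    (hC : ∀ θ M, |F θ M| ≤ C) (B : ℝ)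
    (hB : ∀ k : Fin (n + 1) → ℝ,
      ∫ θ, ∫ ω, (F θ (V ω) - F θ (V ω * refl k)) ^ 2 ∂P1 ∂τ ≤ B)
    (O : Matrix (Fin (n + 1)) (Fin (n + 1)) ℝ) (hO : Oᵀ * O = 1) :
    ∫ θ, ∫ ω, (Gf P2 W F θ (V ω) - Gf P2 W F θ (V ω * O)) ^ 2 ∂P1 ∂τ ≤ B := by
  obtain ⟨k, W2, hW2, hV2⟩ := decomp hO
  have m9 := imeas P2 (h := fun (q : Θ × Ω1) ω' =>
      (F q.1 (V q.2 * emb (W ω')) - F q.1 (V q.2 * refl k * emb (W ω'))) ^ 2)
      (m8' hn1 hn hF k)
  have b9 : ∀ (θ : Θ) (ω : Ω1), |∫ ω', (F θ (V ω * emb (W ω')) -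
      F θ (V ω * refl k * emb (W ω'))) ^ 2 ∂P2| ≤ (2 * C) ^ 2 := fun θ ω =>
    babs P2 _ fun ω' => sqd (hC _ _) (hC _ _)
  refine le_trans ?_ (stepC4 hn1 hn τ hF hC B hB k)
  exact mono2 τ P1 (fun θ ω => (Gf P2 W F θ (V ω) - Gf P2 W F θ (V ω * O)) ^ 2)
    (fun θ ω => ∫ ω', (F θ (V ω * emb (W ω')) - F θ (V ω * refl k * emb (W ω'))) ^ 2 ∂P2)
    ((2 * C) ^ 2) (m10' hn1 hn hF O) m9 (fun θ ω => sqd (Gf_bd hC _ _) (Gf_bd hC _ _))
    b9 (fun θ ω => stepG2 hn hF hC O k W2 hW2 hV2 θ (V ω))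

theorem stepC (hn1 : IsHaar P1 V) (hn : IsHaar P2 W) (τ : Measure Θ) [IsProbabilityMeasure τ]
    (hF : Measurable fun p : Θ × (Fin (n + 1) → Fin (n + 1) → ℝ) => F p.1 (Matrix.of p.2))
    (hC : ∀ θ M, |F θ M| ≤ C) (B : ℝ)
    (hB : ∀ k : Fin (n + 1) → ℝ,
      ∫ θ, ∫ ω, (F θ (V ω) - F θ (V ω * refl k)) ^ 2 ∂P1 ∂τ ≤ B) :
    ∫ θ, ∫ ω, (Gf P2 W F θ (V ω) - ∫ ω', F θ (V ω') ∂P1) ^ 2 ∂P1 ∂τ ≤ B := by
  have mGG : Measurable fun q : (Θ × Ω1) × Ω1 =>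
      (Gf P2 W F q.1.1 (V q.1.2) - Gf P2 W F q.1.1 (V q.1.2 * V q.2)) :=
    ((mFV hn1 (Gf_meas hn hF)).comp measurable_fst).sub
      (mF (Gf_meas hn hF) (measurable_fst.comp measurable_fst)
      (mmul (fun i j => (hn1.meas i j).comp (measurable_snd.comp measurable_fst))
        fun i j => (hn1.meas i j).comp measurable_snd))
  have m13 := imeas P1 (h := fun (q : Θ × Ω1) ω2 =>
    (Gf P2 W F q.1 (V q.2) - Gf P2 W F q.1 (V q.2 * V ω2)) ^ 2) (mGG.pow_const 2)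
  have b13 : ∀ q : Θ × Ω1, |∫ ω2, (Gf P2 W F q.1 (V q.2) - Gf P2 W F q.1 (V q.2 * V ω2)) ^ 2
      ∂P1| ≤ (2 * C) ^ 2 := fun q => babs _ _ fun ω' => sqd (Gf_bd hC _ _) (Gf_bd hC _ _)
  have g2 : ∀ θ ω, (Gf P2 W F θ (V ω) - ∫ ω', F θ (V ω') ∂P1) ^ 2 ≤
      ∫ ω2, (Gf P2 W F θ (V ω) - Gf P2 W F θ (V ω * V ω2)) ^ 2 ∂P1 := by
    intro θ ω
    have i1 : Measurable fun ω2 => Gf P2 W F θ (V ω * V ω2) :=
      mF (Gf_meas hn hF) (a := fun _ => θ) measurable_const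
        (mmul (fun i j => measurable_const) hn1.meas)
    have e1 : Gf P2 W F θ (V ω) - ∫ ω', F θ (V ω') ∂P1 =
        ∫ ω2, (Gf P2 W F θ (V ω) - Gf P2 W F θ (V ω * V ω2)) ∂P1 := by
      rw [stepC1 hn1 hn hF hC θ (V ω) (hn1.orth ω), integral_sub (integrable_const _)
        (bint _ C i1 fun _ => Gf_bd hC _ _), int_const_prob]
    rw [e1]
    exact jensen2 P1 (2 * C) (measurable_const.sub i1)
      fun _ => sub_bd (Gf_bd hC _ _) (Gf_bd hC _ _)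
  have g3 : ∫ θ, ∫ ω, (Gf P2 W F θ (V ω) - ∫ ω', F θ (V ω') ∂P1) ^ 2 ∂P1 ∂τ ≤
      ∫ θ, ∫ ω, ∫ ω2, (Gf P2 W F θ (V ω) - Gf P2 W F θ (V ω * V ω2)) ^ 2
        ∂P1 ∂P1 ∂τ := by
    exact mono2 τ P1 (fun θ ω => (Gf P2 W F θ (V ω) - ∫ ω', F θ (V ω') ∂P1) ^ 2)
      (fun θ ω => ∫ ω2, (Gf P2 W F θ (V ω) - Gf P2 W F θ (V ω * V ω2)) ^ 2 ∂P1)
      ((2 * C) ^ 2) (m4 hn1 hn hF) m13 (fun θ ω => b4 (P1 := P1) hC θ ω)
      (fun θ ω => b13 (θ, ω)) g2
  refine g3.trans ?_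
  exact swap3_le τ P1 P1 (fun θ ω ω2 => (Gf P2 W F θ (V ω) - Gf P2 W F θ (V ω * V ω2)) ^ 2)
    ((2 * C) ^ 2) (mGG.pow_const 2) (fun _ _ _ => sqd (Gf_bd hC _ _) (Gf_bd hC _ _)) B
    fun ω2 => stepC5 hn1 hn τ hF hC B hB (V ω2) (hn1.orth ω2)

end step

end VarB

open VarB in
/-- variance bound by reflections -/
theorem varBound {Ω : ℕ → Type} [∀ N, MeasurableSpace (Ω N)] {P : ∀ N, Measure (Ω N)}
    [∀ N, IsProbabilityMeasure (P N)] {U : ∀ N, Ω N → Matrix (Fin N) (Fin N) ℝ}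
    (hU : ∀ N, IsHaar (P N) (U N)) (n : ℕ) :
    ∀ (Θ : Type) [MeasurableSpace Θ] (τ : Measure Θ) [IsProbabilityMeasure τ]
      (F : Θ → Matrix (Fin n) (Fin n) ℝ → ℝ)
      (_ : Measurable fun p : Θ × (Fin n → Fin n → ℝ) => F p.1 (Matrix.of p.2))
      (C : ℝ) (_ : ∀ θ M, |F θ M| ≤ C) (B : ℝ)
      (_ : ∀ k : Fin n → ℝ,
        ∫ θ, ∫ ω, (F θ (U n ω) - F θ (U n ω * refl k)) ^ 2 ∂(P n) ∂τ ≤ B),
      ∫ θ, ∫ ω, (F θ (U n ω) - ∫ ω', F θ (U n ω') ∂(P n)) ^ 2 ∂(P n) ∂τ ≤ n * B := by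
  induction n with
  | zero =>
    intro Θ _ τ _ F hF C hC B hB
    have h1 : ∀ θ ω, F θ (U 0 ω) - ∫ ω', F θ (U 0 ω') ∂(P 0) = 0 := by
      intro θ ω
      have : ∀ ω', F θ (U 0 ω') = F θ (U 0 ω) := fun ω' => by
        rw [Subsingleton.elim (U 0 ω') (U 0 ω)]
      simp only [this]
      rw [int_const_prob, sub_self]
    simp only [h1]
    simp
  | succ n ih =>
    intro Θ _ τ _ F hF C hC B hB
    have hn1 := hU (n + 1)
    have hn := hU n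
    have b1 := ih (Θ × Ω (n + 1)) (τ.prod (P (n + 1))) (fun p M => F p.1 (U (n + 1) p.2 * emb M))
      (mF hF (measurable_fst.comp measurable_fst)
        (mmul (fun i j => (hn1.meas i j).comp (measurable_snd.comp measurable_fst))
          (memb (mof measurable_snd)))) C (fun p M => hC _ _) B
      (stepB hn1 hn τ hF hC B hB)
    have hB1 : ∫ θ, ∫ ω, ∫ ω', (F θ (U (n + 1) ω * emb (U n ω')) -
        Gf (P n) (U n) F θ (U (n + 1) ω)) ^ 2 ∂(P n) ∂(P (n + 1)) ∂τ ≤ n * B := by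
      have b1' : ∫ q : Θ × Ω (n + 1), (∫ ω', (F q.1 (U (n + 1) q.2 * emb (U n ω')) -
        Gf (P n) (U n) F q.1 (U (n + 1) q.2)) ^ 2 ∂(P n)) ∂(τ.prod (P (n + 1))) ≤ n * B := b1
      rw [integral_prod _ (bint _ ((2 * C) ^ 2) (m3 hn1 hn hF)
        fun q => b3 (V := U (n + 1)) hC q.1 q.2)] at b1'
      exact b1'
    have hC1 := stepC hn1 hn τ hF hC B hB
    simp only [stepA hn1 hn hF hC]
    rw [integral_add (bint _ ((2 * C) ^ 2) (imeas (P (n + 1)) (m3 hn1 hn hF)) fun θ =>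
      babs _ _ fun ω => b3 (V := U (n + 1)) hC θ ω)
      (bint _ ((2 * C) ^ 2) (imeas (P (n + 1)) (m4 hn1 hn hF)) fun θ =>
      babs _ _ fun ω => b4 (P1 := P (n + 1)) hC θ ω)]
    push_cast
    linarith

end Vale.Agent.Lib.P166
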