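import Vale.Agent.Lib.P166.Mom
import Vale.Agent.Lib.P166.VarB
import Vale.Agent.Lib.P166.Refl
import Vale.Agent.Lib.P166.Diff

/-! P166: the variance of the logarithm of the partition function. -/

open MeasureTheory Filter Topology Matrix

namespace Vale.Agent.Lib.P166

variable {N : ℕ}

theorem refl_zero' : refl (fun _ : Fin N => (0 : ℝ)) = 1 := by
  unfold refl
  have : Matrix.vecMulVec (fun _ : Fin N => (0 : ℝ)) (fun _ : Fin N => (0 : ℝ)) = 0 := by
    ext i j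
    simp [Matrix.vecMulVec_apply]
  rw [this]
  simp

theorem refl_normalize (k : Fin N → ℝ) :
    refl k = 1 ∨ ∃ κ : Fin N → ℝ, κ ⬝ᵥ κ = 1 ∧ refl k = refl κ := by
  have hnn : 0 ≤ k ⬝ᵥ k := by
    simp only [dotProduct]
    exact Finset.sum_nonneg fun i _ => mul_self_nonneg _
  rcases hnn.eq_or_lt with h0 | hpos
  · left
    unfold refl
    rw [← h0]
    simp
  · right
    refine ⟨(1 / Real.sqrt (k ⬝ᵥ k)) • k, ?_, ?_⟩
    · rw [smul_dotProduct, dotProduct_smul, smul_eq_mul, smul_eq_mul]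
      have h1 := Real.mul_self_sqrt hnn
      have h2 : 0 < Real.sqrt (k ⬝ᵥ k) := Real.sqrt_pos.2 hpos
      field_simp
      nlinarith
    · have h1 := Real.mul_self_sqrt hnn
      have h2 : 0 < Real.sqrt (k ⬝ᵥ k) := Real.sqrt_pos.2 hpos
      have h3 : ((1 / Real.sqrt (k ⬝ᵥ k)) • k) ⬝ᵥ ((1 / Real.sqrt (k ⬝ᵥ k)) • k) = 1 := by
        rw [smul_dotProduct, dotProduct_smul, smul_eq_mul, smul_eq_mul]
        field_simp
        nlinarith
      unfold refl
      rw [h3]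
      congr 1
      ext i j
      simp only [Matrix.smul_apply, Matrix.vecMulVec_apply, Pi.smul_apply, smul_eq_mul]
      have h4 : k ⬝ᵥ k ≠ 0 := hpos.ne'
      have h5 : 1 / Real.sqrt (k ⬝ᵥ k) * (1 / Real.sqrt (k ⬝ᵥ k)) = 1 / (k ⬝ᵥ k) := by
        rw [div_mul_div_comm, one_mul, h1]
      calc 2 / (k ⬝ᵥ k) * (k i * k j) = 2 * (1 / (k ⬝ᵥ k)) * (k i * k j) := by ring
        _ = 2 / 1 * (1 / Real.sqrt (k ⬝ᵥ k) * k i * (1 / Real.sqrt (k ⬝ᵥ k) * k j)) := by
          rw [← h5]; ring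

theorem orth_mul {A B : Matrix (Fin N) (Fin N) ℝ} (hA : Aᵀ * A = 1) (hB : Bᵀ * B = 1) :
    (A * B)ᵀ * (A * B) = 1 := by
  rw [Matrix.transpose_mul, Matrix.mul_assoc, ← Matrix.mul_assoc Aᵀ, hA, Matrix.one_mul, hB]

theorem refl_orth (k : Fin N → ℝ) : (refl k)ᵀ * refl k = 1 := by
  rw [refl_transpose, refl_mul_self]

theorem diff_int {Ω : Type} [MeasurableSpace Ω] {P : Measure Ω} [IsProbabilityMeasure P]
    {U : Ω → Matrix (Fin N) (Fin N) ℝ} (hU : IsHaar P U) {β : ℝ} (hβ : 0 ≤ β)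
    (lam : Fin N → ℝ) (l : ℝ) (hl : ∀ i, |lam i| ≤ l) (k : Fin N → ℝ) :
    ∫ ω, (L β lam (U ω) - L β lam (U ω * refl k)) ^ 2 ∂P ≤
      16 * β ^ 2 * l ^ 2 * (2 * Real.sqrt N + 3) := by
  rcases refl_normalize k with hk | ⟨κ, hκ, hk⟩
  · rw [hk]
    simp only [Matrix.mul_one, sub_self, ne_eq, OfNat.ofNat_ne_zero, not_false_eq_true, zero_pow,
      integral_zero]
    positivity
  rw [hk]
  set XF : Matrix (Fin N) (Fin N) ℝ → ℝ := fun M => gav β lam M (fun s => (κ ⬝ᵥ s) ^ 2) with hXF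
  set YF : Matrix (Fin N) (Fin N) ℝ → ℝ := fun M =>
    gav β lam M (fun s => (κ ⬝ᵥ (coupling lam M *ᵥ s)) ^ 2) with hYF
  set F : Matrix (Fin N) (Fin N) ℝ → ℝ := fun M => XF M * YF M + l ^ 2 * XF M ^ 2 with hF
  have hmeas : ∀ (s : Fin N → ℝ), Measurable (fun M : Fin N → Fin N → ℝ =>
      (κ ⬝ᵥ (coupling lam (Matrix.of M) *ᵥ s)) ^ 2) := by
    intro s
    have : (fun M : Fin N → Fin N → ℝ => (κ ⬝ᵥ (coupling lam (Matrix.of M) *ᵥ s)) ^ 2) =
        fun M => (∑ i, κ i * (coupling lam (Matrix.of M) *ᵥ s) i) ^ 2 := rfl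
    rw [this]
    have h1 := mo_coupling_meas lam s
    fun_prop
  have hXm : Measurable fun M : Fin N → Fin N → ℝ => XF (Matrix.of M) :=
    mo_measurable β lam (fun _ s => (κ ⬝ᵥ s) ^ 2) (fun s => measurable_const)
  have hYm : Measurable fun M : Fin N → Fin N → ℝ => YF (Matrix.of M) :=
    mo_measurable β lam (fun M s => (κ ⬝ᵥ (coupling lam (Matrix.of M) *ᵥ s)) ^ 2) hmeas
  have hFm : Measurable fun M : Fin N → Fin N → ℝ => F (Matrix.of M) :=
    (hXm.mul hYm).add ((hXm.pow_const 2).const_mul _)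
  have hXb : ∀ M, |XF M| ≤ N := fun M => gav_abs_le β lam M _ N (mo_dot_abs κ hκ)
  have hYb : ∀ M : Matrix (Fin N) (Fin N) ℝ, Mᵀ * M = 1 → |YF M| ≤ l ^ 2 * N := fun M hM =>
    gav_abs_le β lam M _ _ fun σ => by
      rw [abs_of_nonneg (sq_nonneg _)]
      exact (mo_dot_sq_le κ _ hκ).trans (mo_J_sq lam l hl hM σ)
  have hFb : ∀ M : Matrix (Fin N) (Fin N) ℝ, Mᵀ * M = 1 →
      |F M| ≤ N * (l ^ 2 * N) + l ^ 2 * (N : ℝ) ^ 2 := by
    intro M hM
    refine (abs_add_le _ _).trans (add_le_add ?_ ?_)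
    · rw [abs_mul]
      exact mul_le_mul (hXb M) (hYb M hM) (abs_nonneg _) (Nat.cast_nonneg _)
    · rw [abs_mul, abs_of_nonneg (sq_nonneg l), abs_pow]
      exact mul_le_mul_of_nonneg_left (pow_le_pow_left₀ (abs_nonneg _) (hXb M) 2) (sq_nonneg _)
  have hXi : Integrable (fun ω => XF (U ω) ^ 2) P :=
    Integrable.of_bound ((hXm.comp hU.meas').pow_const 2).aestronglyMeasurable ((N : ℝ) ^ 2)
      (Filter.Eventually.of_forall fun ω => by
        rw [Real.norm_eq_abs, abs_pow]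
        exact pow_le_pow_left₀ (abs_nonneg _) (hXb _) 2)
  have hXYi : Integrable (fun ω => XF (U ω) * YF (U ω)) P :=
    Integrable.of_bound ((hXm.comp hU.meas').mul (hYm.comp hU.meas')).aestronglyMeasurable
      ((N : ℝ) * (l ^ 2 * N)) (Filter.Eventually.of_forall fun ω => by
        rw [Real.norm_eq_abs, abs_mul]
        exact mul_le_mul (hXb _) (hYb _ (hU.orth ω)) (abs_nonneg _) (Nat.cast_nonneg _))
  have hFi : Integrable (fun ω => F (U ω)) P := hXYi.add (hXi.const_mul _)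
  have hRo := refl_orth κ
  have hFRm : Measurable fun M : Fin N → Fin N → ℝ => F (Matrix.of M * refl κ) := by
    have : Measurable fun M : Fin N → Fin N → ℝ =>
        (fun i j => (Matrix.of M * refl κ) i j : Fin N → Fin N → ℝ) := by
      refine measurable_pi_lambda _ fun i => measurable_pi_lambda _ fun j => ?_
      simp only [Matrix.mul_apply, Matrix.of_apply]
      fun_prop
    exact hFm.comp this
  have hFRi : Integrable (fun ω => F (U ω * refl κ)) P :=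
    Integrable.of_bound (hFRm.comp hU.meas').aestronglyMeasurable _
      (Filter.Eventually.of_forall fun ω => by
        rw [Real.norm_eq_abs]
        exact hFb _ (orth_mul (hU.orth ω) hRo))
  have hright : ∫ ω, F (U ω * refl κ) ∂P = ∫ ω, F (U ω) ∂P :=
    integral_right hU hRo F hFm ⟨_, hFb⟩
  have hmain : ∫ ω, (L β lam (U ω) - L β lam (U ω * refl κ)) ^ 2 ∂P ≤
      ∫ ω, 8 * β ^ 2 * (F (U ω) + F (U ω * refl κ)) ∂P := by
    refine integral_mono_of_nonneg (Filter.Eventually.of_forall fun ω => sq_nonneg _)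
      ((hFi.add hFRi).const_mul _) (Filter.Eventually.of_forall fun ω => ?_)
    exact diff_le hβ lam l hl (hU.orth ω) κ hκ
  rw [integral_const_mul, integral_add hFi hFRi, hright] at hmain
  have hFint : ∫ ω, F (U ω) ∂P ≤ 2 * l ^ 2 * Real.sqrt N + l ^ 2 * 3 := by
    have e1 : ∫ ω, F (U ω) ∂P = ∫ ω, XF (U ω) * YF (U ω) ∂P + l ^ 2 * ∫ ω, XF (U ω) ^ 2 ∂P := by
      simp only [hF]
      rw [integral_add hXYi (hXi.const_mul _), integral_const_mul]
    rw [e1]
    exact add_le_add (mom_XY hU lam l hl κ hκ)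
      (mul_le_mul_of_nonneg_left (mom_XX hU lam κ hκ) (sq_nonneg _))
  refine hmain.trans ?_
  calc 8 * β ^ 2 * (∫ ω, F (U ω) ∂P + ∫ ω, F (U ω) ∂P)
      ≤ 8 * β ^ 2 * ((2 * l ^ 2 * Real.sqrt N + l ^ 2 * 3) +
        (2 * l ^ 2 * Real.sqrt N + l ^ 2 * 3)) := by gcongr
    _ = 16 * β ^ 2 * l ^ 2 * (2 * Real.sqrt N + 3) := by ring

theorem variance_L {Ω : ℕ → Type} [∀ N, MeasurableSpace (Ω N)] {P : ∀ N, Measure (Ω N)}
    [∀ N, IsProbabilityMeasure (P N)] {U : ∀ N, Ω N → Matrix (Fin N) (Fin N) ℝ}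
    (hU : ∀ N, IsHaar (P N) (U N)) {β : ℝ} (hβ : 0 ≤ β) (N : ℕ) (lam : Fin N → ℝ)
    (l : ℝ) (hl : ∀ i, |lam i| ≤ l) :
    ∫ ω, (L β lam (U N ω) - ∫ ω', L β lam (U N ω') ∂(P N)) ^ 2 ∂(P N) ≤
      N * (16 * β ^ 2 * l ^ 2 * (2 * Real.sqrt N + 3)) := by
  set Cb := |Real.log (∑ _σ : Fin N → Bool, (1 : ℝ))| + β / 2 * (∑ i, |lam i|) * N with hCb
  have hCb0 : 0 ≤ Cb := by positivity
  set F : Unit → Matrix (Fin N) (Fin N) ℝ → ℝ := fun _ M => max (-Cb) (min Cb (L β lam M)) with hF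
  have hFL : ∀ M : Matrix (Fin N) (Fin N) ℝ, Mᵀ * M = 1 → F () M = L β lam M := by
    intro M hM
    have h1 := abs_le.1 (abs_L_le hβ lam hM)
    simp only [hF]
    rw [min_eq_right h1.2, max_eq_right h1.1]
  have hFm : Measurable fun p : Unit × (Fin N → Fin N → ℝ) => F p.1 (Matrix.of p.2) := by
    have h1 : Measurable fun p : Unit × (Fin N → Fin N → ℝ) => L β lam (Matrix.of p.2) :=
      (measurable_L β lam).comp measurable_snd
    simp only [hF]
    exact measurable_const.max (measurable_const.min h1)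
  have hFb : ∀ θ M, |F θ M| ≤ Cb := by
    intro θ M
    rw [abs_le]
    exact ⟨le_max_left _ _, max_le (by linarith) (min_le_left _ _)⟩
  have h := varBound hU N Unit (Measure.dirac ()) F hFm Cb hFb
    (16 * β ^ 2 * l ^ 2 * (2 * Real.sqrt N + 3)) (by
      intro k
      rw [integral_dirac]
      have e1 : ∀ ω, (F () (U N ω) - F () (U N ω * refl k)) ^ 2 =
          (L β lam (U N ω) - L β lam (U N ω * refl k)) ^ 2 := by
        intro ω
        rw [hFL _ ((hU N).orth ω), hFL _ (orth_mul ((hU N).orth ω) (refl_orth k))]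
      simp only [e1]
      exact diff_int (hU N) hβ lam l hl k)
  rw [integral_dirac] at h
  have e2 : ∀ ω, F () (U N ω) = L β lam (U N ω) := fun ω => hFL _ ((hU N).orth ω)
  simp only [e2] at h
  exact h

end Vale.Agent.Lib.P166
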