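import Mathlib

/-!
P166: Ising spin glasses with orthogonally invariant couplings.  Definitions.
-/

open MeasureTheory Filter Topology Matrix

namespace Vale.Agent.Lib.P166

/-- the vector in `{-1,1}^N` of a configuration -/
def spin {N : ℕ} (σ : Fin N → Bool) : Fin N → ℝ := fun i => if σ i then 1 else -1

/-- the coupling matrix `J = Uᵀ Λ U`, `Λ = diag(lam)` -/
noncomputable def coupling {N : ℕ} (lam : Fin N → ℝ) (U : Matrix (Fin N) (Fin N) ℝ) :
    Matrix (Fin N) (Fin N) ℝ := Uᵀ * Matrix.diagonal lam * U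

/-- the pressure `N⁻¹ log (2^{-N} ∑_σ exp ((β/2) σᵀ J σ))` -/
noncomputable def pressure {N : ℕ} (β : ℝ) (J : Matrix (Fin N) (Fin N) ℝ) : ℝ :=
  1 / N * Real.log ((1 / 2) ^ N *
    ∑ σ : Fin N → Bool, Real.exp (β / 2 * (spin σ ⬝ᵥ (J *ᵥ spin σ))))

/-- `U` is Haar distributed on the orthogonal group: a random orthogonal matrix whose law is
invariant under left multiplication by every orthogonal matrix -/
structure IsHaar {Ω : Type} [MeasurableSpace Ω] (P : Measure Ω) {N : ℕ}
    (U : Ω → Matrix (Fin N) (Fin N) ℝ) : Prop where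
  meas : ∀ i j, Measurable fun ω => U ω i j
  orth : ∀ ω, (U ω)ᵀ * U ω = 1
  inv : ∀ O : Matrix (Fin N) (Fin N) ℝ, Oᵀ * O = 1 →
    P.map (fun ω => (fun i j => (O * U ω) i j : Fin N → Fin N → ℝ)) =
      P.map (fun ω => (fun i j => U ω i j : Fin N → Fin N → ℝ))

/-- the standing assumptions: `μ` has compact support, the empirical measures of the eigenvalues
converge weakly to `μ`, and the smallest and the largest eigenvalue converge to the smallest and
the largest point of the support of `μ` -/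
structure Admissible (μ : Measure ℝ) (lam : (N : ℕ) → Fin N → ℝ) : Prop where
  prob : IsProbabilityMeasure μ
  compact : IsCompact μ.support
  weak : ∀ f : ℝ → ℝ, Continuous f → (∃ C, ∀ x, |f x| ≤ C) →
    Tendsto (fun N : ℕ => (∑ i, f (lam N i)) / N) atTop (𝓝 (∫ x, f x ∂μ))
  low : Tendsto (fun N : ℕ => ⨅ i, lam N i) atTop (𝓝 (sInf μ.support))
  high : Tendsto (fun N : ℕ => ⨆ i, lam N i) atTop (𝓝 (sSup μ.support))

end Vale.Agent.Lib.P166
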