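import Vale.Agent.Lib.P166.Final

/-! P166: existence of the deterministic equivalent of the pressure. -/

open MeasureTheory Filter Topology Matrix

namespace Vale.Agent.Lib.P166

theorem deterministic (β : ℝ) (hβ : 0 ≤ β) : ∃ f : Measure ℝ → ℕ → ℝ,
    (∀ (Ω : ℕ → Type) [∀ N, MeasurableSpace (Ω N)] (P : ∀ N, Measure (Ω N))
      [∀ N, IsProbabilityMeasure (P N)] (U : ∀ N, Ω N → Matrix (Fin N) (Fin N) ℝ),
      (∀ N, IsHaar (P N) (U N)) → ∀ (μ : Measure ℝ) (lam : (N : ℕ) → Fin N → ℝ),
      Admissible μ lam →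
        Tendsto (fun N => ∫ ω, |pressure β (coupling (lam N) (U N ω)) - f μ N| ∂(P N))
          atTop (𝓝 0)) ∧
    (∀ (μ μ' : Measure ℝ), (∃ lam, Admissible μ lam) → (∃ lam, Admissible μ' lam) →
      (∀ t : ℝ, ∫ x, max (x - t) 0 ∂μ ≤ ∫ x, max (x - t) 0 ∂μ') →
      ∀ ε > 0, ∀ᶠ N in atTop, f μ N ≤ f μ' N + ε) := by
  classical
  choose Ω0 m0 P0 U0 hp0 hU0 using exists_haar
  let _ := m0
  have _ := hp0
  have hU0' : ∀ N, IsHaar (P0 N) (U0 N) := hU0
  set arr : Measure ℝ → (N : ℕ) → Fin N → ℝ := fun μ =>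
    if h : ∃ lam, Admissible μ lam then h.choose else fun _ _ => 0 with harr
  have harr' : ∀ μ, (∃ lam, Admissible μ lam) → Admissible μ (arr μ) := by
    intro μ h
    simp only [harr, dif_pos h]
    exact h.choose_spec
  refine ⟨fun μ N => ∫ ω, pressure β (coupling (arr μ N) (U0 N ω)) ∂(P0 N), ?_, ?_⟩
  · intro Ω _ P _ U hU μ lam h
    have h0 := harr' μ ⟨lam, h⟩
    rw [Metric.tendsto_nhds]
    intro ε hε
    filter_upwards [concentration hU hβ h (show (0 : ℝ) < ε / 3 by positivity),
      comparison hβ hU h h0 (fun t => le_rfl) (show (0 : ℝ) < ε / 3 by positivity),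
      comparison hβ hU h0 h (fun t => le_rfl) (show (0 : ℝ) < ε / 3 by positivity)]
      with N h1 h2 h3
    have hu := haar_unique (hU N) (hU0' N) (fun M => pressure β (coupling (arr μ N) M))
      (measurable_pressure β (arr μ N)) ⟨_, fun M hM => pressure_abs_le hβ (arr μ N) hM⟩
    rw [← hu]
    set e1 := ∫ ω, pressure β (coupling (lam N) (U N ω)) ∂(P N) with he1
    set e2 := ∫ ω, pressure β (coupling (arr μ N) (U N ω)) ∂(P N) with he2
    have hi := integrable_pressure (hU N) hβ (lam N)
    have hi1 : Integrable (fun ω => |pressure β (coupling (lam N) (U N ω)) - e1|) (P N) :=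
      (hi.sub (integrable_const _)).abs
    have hi2 : Integrable (fun ω => |pressure β (coupling (lam N) (U N ω)) - e2|) (P N) :=
      (hi.sub (integrable_const _)).abs
    have h4 : ∫ ω, |pressure β (coupling (lam N) (U N ω)) - e2| ∂(P N) ≤
        ∫ ω, (|pressure β (coupling (lam N) (U N ω)) - e1| + ε / 3) ∂(P N) := by
      refine integral_mono hi2 (hi1.add (integrable_const _)) fun ω => ?_
      have h5 : |e1 - e2| ≤ ε / 3 := by
        rw [abs_le]
        constructor <;> linarith
      have h6 := abs_sub_le (pressure β (coupling (lam N) (U N ω))) e1 e2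
      show |pressure β (coupling (lam N) (U N ω)) - e2| ≤
        |pressure β (coupling (lam N) (U N ω)) - e1| + ε / 3
      linarith
    rw [integral_add hi1 (integrable_const _), integral_const] at h4
    have h7 : 0 ≤ ∫ ω, |pressure β (coupling (lam N) (U N ω)) - e2| ∂(P N) :=
      integral_nonneg fun ω => abs_nonneg _
    rw [Real.dist_eq, sub_zero, abs_of_nonneg h7]
    simp only [probReal_univ, one_smul] at h4
    linarith
  · intro μ μ' h h' hcx ε hε
    exact comparison hβ hU0' (harr' μ h) (harr' μ' h') hcx hε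

end Vale.Agent.Lib.P166
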