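import Vale.Agent.Lib.P166.Defs

/-! P166: existence of a Haar distributed orthogonal matrix. -/

open MeasureTheory Filter Topology Matrix

namespace Vale.Agent.Lib.P166

/-- the orthogonal group is a compact set of matrices -/
theorem EXIST_isCompact (N : ℕ) :
    IsCompact {M : Matrix (Fin N) (Fin N) ℝ | M ∈ Matrix.orthogonalGroup (Fin N) ℝ} := by
  have hK : IsCompact (Set.pi Set.univ
      (fun _ : Fin N => Set.pi Set.univ fun _ : Fin N => Set.Icc (-1 : ℝ) 1)) :=
    isCompact_univ_pi fun _ => isCompact_univ_pi fun _ => isCompact_Icc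
  refine IsCompact.of_isClosed_subset (X := Matrix (Fin N) (Fin N) ℝ) hK ?_ ?_
  · have h1 : IsClosed {M : Matrix (Fin N) (Fin N) ℝ | Mᵀ * M = 1} :=
      isClosed_eq (by fun_prop) continuous_const
    have h2 : {M : Matrix (Fin N) (Fin N) ℝ | M ∈ Matrix.orthogonalGroup (Fin N) ℝ} =
        {M : Matrix (Fin N) (Fin N) ℝ | Mᵀ * M = 1} := by
      ext M
      exact Matrix.mem_orthogonalGroup_iff' (Fin N) ℝ
    rw [h2]
    exact h1
  · intro M hM i _ j _
    have h := (Matrix.mem_orthogonalGroup_iff' (Fin N) ℝ).1 hM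
    have h1 : ∑ k, M k j * M k j = 1 := by
      have := congrFun (congrFun h j) j
      simpa [Matrix.mul_apply] using this
    have h2 : M i j * M i j ≤ 1 := by
      rw [← h1]
      exact Finset.single_le_sum (f := fun k => M k j * M k j)
        (fun k _ => mul_self_nonneg _) (Finset.mem_univ i)
    constructor <;> nlinarith

/-- a Haar distributed random orthogonal matrix exists in every dimension -/
theorem exists_haar (N : ℕ) : ∃ (Ω : Type) (m : MeasurableSpace Ω)
    (P : @MeasureTheory.Measure Ω m) (U : Ω → Matrix (Fin N) (Fin N) ℝ),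
    @MeasureTheory.IsProbabilityMeasure Ω m P ∧ @IsHaar Ω m P N U := by
  let : MeasurableSpace (Matrix.orthogonalGroup (Fin N) ℝ) := borel _
  have : BorelSpace (Matrix.orthogonalGroup (Fin N) ℝ) := ⟨rfl⟩
  have : CompactSpace (Matrix.orthogonalGroup (Fin N) ℝ) :=
    isCompact_iff_compactSpace.1 (EXIST_isCompact N)
  let P : Measure (Matrix.orthogonalGroup (Fin N) ℝ) := Measure.haarMeasure ⊤
  refine ⟨Matrix.orthogonalGroup (Fin N) ℝ, borel _, P, fun ω => ω.1, ?_, ?_⟩
  · refine ⟨?_⟩
    have := Measure.haarMeasure_self (K₀ := (⊤ : TopologicalSpace.PositiveCompacts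
      (Matrix.orthogonalGroup (Fin N) ℝ)))
    simpa using this
  · have hcont : ∀ i j, Continuous fun ω : Matrix.orthogonalGroup (Fin N) ℝ => ω.1 i j :=
      fun i j => (continuous_apply_apply i j).comp continuous_subtype_val
    have hmeas : Measurable fun ω : Matrix.orthogonalGroup (Fin N) ℝ =>
        (fun i j => ω.1 i j : Fin N → Fin N → ℝ) :=
      measurable_pi_lambda _ fun i => measurable_pi_lambda _ fun j => (hcont i j).measurable
    refine ⟨fun i j => (hcont i j).measurable, fun ω => ?_, fun O hO => ?_⟩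
    · exact (Matrix.mem_orthogonalGroup_iff' (Fin N) ℝ).1 ω.2
    · have hO' : O ∈ Matrix.orthogonalGroup (Fin N) ℝ :=
        (Matrix.mem_orthogonalGroup_iff' (Fin N) ℝ).2 hO
      let o : Matrix.orthogonalGroup (Fin N) ℝ := ⟨O, hO'⟩
      have h1 : (fun ω : Matrix.orthogonalGroup (Fin N) ℝ =>
          (fun i j => (O * ω.1) i j : Fin N → Fin N → ℝ)) =
          (fun ω : Matrix.orthogonalGroup (Fin N) ℝ =>
            (fun i j => ω.1 i j : Fin N → Fin N → ℝ)) ∘ (fun ω => o * ω) := by
        funext ω i j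
        rfl
      rw [h1, ← Measure.map_map hmeas (measurable_const_mul o), map_mul_left_eq_self]

end Vale.Agent.Lib.P166
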