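import Vale.Agent.Lib.P166.RInv

/-! P166, module UNIQ: two Haar matrices have the same law. -/

open MeasureTheory Filter Topology Matrix

namespace Vale.Agent.Lib.P166

theorem haar_unique {N : ℕ} {Ω Ω2 : Type} [MeasurableSpace Ω] [MeasurableSpace Ω2]
    {P : Measure Ω} {P2 : Measure Ω2} [IsProbabilityMeasure P] [IsProbabilityMeasure P2]
    {U : Ω → Matrix (Fin N) (Fin N) ℝ} {U2 : Ω2 → Matrix (Fin N) (Fin N) ℝ}
    (hU : IsHaar P U) (hU2 : IsHaar P2 U2) (F : Matrix (Fin N) (Fin N) ℝ → ℝ)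
    (hF : Measurable fun M : Fin N → Fin N → ℝ => F (Matrix.of M))
    (hb : ∃ C, ∀ M, Mᵀ * M = 1 → |F M| ≤ C) :
    ∫ ω, F (U ω) ∂P = ∫ ω, F (U2 ω) ∂P2 := by
  have hb' := hb
  obtain ⟨C, hC⟩ := hb
  have ho : ∀ ω ω', ((U2 ω)ᵀ * U ω')ᵀ * ((U2 ω)ᵀ * U ω') = 1 := by
    intro ω ω'
    rw [Matrix.transpose_mul, Matrix.transpose_transpose, Matrix.mul_assoc,
      ← Matrix.mul_assoc (U2 ω), orth_comm (hU2.orth ω), Matrix.one_mul, hU.orth ω']
  have hm : Measurable fun p : Ω2 × Ω => F ((U2 p.1)ᵀ * U p.2) := by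
    have h : Measurable fun p : Ω2 × Ω =>
        (fun i j => ((U2 p.1)ᵀ * U p.2) i j : Fin N → Fin N → ℝ) := by
      refine measurable_pi_lambda _ fun i => measurable_pi_lambda _ fun j => ?_
      simp only [Matrix.mul_apply, Matrix.transpose_apply]
      exact Finset.measurable_sum _ fun k _ =>
        ((hU2.meas k i).comp measurable_fst).mul ((hU.meas k j).comp measurable_snd)
    exact hF.comp h
  have hint : Integrable (fun p : Ω2 × Ω => F ((U2 p.1)ᵀ * U p.2)) (P2.prod P) :=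
    Integrable.of_bound hm.aestronglyMeasurable C
      (Filter.Eventually.of_forall fun p => by
        rw [Real.norm_eq_abs]; exact hC _ (ho p.1 p.2))
  have h1 : ∫ ω, ∫ ω', F ((U2 ω)ᵀ * U ω') ∂P ∂P2 = ∫ ω, F (U ω) ∂P := by
    have : ∀ ω, ∫ ω', F ((U2 ω)ᵀ * U ω') ∂P = ∫ ω', F (U ω') ∂P := fun ω =>
      integral_left hU (O := (U2 ω)ᵀ)
        (by rw [Matrix.transpose_transpose]; exact orth_comm (hU2.orth ω)) F hF
    simp only [this, integral_const, probReal_univ, one_smul]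
  have h2 : ∫ ω', ∫ ω, F ((U2 ω)ᵀ * U ω') ∂P2 ∂P = ∫ ω, F (U2 ω)ᵀ ∂P2 := by
    have : ∀ ω', ∫ ω, F ((U2 ω)ᵀ * U ω') ∂P2 = ∫ ω, F (U2 ω)ᵀ ∂P2 := by
      intro ω'
      have h3 := integral_left hU2 (O := (U ω')ᵀ)
        (by rw [Matrix.transpose_transpose]; exact orth_comm (hU.orth ω'))
        (fun M => F Mᵀ) (measurable_transpose hF)
      simp only [Matrix.transpose_mul, Matrix.transpose_transpose] at h3
      exact h3
    simp only [this, integral_const, probReal_univ, one_smul]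
  rw [← h1, integral_integral_swap hint, h2]
  exact integral_transpose hU2 F hF hb'

end Vale.Agent.Lib.P166
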