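import Vale.Agent.Lib.P166.Adm

/-! P166: universality of the law of the pressure. -/

open MeasureTheory Filter Topology Matrix

namespace Vale.Agent.Lib.P166

theorem admissible_sort {μ : Measure ℝ} {lam : (N : ℕ) → Fin N → ℝ} (h : Admissible μ lam) :
    Admissible μ (fun N => lam N ∘ Tuple.sort (lam N)) := by
  refine ⟨h.prob, h.compact, fun f hf hb => ?_, ?_, ?_⟩
  · have := h.weak f hf hb
    refine this.congr fun N => ?_
    congr 1
    exact (Equiv.sum_comp (Tuple.sort (lam N)) (fun i => f (lam N i))).symm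
  · refine h.low.congr fun N => ?_
    exact ((Tuple.sort (lam N)).surjective.iInf_comp (lam N)).symm
  · refine h.high.congr fun N => ?_
    exact ((Tuple.sort (lam N)).surjective.iSup_comp (lam N)).symm

variable {Ω : ℕ → Type} [∀ N, MeasurableSpace (Ω N)] {P : ∀ N, Measure (Ω N)}
  [∀ N, IsProbabilityMeasure (P N)] {U : ∀ N, Ω N → Matrix (Fin N) (Fin N) ℝ}

theorem law_sort {N : ℕ} {Ω : Type} [MeasurableSpace Ω] {P : Measure Ω}
    {U : Ω → Matrix (Fin N) (Fin N) ℝ} (hU : IsHaar P U) (β : ℝ) (x : Fin N → ℝ)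
    (π : Equiv.Perm (Fin N)) {φ : ℝ → ℝ} (hφ : Continuous φ) :
    ∫ ω, φ (pressure β (coupling (x ∘ π) (U ω))) ∂P =
      ∫ ω, φ (pressure β (coupling x (U ω))) ∂P := by
  simp only [pressure_eq]
  exact integral_L_perm hU β x π (fun l => φ (1 / N * (N * Real.log (1 / 2) + l)))
    (by fun_prop)

theorem integrable_lip {N : ℕ} {Ω : Type} [MeasurableSpace Ω] {P : Measure Ω}
    [IsProbabilityMeasure P] {U : Ω → Matrix (Fin N) (Fin N) ℝ} (hU : IsHaar P U) {β : ℝ}
    (hβ : 0 ≤ β) (x : Fin N → ℝ) {φ : ℝ → ℝ} (hφ : LipschitzWith 1 φ) :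
    Integrable (fun ω => φ (pressure β (coupling x (U ω)))) P := by
  have h1 : Integrable (fun ω => pressure β (coupling x (U ω))) P := by
    simp only [pressure_eq]
    exact ((integrable_const _).add (integrable_L hU hβ x)).const_mul _
  have h2 : Integrable (fun ω => |φ 0| + |pressure β (coupling x (U ω))|) P :=
    (integrable_const _).add h1.abs
  refine h2.mono' (hφ.continuous.comp_aestronglyMeasurable h1.aestronglyMeasurable)
    (Filter.Eventually.of_forall fun ω => ?_)
  have h3 := hφ.dist_le_mul (pressure β (coupling x (U ω))) 0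
  rw [Real.dist_eq, Real.dist_eq, sub_zero, NNReal.coe_one, one_mul] at h3
  rw [Real.norm_eq_abs]
  have h4 := abs_sub_abs_le_abs_sub (φ (pressure β (coupling x (U ω)))) (φ 0)
  linarith

theorem universality {β : ℝ} (hβ : 0 ≤ β) (hU : ∀ N, IsHaar (P N) (U N)) {μ : Measure ℝ}
    {lam lam' : (N : ℕ) → Fin N → ℝ} (h : Admissible μ lam) (h' : Admissible μ lam')
    {ε : ℝ} (hε : 0 < ε) :
    ∀ᶠ N in atTop, ∀ φ : ℝ → ℝ, LipschitzWith 1 φ →
      |∫ ω, φ (pressure β (coupling (lam N) (U N ω))) ∂(P N) -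
        ∫ ω, φ (pressure β (coupling (lam' N) (U N ω))) ∂(P N)| ≤ ε := by
  have h1 := sorted_L1 hβ hU (admissible_sort h) (admissible_sort h')
    (fun N => Tuple.monotone_sort (lam N)) (fun N => Tuple.monotone_sort (lam' N)) hε
  filter_upwards [h1, eventually_gt_atTop 0] with N h2 hN φ hφ
  have hNpos : (0 : ℝ) < N := by exact_mod_cast hN
  rw [← law_sort (hU N) β (lam N) (Tuple.sort (lam N)) hφ.continuous,
    ← law_sort (hU N) β (lam' N) (Tuple.sort (lam' N)) hφ.continuous,
    ← integral_sub (integrable_lip (hU N) hβ _ hφ) (integrable_lip (hU N) hβ _ hφ)]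
  refine (abs_integral_le_integral_abs).trans ?_
  have h3 : ∀ ω, |φ (pressure β (coupling (lam N ∘ Tuple.sort (lam N)) (U N ω))) -
      φ (pressure β (coupling (lam' N ∘ Tuple.sort (lam' N)) (U N ω)))| ≤
      1 / N * |L β (lam N ∘ Tuple.sort (lam N)) (U N ω) -
        L β (lam' N ∘ Tuple.sort (lam' N)) (U N ω)| := by
    intro ω
    have h4 := hφ.dist_le_mul (pressure β (coupling (lam N ∘ Tuple.sort (lam N)) (U N ω)))
      (pressure β (coupling (lam' N ∘ Tuple.sort (lam' N)) (U N ω)))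
    rw [Real.dist_eq, Real.dist_eq, NNReal.coe_one, one_mul] at h4
    refine h4.trans (le_of_eq ?_)
    rw [pressure_eq, pressure_eq, ← mul_sub, abs_mul, abs_of_nonneg (by positivity),
      add_sub_add_left_eq_sub]
  have i2 := integrable_L (hU N) hβ (lam N ∘ Tuple.sort (lam N))
  have i3 := integrable_L (hU N) hβ (lam' N ∘ Tuple.sort (lam' N))
  have i4 : Integrable (fun ω => 1 / (N : ℝ) * |L β (lam N ∘ Tuple.sort (lam N)) (U N ω) -
        L β (lam' N ∘ Tuple.sort (lam' N)) (U N ω)|) (P N) := (i2.sub i3).abs.const_mul _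
  have h5 := integral_mono
    ((integrable_lip (hU N) hβ _ hφ).sub (integrable_lip (hU N) hβ _ hφ)).abs i4 h3
  refine h5.trans ?_
  rw [integral_const_mul]
  calc 1 / (N : ℝ) * ∫ ω, |L β (lam N ∘ Tuple.sort (lam N)) (U N ω) -
        L β (lam' N ∘ Tuple.sort (lam' N)) (U N ω)| ∂(P N) ≤ 1 / (N : ℝ) * (ε * N) := by
        gcongr
    _ = ε := by field_simp

end Vale.Agent.Lib.P166
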