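import Vale.Agent.Lib.P166.Conc
import Vale.Agent.Lib.P166.Univ
import Vale.Agent.Lib.P166.Uniq
import Vale.Agent.Lib.P166.Exist

/-! P166: the pressure is asymptotically deterministic and depends only on the limiting spectral
distribution. -/

open MeasureTheory Filter Topology Matrix

namespace Vale.Agent.Lib.P166

section

variable {Ω : ℕ → Type} [∀ N, MeasurableSpace (Ω N)] {P : ∀ N, Measure (Ω N)}
  [∀ N, IsProbabilityMeasure (P N)] {U : ∀ N, Ω N → Matrix (Fin N) (Fin N) ℝ}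

theorem variance_pressure (hU : ∀ N, IsHaar (P N) (U N)) {β : ℝ} (hβ : 0 ≤ β) (N : ℕ)
    (lam : Fin N → ℝ) (l : ℝ) (hl : ∀ i, |lam i| ≤ l) :
    ∫ ω, (pressure β (coupling lam (U N ω)) -
      ∫ ω', pressure β (coupling lam (U N ω')) ∂(P N)) ^ 2 ∂(P N) ≤
      16 * β ^ 2 * l ^ 2 * (2 * Real.sqrt N + 3) / N := by
  rcases Nat.eq_zero_or_pos N with h0 | hN
  · subst h0
    have : ∀ M : Matrix (Fin 0) (Fin 0) ℝ, pressure β M = 0 := by
      intro M; unfold pressure; simp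
    simp [this]
  have hNpos : (0 : ℝ) < N := by exact_mod_cast hN
  have h1 := variance_L hU hβ N lam l hl
  have h2 : ∀ ω, (pressure β (coupling lam (U N ω)) -
      ∫ ω', pressure β (coupling lam (U N ω')) ∂(P N)) ^ 2 =
      (1 / (N : ℝ)) ^ 2 * (L β lam (U N ω) - ∫ ω', L β lam (U N ω') ∂(P N)) ^ 2 := by
    intro ω
    rw [integral_pressure (hU N) hβ, pressure_eq]
    ring
  simp only [h2]
  rw [integral_const_mul]
  calc (1 / (N : ℝ)) ^ 2 *
        ∫ ω, (L β lam (U N ω) - ∫ ω', L β lam (U N ω') ∂(P N)) ^ 2 ∂(P N)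
      ≤ (1 / (N : ℝ)) ^ 2 * (N * (16 * β ^ 2 * l ^ 2 * (2 * Real.sqrt N + 3))) := by gcongr
    _ = 16 * β ^ 2 * l ^ 2 * (2 * Real.sqrt N + 3) / N := by field_simp

theorem integrable_pressure {N : ℕ} {Ω : Type} [MeasurableSpace Ω] {P : Measure Ω}
    [IsProbabilityMeasure P] {U : Ω → Matrix (Fin N) (Fin N) ℝ} (hU : IsHaar P U) {β : ℝ}
    (hβ : 0 ≤ β) (x : Fin N → ℝ) : Integrable (fun ω => pressure β (coupling x (U ω))) P := by
  simp only [pressure_eq]
  exact ((integrable_const _).add (integrable_L hU hβ x)).const_mul _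

theorem pressure_abs_le {N : ℕ} {β : ℝ} (hβ : 0 ≤ β) (x : Fin N → ℝ)
    {M : Matrix (Fin N) (Fin N) ℝ} (hM : Mᵀ * M = 1) :
    |pressure β (coupling x M)| ≤ |1 / (N : ℝ)| * (|N * Real.log (1 / 2)| +
      (|Real.log (∑ _σ : Fin N → Bool, (1 : ℝ))| + β / 2 * (∑ i, |x i|) * N)) := by
  rw [pressure_eq, abs_mul]
  refine mul_le_mul_of_nonneg_left ?_ (abs_nonneg _)
  exact (abs_add_le _ _).trans (add_le_add le_rfl (abs_L_le hβ x hM))

theorem measurable_pressure {N : ℕ} (β : ℝ) (x : Fin N → ℝ) :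
    Measurable fun M : Fin N → Fin N → ℝ => pressure β (coupling x (Matrix.of M)) := by
  simp only [pressure_eq]
  exact ((measurable_L β x).const_add _).const_mul _

/-- mean deviation from the variance -/
theorem mean_dev {Ω : Type} [MeasurableSpace Ω] {P : Measure Ω} [IsProbabilityMeasure P]
    {X : Ω → ℝ} (hX : Integrable X P) (hX2 : Integrable (fun ω => X ω ^ 2) P) {a : ℝ}
    (ha : 0 < a) : ∫ ω, |X ω| ∂P ≤ a / 2 + (∫ ω, X ω ^ 2 ∂P) / (2 * a) := by
  have h1 : ∫ ω, |X ω| ∂P ≤ ∫ ω, (a / 2 + X ω ^ 2 / (2 * a)) ∂P := by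
    refine integral_mono hX.abs ((integrable_const _).add (hX2.div_const _)) fun ω => ?_
    have h2 := sq_nonneg (|X ω| - a)
    have h3 : |X ω| ^ 2 = X ω ^ 2 := sq_abs _
    have h4 : a / 2 + X ω ^ 2 / (2 * a) - |X ω| = (|X ω| - a) ^ 2 / (2 * a) := by
      rw [← h3]
      field_simp
      ring
    have h5 : 0 ≤ (|X ω| - a) ^ 2 / (2 * a) := by positivity
    show |X ω| ≤ a / 2 + X ω ^ 2 / (2 * a)
    linarith
  rw [integral_add (integrable_const _) (hX2.div_const _), integral_const, integral_div] at h1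
  simpa using h1

theorem variance_tendsto {β l : ℝ} :
    Tendsto (fun N : ℕ => 16 * β ^ 2 * l ^ 2 * (2 * Real.sqrt N + 3) / N) atTop (𝓝 0) := by
  have h1 : Tendsto (fun N : ℕ => (Real.sqrt N)⁻¹) atTop (𝓝 0) :=
    (Real.tendsto_sqrt_atTop.comp tendsto_natCast_atTop_atTop).inv_tendsto_atTop
  have h2 : Tendsto (fun N : ℕ => ((N : ℝ))⁻¹) atTop (𝓝 0) :=
    tendsto_natCast_atTop_atTop.inv_tendsto_atTop
  have h3 : Tendsto (fun N : ℕ => 16 * β ^ 2 * l ^ 2 * (2 * (Real.sqrt N)⁻¹ + 3 * ((N : ℝ))⁻¹))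
      atTop (𝓝 (16 * β ^ 2 * l ^ 2 * (2 * 0 + 3 * 0))) :=
    ((h1.const_mul 2).add (h2.const_mul 3)).const_mul _
  have h4 : 16 * β ^ 2 * l ^ 2 * (2 * 0 + 3 * 0) = 0 := by ring
  rw [h4] at h3
  refine h3.congr' ?_
  filter_upwards [eventually_gt_atTop 0] with N hN
  have hNpos : (0 : ℝ) < N := by exact_mod_cast hN
  have h5 := Real.mul_self_sqrt hNpos.le
  have h6 : 0 < Real.sqrt N := Real.sqrt_pos.2 hNpos
  have h7 : (Real.sqrt N)⁻¹ = Real.sqrt N / N := by
    rw [inv_eq_one_div, div_eq_div_iff h6.ne' hNpos.ne', one_mul, h5]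
  rw [h7]
  field_simp

theorem concentration (hU : ∀ N, IsHaar (P N) (U N)) {β : ℝ} (hβ : 0 ≤ β) {μ : Measure ℝ}
    {lam : (N : ℕ) → Fin N → ℝ} (h : Admissible μ lam) {ε : ℝ} (hε : 0 < ε) :
    ∀ᶠ N in atTop, ∫ ω, |pressure β (coupling (lam N) (U N ω)) -
      ∫ ω', pressure β (coupling (lam N) (U N ω')) ∂(P N)| ∂(P N) ≤ ε := by
  set l := max |sInf μ.support - 1| |sSup μ.support + 1| with hl
  have h1 : ∀ᶠ N in atTop, ∀ i, |lam N i| ≤ l := by
    filter_upwards [adm_low h (c := sInf μ.support - 1) (by linarith),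
      adm_high h (c := sSup μ.support + 1) (by linarith)] with N h2 h3 i
    exact abs_le_max_abs_abs (h2 i) (h3 i)
  have h2 := (variance_tendsto (β := β) (l := l)).eventually_lt_const
    (show (0 : ℝ) < ε ^ 2 by positivity)
  filter_upwards [h1, h2] with N h3 h4
  have hv := (variance_pressure hU hβ N (lam N) l h3).trans h4.le
  have hi := integrable_pressure (hU N) hβ (lam N)
  set m := ∫ ω', pressure β (coupling (lam N) (U N ω')) ∂(P N) with hm
  have hX : Integrable (fun ω => pressure β (coupling (lam N) (U N ω)) - m) (P N) :=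
    hi.sub (integrable_const _)
  have hX2 : Integrable (fun ω => (pressure β (coupling (lam N) (U N ω)) - m) ^ 2) (P N) := by
    obtain ⟨C, hC⟩ : ∃ C, ∀ ω, |pressure β (coupling (lam N) (U N ω))| ≤ C :=
      ⟨_, fun ω => pressure_abs_le hβ (lam N) ((hU N).orth ω)⟩
    refine Integrable.of_bound (C := (C + |m|) ^ 2) (hX.aestronglyMeasurable.pow 2)
      (Filter.Eventually.of_forall fun ω => ?_)
    rw [Real.norm_eq_abs, abs_pow]
    refine pow_le_pow_left₀ (abs_nonneg _) ((abs_sub _ _).trans ?_) 2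
    exact add_le_add (hC ω) le_rfl
  have h5 := mean_dev hX hX2 hε
  have h6 : (∫ ω, (pressure β (coupling (lam N) (U N ω)) - m) ^ 2 ∂(P N)) / (2 * ε) ≤
      ε / 2 := by
    rw [div_le_iff₀ (by positivity)]
    nlinarith
  linarith

end

end Vale.Agent.Lib.P166
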