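import Vale.Agent.Lib.P166.CDefs

/-! P166, concentration of the pressure: elementary facts on Gibbs averages. -/

open MeasureTheory Filter Topology Matrix

namespace Vale.Agent.Lib.P166

variable {N : ℕ}

theorem gav_den_pos (β : ℝ) (lam : Fin N → ℝ) (U : Matrix (Fin N) (Fin N) ℝ) :
    0 < ∑ σ : Fin N → Bool, Real.exp (β / 2 * ener lam U σ) :=
  Finset.sum_pos (fun _ _ => Real.exp_pos _) Finset.univ_nonempty

theorem gav_abs_le (β : ℝ) (lam : Fin N → ℝ) (U : Matrix (Fin N) (Fin N) ℝ)
    (g : (Fin N → ℝ) → ℝ) (C : ℝ) (h : ∀ σ : Fin N → Bool, |g (spin σ)| ≤ C) :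
    |gav β lam U g| ≤ C := by
  have hpos := gav_den_pos β lam U
  unfold gav
  rw [abs_div, abs_of_pos hpos, div_le_iff₀ hpos, Finset.mul_sum]
  refine (Finset.abs_sum_le_sum_abs _ _).trans (Finset.sum_le_sum fun σ _ => ?_)
  rw [abs_mul, abs_of_pos (Real.exp_pos _), mul_comm]
  exact mul_le_mul_of_nonneg_right (h σ) (Real.exp_pos _).le

theorem gav_cs (β : ℝ) (lam : Fin N → ℝ) (U : Matrix (Fin N) (Fin N) ℝ)
    (f g : (Fin N → ℝ) → ℝ) :
    gav β lam U (fun s => f s * g s) ^ 2 ≤
      gav β lam U (fun s => f s ^ 2) * gav β lam U (fun s => g s ^ 2) := by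
  have hpos := gav_den_pos β lam U
  unfold gav
  rw [div_pow, div_mul_div_comm, ← sq, div_le_div_iff_of_pos_right (by positivity)]
  have h := Finset.sum_mul_sq_le_sq_mul_sq Finset.univ
    (fun σ : Fin N → Bool => Real.sqrt (Real.exp (β / 2 * ener lam U σ)) * f (spin σ))
    (fun σ : Fin N → Bool => Real.sqrt (Real.exp (β / 2 * ener lam U σ)) * g (spin σ))
  have hs : ∀ σ : Fin N → Bool, Real.sqrt (Real.exp (β / 2 * ener lam U σ)) ^ 2 =
      Real.exp (β / 2 * ener lam U σ) := fun σ => Real.sq_sqrt (Real.exp_pos _).le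
  have e1 : ∀ σ : Fin N → Bool, Real.sqrt (Real.exp (β / 2 * ener lam U σ)) * f (spin σ) *
      (Real.sqrt (Real.exp (β / 2 * ener lam U σ)) * g (spin σ)) =
      Real.exp (β / 2 * ener lam U σ) * (f (spin σ) * g (spin σ)) := by
    intro σ
    rw [← hs σ]
    ring_nf
    rw [Real.sqrt_sq (Real.sqrt_nonneg _)]
  have e2 : ∀ (k : (Fin N → ℝ) → ℝ) (σ : Fin N → Bool),
      (Real.sqrt (Real.exp (β / 2 * ener lam U σ)) * k (spin σ)) ^ 2 =
      Real.exp (β / 2 * ener lam U σ) * k (spin σ) ^ 2 := by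
    intro k σ
    rw [mul_pow, hs σ]
  simp only [e1, e2] at h
  exact h

theorem spin_mul (D σ : Fin N → Bool) (i : Fin N) :
    spin (fun j => D j == σ j) i = spin D i * spin σ i := by
  unfold spin
  cases h1 : D i <;> cases h2 : σ i <;> simp [h1, h2]

/-- the flip of configurations -/
def flipE (D : Fin N → Bool) : (Fin N → Bool) ≃ (Fin N → Bool) where
  toFun := fun σ j => D j == σ j
  invFun := fun σ j => D j == σ j
  left_inv := fun σ => by
    funext j
    cases h1 : D j <;> cases h2 : σ j <;> simp [h1, h2]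
  right_inv := fun σ => by
    funext j
    cases h1 : D j <;> cases h2 : σ j <;> simp [h1, h2]

theorem ener_flip (lam : Fin N → ℝ) (U : Matrix (Fin N) (Fin N) ℝ) (D σ : Fin N → Bool) :
    ener lam (U * Matrix.diagonal (spin D)) σ = ener lam U (fun j => D j == σ j) := by
  unfold ener
  refine Finset.sum_congr rfl fun i _ => ?_
  have h : (U * Matrix.diagonal (spin D)) *ᵥ spin σ = U *ᵥ spin (fun j => D j == σ j) := by
    rw [← Matrix.mulVec_mulVec]
    congr 1
    funext j
    rw [Matrix.mulVec_diagonal, spin_mul]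
  rw [h]

/-- sign flips of the columns of `U` -/
theorem gav_flip (β : ℝ) (lam : Fin N → ℝ) (U : Matrix (Fin N) (Fin N) ℝ) (D : Fin N → Bool)
    (g : (Fin N → ℝ) → ℝ) :
    gav β lam (U * Matrix.diagonal (spin D)) g =
      gav β lam U (fun s => g (fun i => spin D i * s i)) := by
  unfold gav
  have h1 : ∑ σ : Fin N → Bool, Real.exp (β / 2 * ener lam (U * Matrix.diagonal (spin D)) σ) =
      ∑ σ : Fin N → Bool, Real.exp (β / 2 * ener lam U σ) := by
    rw [← (flipE D).sum_comp (fun σ : Fin N → Bool => Real.exp (β / 2 * ener lam U σ))]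
    exact Finset.sum_congr rfl fun σ _ => by rw [ener_flip]; rfl
  have h2 : ∑ σ : Fin N → Bool, Real.exp (β / 2 * ener lam (U * Matrix.diagonal (spin D)) σ) *
      g (spin σ) = ∑ σ : Fin N → Bool, Real.exp (β / 2 * ener lam U σ) *
      g (fun i => spin D i * spin σ i) := by
    rw [← (flipE D).sum_comp (fun σ : Fin N → Bool => Real.exp (β / 2 * ener lam U σ) *
      g (fun i => spin D i * spin σ i))]
    refine Finset.sum_congr rfl fun σ _ => ?_
    rw [ener_flip]
    congr 2
    funext i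
    show spin σ i = spin D i * spin (fun j => D j == σ j) i
    rw [spin_mul, ← mul_assoc]
    have : spin D i * spin D i = 1 := by unfold spin; cases D i <;> simp
    rw [this, one_mul]
  rw [h1, h2]

/-- permutations of the columns of `U` -/
theorem gav_perm (β : ℝ) (lam : Fin N → ℝ) (U : Matrix (Fin N) (Fin N) ℝ)
    (π : Equiv.Perm (Fin N)) (g : (Fin N → ℝ) → ℝ) :
    gav β lam (U.submatrix id π) g = gav β lam U (fun s => g (fun i => s (π i))) := by
  have he : ∀ τ : Fin N → Bool, ener lam (U.submatrix id π) (fun i => τ (π i)) = ener lam U τ := by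
    intro τ
    unfold ener
    refine Finset.sum_congr rfl fun i _ => ?_
    have h : ((U.submatrix id π) *ᵥ spin (fun i => τ (π i))) i = (U *ᵥ spin τ) i := by
      simp only [Matrix.mulVec, dotProduct, Matrix.submatrix_apply, id_eq]
      exact Equiv.sum_comp π (fun j => U i j * spin τ j)
    rw [h]
  set E : (Fin N → Bool) ≃ (Fin N → Bool) := Equiv.arrowCongr π.symm (Equiv.refl Bool) with hE
  have hEa : ∀ τ : Fin N → Bool, E τ = fun i => τ (π i) := by
    intro τ; funext i; simp [hE, Equiv.arrowCongr]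
  unfold gav
  have h1 : ∑ σ : Fin N → Bool, Real.exp (β / 2 * ener lam (U.submatrix id π) σ) =
      ∑ σ : Fin N → Bool, Real.exp (β / 2 * ener lam U σ) := by
    rw [← E.sum_comp (fun σ : Fin N → Bool =>
      Real.exp (β / 2 * ener lam (U.submatrix id π) σ))]
    exact Finset.sum_congr rfl fun σ _ => by rw [hEa, he]
  have h2 : ∑ σ : Fin N → Bool, Real.exp (β / 2 * ener lam (U.submatrix id π) σ) *
      g (spin σ) = ∑ σ : Fin N → Bool, Real.exp (β / 2 * ener lam U σ) *
      g (fun i => spin σ (π i)) := by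
    rw [← E.sum_comp (fun σ : Fin N → Bool =>
      Real.exp (β / 2 * ener lam (U.submatrix id π) σ) * g (spin σ))]
    exact Finset.sum_congr rfl fun σ _ => by rw [hEa, he]; rfl
  rw [h1, h2]

end Vale.Agent.Lib.P166
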