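import Vale.Agent.Lib.P166.CDefs

/-! P166, concentration: second and fourth moments of Rademacher sums. -/

open MeasureTheory Filter Topology Matrix

namespace Vale.Agent.Lib.P166

variable {N : ℕ}

theorem khin_split (c : Fin (N + 1) → ℝ) (f : ℝ → ℝ) :
    ∑ D : Fin (N + 1) → Bool, f (∑ s, c s * spin D s) =
      ∑ D : Fin N → Bool, (f (c 0 + ∑ s, c s.succ * spin D s) +
        f (-c 0 + ∑ s, c s.succ * spin D s)) := by
  rw [← (Fin.consEquiv (fun _ : Fin (N + 1) => Bool)).sum_comp, Fintype.sum_prod_type,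
    Fintype.sum_bool, ← Finset.sum_add_distrib]
  refine Finset.sum_congr rfl fun D _ => ?_
  have h : ∀ b : Bool, ∑ s, c s * spin (Fin.consEquiv (fun _ : Fin (N + 1) => Bool) (b, D)) s
      = c 0 * (if b then 1 else -1) + ∑ s, c s.succ * spin D s := by
    intro b
    rw [Fin.sum_univ_succ]
    rfl
  rw [h true, h false]
  simp

theorem khin_two (c : Fin N → ℝ) :
    (1 / 2 : ℝ) ^ N * ∑ D : Fin N → Bool, (∑ s, c s * spin D s) ^ 2 = ∑ s, c s ^ 2 := by
  induction N with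
  | zero => simp
  | succ N ih =>
    rw [khin_split c (fun x => x ^ 2), Fin.sum_univ_succ, ← ih (fun s => c s.succ)]
    have h : ∀ D : Fin N → Bool, (c 0 + ∑ s, c s.succ * spin D s) ^ 2 +
        (-c 0 + ∑ s, c s.succ * spin D s) ^ 2 =
        2 * c 0 ^ 2 + 2 * (∑ s, c s.succ * spin D s) ^ 2 := fun D => by ring
    have hs : ∑ D : Fin N → Bool, (2 * c 0 ^ 2 + 2 * (∑ s, c s.succ * spin D s) ^ 2) =
        2 ^ N * (2 * c 0 ^ 2) + 2 * ∑ D : Fin N → Bool, (∑ s, c s.succ * spin D s) ^ 2 := by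
      rw [Finset.sum_add_distrib, Finset.mul_sum, Finset.sum_const, Finset.card_univ]
      simp only [Fintype.card_pi, Fintype.card_bool, Finset.prod_const, Finset.card_univ,
        Fintype.card_fin, nsmul_eq_mul]
      push_cast
      ring
    simp only [h]
    rw [hs]
    have h2 : (1 / 2 : ℝ) ^ N * 2 ^ N = 1 := by
      rw [← mul_pow]; norm_num
    have h3 : (1 / 2 : ℝ) ^ (N + 1) = (1 / 2) ^ N * (1 / 2) := pow_succ _ _
    rw [h3]
    linear_combination (c 0 ^ 2) * h2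

theorem khin_four (c : Fin N → ℝ) :
    (1 / 2 : ℝ) ^ N * ∑ D : Fin N → Bool, (∑ s, c s * spin D s) ^ 4 ≤
      3 * (∑ s, c s ^ 2) ^ 2 := by
  induction N with
  | zero => simp
  | succ N ih =>
    rw [khin_split c (fun x => x ^ 4), Fin.sum_univ_succ]
    have h : ∀ D : Fin N → Bool, (c 0 + ∑ s, c s.succ * spin D s) ^ 4 +
        (-c 0 + ∑ s, c s.succ * spin D s) ^ 4 =
        2 * c 0 ^ 4 + 12 * c 0 ^ 2 * (∑ s, c s.succ * spin D s) ^ 2 +
          2 * (∑ s, c s.succ * spin D s) ^ 4 := fun D => by ring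
    have hs : ∑ D : Fin N → Bool, (2 * c 0 ^ 4 + 12 * c 0 ^ 2 * (∑ s, c s.succ * spin D s) ^ 2 +
          2 * (∑ s, c s.succ * spin D s) ^ 4) =
        2 ^ N * (2 * c 0 ^ 4) +
          12 * c 0 ^ 2 * ∑ D : Fin N → Bool, (∑ s, c s.succ * spin D s) ^ 2 +
          2 * ∑ D : Fin N → Bool, (∑ s, c s.succ * spin D s) ^ 4 := by
      rw [Finset.sum_add_distrib, Finset.sum_add_distrib, Finset.mul_sum, Finset.mul_sum,
        Finset.sum_const, Finset.card_univ]
      simp only [Fintype.card_pi, Fintype.card_bool, Finset.prod_const, Finset.card_univ,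
        Fintype.card_fin, nsmul_eq_mul]
      push_cast
      ring
    simp only [h]
    rw [hs]
    have h2 : (1 / 2 : ℝ) ^ N * 2 ^ N = 1 := by
      rw [← mul_pow]; norm_num
    have h3 : (1 / 2 : ℝ) ^ (N + 1) = (1 / 2) ^ N * (1 / 2) := pow_succ _ _
    have h4 := khin_two (fun s => c s.succ)
    have h5 := ih (fun s => c s.succ)
    set A : ℝ := ∑ D : Fin N → Bool, (∑ s, c s.succ * spin D s) ^ 2
    set B : ℝ := ∑ D : Fin N → Bool, (∑ s, c s.succ * spin D s) ^ 4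
    set Q : ℝ := ∑ s : Fin N, c s.succ ^ 2
    have e : (1 / 2 : ℝ) ^ (N + 1) * (2 ^ N * (2 * c 0 ^ 4) + 12 * c 0 ^ 2 * A + 2 * B) =
        c 0 ^ 4 + 6 * c 0 ^ 2 * Q + (1 / 2) ^ N * B := by
      rw [h3]
      linear_combination (c 0 ^ 4) * h2 + (6 * c 0 ^ 2) * h4
    rw [e]
    nlinarith [sq_nonneg (c 0), sq_nonneg (c 0 ^ 2)]

end Vale.Agent.Lib.P166
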