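import Vale.Agent.Lib.P166.MomA
import Vale.Agent.Lib.P166.RInv
import Vale.Agent.Lib.P166.Khin
import Vale.Agent.Lib.P166.Gib

/-! P166, concentration: the moment bounds. -/

open MeasureTheory Filter Topology Matrix

namespace Vale.Agent.Lib.P166

variable {N : ℕ}

theorem mo_dot_sq_le (κ v : Fin N → ℝ) (hκ : κ ⬝ᵥ κ = 1) : (κ ⬝ᵥ v) ^ 2 ≤ ∑ i, (v i) ^ 2 := by
  have h := Finset.sum_mul_sq_le_sq_mul_sq Finset.univ κ v
  have h1 : ∑ i, (κ i) ^ 2 = 1 := by
    rw [← hκ]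
    simp only [dotProduct]
    exact Finset.sum_congr rfl fun i _ => by ring
  rw [h1, one_mul] at h
  exact h

theorem mo_sq_sum (κ : Fin N → ℝ) (hκ : κ ⬝ᵥ κ = 1) : ∑ i, (κ i) ^ 2 = 1 := by
  rw [← hκ]
  simp only [dotProduct]
  exact Finset.sum_congr rfl fun i _ => by ring

theorem mo_spin_sum (σ : Fin N → Bool) : ∑ i, (spin σ i) ^ 2 = N := by
  have : ∀ i, (spin σ i) ^ 2 = 1 := fun i => by rw [sq, mo_spin_sq]
  simp [this]

section

variable {Ω : Type} [MeasurableSpace Ω] {P : Measure Ω} [IsProbabilityMeasure P]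
  {U : Ω → Matrix (Fin N) (Fin N) ℝ}

theorem mo_integrable (hU : IsHaar P U) (β : ℝ) (lam : Fin N → ℝ)
    (g : (Fin N → Fin N → ℝ) → (Fin N → ℝ) → ℝ) (hg : ∀ s, Measurable fun M => g M s) (C : ℝ)
    (hC : ∀ ω, ∀ σ : Fin N → Bool, |g (U ω) (spin σ)| ≤ C) :
    Integrable (fun ω => gav β lam (U ω) (g (U ω))) P := by
  refine Integrable.of_bound
    ((mo_measurable β lam g hg).comp hU.meas').aestronglyMeasurable C
    (Filter.Eventually.of_forall fun ω => ?_)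
  rw [Real.norm_eq_abs]
  exact gav_abs_le β lam (U ω) (g (U ω)) C (hC ω)

theorem mo_dot_abs (κ : Fin N → ℝ) (hκ : κ ⬝ᵥ κ = 1) (σ : Fin N → Bool) :
    |(κ ⬝ᵥ spin σ) ^ 2| ≤ N := by
  rw [abs_of_nonneg (sq_nonneg _), ← mo_spin_sum σ]
  exact mo_dot_sq_le κ _ hκ

theorem mo_flip_spin (D σ : Fin N → Bool) :
    (fun i => spin D i * spin σ i) = spin (fun i => D i == σ i) := by
  funext i
  unfold spin
  cases hD : D i <;> cases hσ : σ i <;> simp [hD, hσ]

theorem mo_card : (1 / 2 : ℝ) ^ N * ∑ _D : Fin N → Bool, (1 : ℝ) = 1 := by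
  simp

/-- averaging an identity in law over all sign flips -/
theorem mo_avg {Ω : Type} [MeasurableSpace Ω] {P : Measure Ω} [IsProbabilityMeasure P] (I : ℝ)
    (f : (Fin N → Bool) → Ω → ℝ)
    (hI : ∀ D, Integrable (f D) P) (h : ∀ D, ∫ ω, f D ω ∂P = I) :
    I = ∫ ω, ∑ D : Fin N → Bool, (1 / 2 : ℝ) ^ N * f D ω ∂P := by
  rw [integral_finsetSum _ fun D _ => (hI D).const_mul _]
  simp only [integral_const_mul, h]
  have : ∑ _D : Fin N → Bool, (1 / 2 : ℝ) ^ N * I =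
      ((1 / 2 : ℝ) ^ N * ∑ _D : Fin N → Bool, (1 : ℝ)) * I := by
    rw [Finset.mul_sum, Finset.sum_mul]
    exact Finset.sum_congr rfl fun _ _ => by ring
  rw [this, mo_card, one_mul]

theorem mom_XX (hU : IsHaar P U) {β : ℝ} (lam : Fin N → ℝ)
    (κ : Fin N → ℝ) (hκ : κ ⬝ᵥ κ = 1) :
    ∫ ω, gav β lam (U ω) (fun s => (κ ⬝ᵥ s) ^ 2) ^ 2 ∂P ≤ 3 := by
  set g4 : (Fin N → ℝ) → ℝ := fun s => (κ ⬝ᵥ s) ^ 4 with hg4
  have hb4 : ∀ σ : Fin N → Bool, |g4 (spin σ)| ≤ (N : ℝ) ^ 2 := by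
    intro σ
    have h1 := mo_dot_abs κ hκ σ
    have h2 : g4 (spin σ) = ((κ ⬝ᵥ spin σ) ^ 2) ^ 2 := by rw [hg4]; ring
    rw [h2, abs_pow]
    exact pow_le_pow_left₀ (abs_nonneg _) h1 2
  have hI4 : ∀ D : Fin N → Bool,
      Integrable (fun ω => gav β lam (U ω) (fun s => g4 (fun i => spin D i * s i))) P := by
    intro D
    refine mo_integrable hU β lam (fun _ s => g4 (fun i => spin D i * s i))
      (fun s => measurable_const) ((N : ℝ) ^ 2) ?_
    intro ω σ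
    show |g4 (fun i => spin D i * spin σ i)| ≤ _
    rw [mo_flip_spin]
    exact hb4 _
  have hI : Integrable (fun ω => gav β lam (U ω) g4) P :=
    mo_integrable hU β lam (fun _ => g4) (fun s => measurable_const) _ fun ω σ => hb4 σ
  have hI2 : Integrable (fun ω => gav β lam (U ω) (fun s => (κ ⬝ᵥ s) ^ 2) ^ 2) P := by
    refine Integrable.of_bound (C := (N : ℝ) ^ 2) ?_ (Filter.Eventually.of_forall fun ω => ?_)
    · exact (((mo_measurable β lam (fun _ s => (κ ⬝ᵥ s) ^ 2)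
        (fun s => measurable_const)).comp hU.meas').pow_const 2).aestronglyMeasurable
    · rw [Real.norm_eq_abs, abs_pow]
      exact pow_le_pow_left₀ (abs_nonneg _) (gav_abs_le β lam (U ω) _ N (mo_dot_abs κ hκ)) 2
  -- first step: Cauchy-Schwarz
  have h1 : ∫ ω, gav β lam (U ω) (fun s => (κ ⬝ᵥ s) ^ 2) ^ 2 ∂P ≤
      ∫ ω, gav β lam (U ω) g4 ∂P := by
    refine integral_mono hI2 hI fun ω => ?_
    have h2 := gav_cs β lam (U ω) (fun s => (κ ⬝ᵥ s) ^ 2) (fun _ => 1)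
    simp only [mul_one, one_pow, mo_const] at h2
    refine h2.trans (le_of_eq ?_)
    refine mo_congr β lam (U ω) fun σ => ?_
    simp only [hg4]
    ring
  refine h1.trans ?_
  -- sign flips
  have h3 : ∀ D : Fin N → Bool,
      ∫ ω, gav β lam (U ω) (fun s => g4 (fun i => spin D i * s i)) ∂P =
        ∫ ω, gav β lam (U ω) g4 ∂P := by
    intro D
    rw [← integral_right hU (mo_diag_orth D) (fun M => gav β lam M g4)
      (mo_measurable β lam (fun _ => g4) fun s => measurable_const)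
      ⟨(N : ℝ) ^ 2, fun M _ => gav_abs_le β lam M g4 _ hb4⟩]
    simp only [gav_flip]
  rw [mo_avg _ _ hI4 h3]
  have h5 : ∫ ω, ∑ D : Fin N → Bool, (1 / 2 : ℝ) ^ N *
      gav β lam (U ω) (fun s => g4 (fun i => spin D i * s i)) ∂P ≤ ∫ _ω, (3 : ℝ) ∂P := by
    refine integral_mono (integrable_finsetSum _ fun D _ => (hI4 D).const_mul _)
      (integrable_const _) fun ω => ?_
    show ∑ D : Fin N → Bool, (1 / 2 : ℝ) ^ N *
      gav β lam (U ω) (fun s => g4 (fun i => spin D i * s i)) ≤ 3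
    rw [← mo_sum Finset.univ β lam (U ω) (fun _ => (1 / 2 : ℝ) ^ N)
      (fun D s => g4 (fun i => spin D i * s i)), ← mo_const β lam (U ω) 3]
    refine mo_mono β lam (U ω) fun σ => ?_
    rw [← Finset.mul_sum]
    have h6 := khin_four (fun i => κ i * spin σ i)
    have h7 : ∑ i, (κ i * spin σ i) ^ 2 = 1 := by
      rw [← mo_sq_sum κ hκ]
      refine Finset.sum_congr rfl fun i _ => ?_
      rw [mul_pow, sq (spin σ i), mo_spin_sq, mul_one]
    rw [h7] at h6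
    have h8 : ∀ D : Fin N → Bool, g4 (fun i => spin D i * spin σ i) =
        (∑ i, κ i * spin σ i * spin D i) ^ 4 := by
      intro D
      simp only [hg4, dotProduct]
      congr 1
      exact Finset.sum_congr rfl fun i _ => by ring
    simp only [h8]
    linarith
  refine h5.trans (le_of_eq ?_)
  simp

/-- one squared local field -/
noncomputable def fieldSq (β : ℝ) (lam : Fin N → ℝ) (i : Fin N) (M : Matrix (Fin N) (Fin N) ℝ) :
    ℝ := gav β lam M (fun s => ((coupling lam M *ᵥ s) i) ^ 2)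

theorem mo_coupling_meas (lam : Fin N → ℝ) (s : Fin N → ℝ) (i : Fin N) :
    Measurable (fun M : Fin N → Fin N → ℝ => (coupling lam (Matrix.of M) *ᵥ s) i) := by
  unfold coupling
  simp only [Matrix.mulVec, dotProduct, Matrix.mul_apply, Matrix.transpose_apply,
    Matrix.of_apply, Matrix.diagonal_apply]
  fun_prop

theorem fieldSq_meas (β : ℝ) (lam : Fin N → ℝ) (i : Fin N) :
    Measurable (fun M : Fin N → Fin N → ℝ => fieldSq β lam i (Matrix.of M)) :=
  mo_measurable β lam (fun M s => ((coupling lam (Matrix.of M) *ᵥ s) i) ^ 2)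
    fun s => (mo_coupling_meas lam s i).pow_const 2

theorem fieldSq_bound (β : ℝ) (lam : Fin N → ℝ) (l : ℝ) (hl : ∀ i, |lam i| ≤ l) (i : Fin N)
    {M : Matrix (Fin N) (Fin N) ℝ} (hM : Mᵀ * M = 1) : |fieldSq β lam i M| ≤ l ^ 2 * N := by
  refine gav_abs_le β lam M _ _ fun σ => ?_
  rw [abs_of_nonneg (sq_nonneg _)]
  exact (Finset.single_le_sum (f := fun i => ((coupling lam M *ᵥ spin σ) i) ^ 2)
    (fun i _ => sq_nonneg _) (Finset.mem_univ i)).trans (mo_J_sq lam l hl hM σ)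

theorem fieldSq_int (hU : IsHaar P U) (β : ℝ) (lam : Fin N → ℝ) (l : ℝ)
    (hl : ∀ i, |lam i| ≤ l) (i : Fin N) : Integrable (fun ω => fieldSq β lam i (U ω)) P :=
  Integrable.of_bound ((fieldSq_meas β lam i).comp hU.meas').aestronglyMeasurable (l ^ 2 * N)
    (Filter.Eventually.of_forall fun ω => by
      rw [Real.norm_eq_abs]; exact fieldSq_bound β lam l hl i (hU.orth ω))

theorem perm_orth (π : Equiv.Perm (Fin N)) :
    (Matrix.of fun i j : Fin N => if i = π j then (1 : ℝ) else 0)ᵀ *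
      (Matrix.of fun i j : Fin N => if i = π j then (1 : ℝ) else 0) = 1 := by
  ext i j
  rw [Matrix.mul_apply, Matrix.one_apply]
  simp only [Matrix.transpose_apply, Matrix.of_apply, mul_ite, mul_one, mul_zero]
  rw [Finset.sum_eq_single (π j)]
  · simp [eq_comm]
  · intro b _ hb
    rw [if_neg hb]
  · simp

theorem mul_perm (π : Equiv.Perm (Fin N)) (M : Matrix (Fin N) (Fin N) ℝ) :
    M * (Matrix.of fun i j : Fin N => if i = π j then (1 : ℝ) else 0) =
      M.submatrix id π := by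
  ext i j
  rw [Matrix.mul_apply]
  simp

theorem fieldSq_eq (hU : IsHaar P U) (β : ℝ) (lam : Fin N → ℝ) (l : ℝ)
    (hl : ∀ i, |lam i| ≤ l) (i j : Fin N) :
    ∫ ω, fieldSq β lam i (U ω) ∂P = ∫ ω, fieldSq β lam j (U ω) ∂P := by
  have h := integral_right hU (perm_orth (Equiv.swap i j)) (fieldSq β lam i)
    (fieldSq_meas β lam i) ⟨l ^ 2 * N, fun M hM => fieldSq_bound β lam l hl i hM⟩
  rw [← h]
  refine integral_congr_ae (Filter.Eventually.of_forall fun ω => ?_)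
  show fieldSq β lam i (U ω * _) = fieldSq β lam j (U ω)
  rw [mul_perm]
  unfold fieldSq
  rw [gav_perm]
  simp only [mo_coupling_perm, Equiv.swap_apply_left]

theorem fieldSq_le (hU : IsHaar P U) (β : ℝ) (lam : Fin N → ℝ) (l : ℝ)
    (hl : ∀ i, |lam i| ≤ l) (i : Fin N) :
    ∫ ω, fieldSq β lam i (U ω) ∂P ≤ l ^ 2 := by
  have hN : (0 : ℝ) < N := by
    have := i.pos
    exact_mod_cast this
  have h1 : ∑ j, ∫ ω, fieldSq β lam j (U ω) ∂P ≤ l ^ 2 * N := by
    rw [← integral_finsetSum _ fun j _ => fieldSq_int hU β lam l hl j]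
    have h2 : ∫ ω, ∑ j, fieldSq β lam j (U ω) ∂P ≤ ∫ _ω, (l ^ 2 * N : ℝ) ∂P := by
      refine integral_mono (integrable_finsetSum _ fun j _ => fieldSq_int hU β lam l hl j)
        (integrable_const _) fun ω => ?_
      show ∑ j, fieldSq β lam j (U ω) ≤ l ^ 2 * N
      unfold fieldSq
      have h3 := mo_sum Finset.univ β lam (U ω) (fun _ => (1 : ℝ))
        (fun j s => ((coupling lam (U ω) *ᵥ s) j) ^ 2)
      simp only [one_mul] at h3
      rw [← h3, ← mo_const β lam (U ω) (l ^ 2 * N)]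
      exact mo_mono β lam (U ω) fun σ => mo_J_sq lam l hl (hU.orth ω) σ
    refine h2.trans (le_of_eq ?_)
    simp
  have h4 : ∑ j, ∫ ω, fieldSq β lam j (U ω) ∂P = N * ∫ ω, fieldSq β lam i (U ω) ∂P := by
    rw [Finset.sum_congr rfl fun j _ => fieldSq_eq hU β lam l hl j i]
    simp
  rw [h4] at h1
  nlinarith

theorem mom_Y (hU : IsHaar P U) {β : ℝ} (lam : Fin N → ℝ)
    (l : ℝ) (hl : ∀ i, |lam i| ≤ l) (κ : Fin N → ℝ) (hκ : κ ⬝ᵥ κ = 1) :
    ∫ ω, gav β lam (U ω) (fun s => (κ ⬝ᵥ (coupling lam (U ω) *ᵥ s)) ^ 2) ∂P ≤ l ^ 2 := by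
  have hmeas : ∀ (c s : Fin N → ℝ), Measurable (fun M : Fin N → Fin N → ℝ =>
      (c ⬝ᵥ (coupling lam (Matrix.of M) *ᵥ s)) ^ 2) := by
    intro c s
    have : (fun M : Fin N → Fin N → ℝ => (c ⬝ᵥ (coupling lam (Matrix.of M) *ᵥ s)) ^ 2) =
        fun M => (∑ i, c i * (coupling lam (Matrix.of M) *ᵥ s) i) ^ 2 := rfl
    rw [this]
    have h1 := mo_coupling_meas lam s
    fun_prop
  have hbd : ∀ (c : Fin N → ℝ), c ⬝ᵥ c = 1 → ∀ M : Matrix (Fin N) (Fin N) ℝ, Mᵀ * M = 1 →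
      ∀ σ : Fin N → Bool, |(c ⬝ᵥ (coupling lam M *ᵥ spin σ)) ^ 2| ≤ l ^ 2 * N := by
    intro c hc M hM σ
    rw [abs_of_nonneg (sq_nonneg _)]
    exact (mo_dot_sq_le c _ hc).trans (mo_J_sq lam l hl hM σ)
  have hDκ : ∀ D : Fin N → Bool, (fun i => κ i * spin D i) ⬝ᵥ (fun i => κ i * spin D i) = 1 := by
    intro D
    rw [← hκ]
    simp only [dotProduct]
    refine Finset.sum_congr rfl fun i _ => ?_
    have := mo_spin_sq D i
    linear_combination (κ i * κ i) * this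
  have hI : ∀ D : Fin N → Bool, Integrable (fun ω => gav β lam (U ω) (fun s =>
      ((fun i => κ i * spin D i) ⬝ᵥ (coupling lam (U ω) *ᵥ s)) ^ 2)) P := fun D =>
    mo_integrable hU β lam (fun M s => ((fun i => κ i * spin D i) ⬝ᵥ
      (coupling lam (Matrix.of M) *ᵥ s)) ^ 2) (fun s => hmeas _ s) (l ^ 2 * N)
      fun ω σ => hbd _ (hDκ D) (U ω) (hU.orth ω) σ
  have h3 : ∀ D : Fin N → Bool, ∫ ω, gav β lam (U ω) (fun s =>
      ((fun i => κ i * spin D i) ⬝ᵥ (coupling lam (U ω) *ᵥ s)) ^ 2) ∂P =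
      ∫ ω, gav β lam (U ω) (fun s => (κ ⬝ᵥ (coupling lam (U ω) *ᵥ s)) ^ 2) ∂P := by
    intro D
    rw [← integral_right hU (mo_diag_orth D)
      (fun M => gav β lam M (fun s => (κ ⬝ᵥ (coupling lam M *ᵥ s)) ^ 2))
      (mo_measurable β lam (fun M s => (κ ⬝ᵥ (coupling lam (Matrix.of M) *ᵥ s)) ^ 2)
        fun s => hmeas κ s)
      ⟨l ^ 2 * N, fun M hM => gav_abs_le β lam M _ _ (hbd κ hκ M hM)⟩]
    refine integral_congr_ae (Filter.Eventually.of_forall fun ω => ?_)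
    show _ = gav β lam (U ω * Matrix.diagonal (spin D)) _
    rw [gav_flip]
    refine mo_congr β lam (U ω) fun σ => ?_
    simp only [dotProduct, mo_coupling_flip]
    congr 1
    exact Finset.sum_congr rfl fun i _ => by ring
  rw [mo_avg _ _ hI h3]
  have h5 : ∀ ω, ∑ D : Fin N → Bool, (1 / 2 : ℝ) ^ N * gav β lam (U ω) (fun s =>
      ((fun i => κ i * spin D i) ⬝ᵥ (coupling lam (U ω) *ᵥ s)) ^ 2) =
      ∑ i, (κ i) ^ 2 * fieldSq β lam i (U ω) := by
    intro ω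
    rw [← mo_sum Finset.univ β lam (U ω) (fun _ => (1 / 2 : ℝ) ^ N)
      (fun (D : Fin N → Bool) s =>
        ((fun i => κ i * spin D i) ⬝ᵥ (coupling lam (U ω) *ᵥ s)) ^ 2)]
    unfold fieldSq
    rw [← mo_sum Finset.univ β lam (U ω) (fun i => (κ i) ^ 2)
      (fun i s => ((coupling lam (U ω) *ᵥ s) i) ^ 2)]
    refine mo_congr β lam (U ω) fun σ => ?_
    rw [← Finset.mul_sum]
    have h6 := khin_two (fun i => κ i * (coupling lam (U ω) *ᵥ spin σ) i)
    simp only [mul_pow] at h6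
    rw [← h6]
    congr 1
    refine Finset.sum_congr rfl fun D _ => ?_
    simp only [dotProduct]
    congr 1
    exact Finset.sum_congr rfl fun i _ => by ring
  simp only [h5]
  rw [integral_finsetSum _ fun i _ => (fieldSq_int hU β lam l hl i).const_mul _]
  simp only [integral_const_mul]
  calc ∑ i, (κ i) ^ 2 * ∫ ω, fieldSq β lam i (U ω) ∂P ≤ ∑ i, (κ i) ^ 2 * l ^ 2 :=
        Finset.sum_le_sum fun i _ =>
          mul_le_mul_of_nonneg_left (fieldSq_le hU β lam l hl i) (sq_nonneg _)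
    _ = l ^ 2 := by rw [← Finset.sum_mul, mo_sq_sum κ hκ, one_mul]

theorem mom_XY (hU : IsHaar P U) {β : ℝ} (lam : Fin N → ℝ)
    (l : ℝ) (hl : ∀ i, |lam i| ≤ l) (κ : Fin N → ℝ) (hκ : κ ⬝ᵥ κ = 1) :
    ∫ ω, gav β lam (U ω) (fun s => (κ ⬝ᵥ s) ^ 2) *
      gav β lam (U ω) (fun s => (κ ⬝ᵥ (coupling lam (U ω) *ᵥ s)) ^ 2) ∂P ≤
      2 * l ^ 2 * Real.sqrt N := by
  set X : Ω → ℝ := fun ω => gav β lam (U ω) (fun s => (κ ⬝ᵥ s) ^ 2) with hX
  set Y : Ω → ℝ := fun ω => gav β lam (U ω) (fun s => (κ ⬝ᵥ (coupling lam (U ω) *ᵥ s)) ^ 2)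
    with hY
  have hmeas : ∀ (s : Fin N → ℝ), Measurable (fun M : Fin N → Fin N → ℝ =>
      (κ ⬝ᵥ (coupling lam (Matrix.of M) *ᵥ s)) ^ 2) := by
    intro s
    have : (fun M : Fin N → Fin N → ℝ => (κ ⬝ᵥ (coupling lam (Matrix.of M) *ᵥ s)) ^ 2) =
        fun M => (∑ i, κ i * (coupling lam (Matrix.of M) *ᵥ s) i) ^ 2 := rfl
    rw [this]
    have h1 := mo_coupling_meas lam s
    fun_prop
  have hXm : Measurable X := (mo_measurable β lam (fun _ s => (κ ⬝ᵥ s) ^ 2)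
    (fun s => measurable_const)).comp hU.meas'
  have hYm : Measurable Y := (mo_measurable β lam (fun M s =>
    (κ ⬝ᵥ (coupling lam (Matrix.of M) *ᵥ s)) ^ 2) hmeas).comp hU.meas'
  have hX0 : ∀ ω, 0 ≤ X ω := fun ω => mo_nonneg β lam (U ω) fun σ => sq_nonneg _
  have hY0 : ∀ ω, 0 ≤ Y ω := fun ω => mo_nonneg β lam (U ω) fun σ => sq_nonneg _
  have hXb : ∀ ω, |X ω| ≤ N := fun ω => gav_abs_le β lam (U ω) _ N (mo_dot_abs κ hκ)
  have hYb : ∀ ω, |Y ω| ≤ l ^ 2 * N := fun ω => gav_abs_le β lam (U ω) _ _ fun σ => by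
    rw [abs_of_nonneg (sq_nonneg _)]
    exact (mo_dot_sq_le κ _ hκ).trans (mo_J_sq lam l hl (hU.orth ω) σ)
  have hXY : Integrable (fun ω => X ω * Y ω) P :=
    Integrable.of_bound (hXm.mul hYm).aestronglyMeasurable ((N : ℝ) * (l ^ 2 * N))
      (Filter.Eventually.of_forall fun ω => by
        rw [Real.norm_eq_abs, abs_mul]
        exact mul_le_mul (hXb ω) (hYb ω) (abs_nonneg _) (Nat.cast_nonneg _))
  have hX2 : Integrable (fun ω => X ω ^ 2) P :=
    Integrable.of_bound (hXm.pow_const 2).aestronglyMeasurable ((N : ℝ) ^ 2)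
      (Filter.Eventually.of_forall fun ω => by
        rw [Real.norm_eq_abs, abs_pow]
        exact pow_le_pow_left₀ (abs_nonneg _) (hXb ω) 2)
  have hYi : Integrable Y P :=
    Integrable.of_bound hYm.aestronglyMeasurable _
      (Filter.Eventually.of_forall fun ω => by rw [Real.norm_eq_abs]; exact hYb ω)
  set r := Real.sqrt N with hr
  have hr0 : 0 ≤ r := Real.sqrt_nonneg _
  have hr2 : r * r = N := Real.mul_self_sqrt (Nat.cast_nonneg _)
  set a := l ^ 2 * r with ha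
  have ha0 : 0 ≤ a := by positivity
  have har : a * r = l ^ 2 * N := by rw [ha, mul_assoc, hr2]
  have hpt : ∀ ω, X ω * Y ω ≤ a / 2 * X ω ^ 2 + r / 2 * Y ω := by
    intro ω
    have h1 : Y ω ≤ a * r := by
      rw [har]
      exact (le_abs_self _).trans (hYb ω)
    rcases ha0.eq_or_lt with h0 | hpos
    · have h2 : Y ω = 0 := le_antisymm (by rw [← h0, zero_mul] at h1; exact h1) (hY0 ω)
      rw [h2, ← h0]
      simp
    · have h3 : 0 ≤ (2 * a) * (a / 2 * X ω ^ 2 + r / 2 * Y ω - X ω * Y ω) := by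
        have e1 := sq_nonneg (a * X ω - Y ω)
        have e2 := mul_nonneg (hY0 ω) (sub_nonneg.2 h1)
        nlinarith
      have h4 := (mul_nonneg_iff_of_pos_left (by positivity : 0 < 2 * a)).1 h3
      linarith
  have h5 : ∫ ω, X ω * Y ω ∂P ≤ ∫ ω, (a / 2 * X ω ^ 2 + r / 2 * Y ω) ∂P :=
    integral_mono hXY ((hX2.const_mul _).add (hYi.const_mul _)) hpt
  rw [integral_add (hX2.const_mul _) (hYi.const_mul _), integral_const_mul,
    integral_const_mul] at h5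
  have h6 := mom_XX hU (β := β) lam κ hκ
  have h7 := mom_Y hU (β := β) lam l hl κ hκ
  have h8 : a / 2 * ∫ ω, X ω ^ 2 ∂P ≤ a / 2 * 3 := mul_le_mul_of_nonneg_left h6 (by positivity)
  have h9 : r / 2 * ∫ ω, Y ω ∂P ≤ r / 2 * l ^ 2 := mul_le_mul_of_nonneg_left h7 (by positivity)
  refine h5.trans ?_
  have h10 : a / 2 * 3 + r / 2 * l ^ 2 = 2 * l ^ 2 * r := by rw [ha]; ring
  linarith

end

end Vale.Agent.Lib.P166
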