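import Vale.Agent.Lib.P166.CDefs

/-! P166, concentration: elementary facts on Gibbs averages used for the moment bounds. -/

open MeasureTheory Filter Topology Matrix

namespace Vale.Agent.Lib.P166

variable {N : ℕ}

theorem mo_mono (β : ℝ) (lam : Fin N → ℝ) (U : Matrix (Fin N) (Fin N) ℝ)
    {f g : (Fin N → ℝ) → ℝ} (h : ∀ σ : Fin N → Bool, f (spin σ) ≤ g (spin σ)) :
    gav β lam U f ≤ gav β lam U g := by
  unfold gav
  refine div_le_div_of_nonneg_right (Finset.sum_le_sum fun σ _ => ?_) (Z_pos β lam U).le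
  exact mul_le_mul_of_nonneg_left (h σ) (Real.exp_pos _).le

theorem mo_const (β : ℝ) (lam : Fin N → ℝ) (U : Matrix (Fin N) (Fin N) ℝ) (c : ℝ) :
    gav β lam U (fun _ => c) = c := by
  unfold gav
  rw [← Finset.sum_mul, mul_div_assoc, mul_comm, div_mul_cancel₀]
  exact (Z_pos β lam U).ne'

theorem mo_nonneg (β : ℝ) (lam : Fin N → ℝ) (U : Matrix (Fin N) (Fin N) ℝ)
    {f : (Fin N → ℝ) → ℝ} (h : ∀ σ : Fin N → Bool, 0 ≤ f (spin σ)) :
    0 ≤ gav β lam U f := by
  have := mo_mono β lam U (f := fun _ => 0) (g := f) h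
  rwa [mo_const] at this

theorem mo_congr (β : ℝ) (lam : Fin N → ℝ) (U : Matrix (Fin N) (Fin N) ℝ)
    {f g : (Fin N → ℝ) → ℝ} (h : ∀ σ : Fin N → Bool, f (spin σ) = g (spin σ)) :
    gav β lam U f = gav β lam U g :=
  le_antisymm (mo_mono β lam U fun σ => (h σ).le) (mo_mono β lam U fun σ => (h σ).ge)

theorem mo_sum {ι : Type*} (s : Finset ι) (β : ℝ) (lam : Fin N → ℝ)
    (U : Matrix (Fin N) (Fin N) ℝ) (c : ι → ℝ) (f : ι → (Fin N → ℝ) → ℝ) :
    gav β lam U (fun x => ∑ i ∈ s, c i * f i x) = ∑ i ∈ s, c i * gav β lam U (f i) := by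
  unfold gav
  simp only [Finset.mul_sum, mul_div_assoc', Finset.sum_div]
  rw [Finset.sum_comm]
  refine Finset.sum_congr rfl fun i _ => Finset.sum_congr rfl fun σ _ => ?_
  ring

theorem mo_measurable (β : ℝ) (lam : Fin N → ℝ) (g : (Fin N → Fin N → ℝ) → (Fin N → ℝ) → ℝ)
    (hg : ∀ s, Measurable fun M => g M s) :
    Measurable (fun M : Fin N → Fin N → ℝ => gav β lam (Matrix.of M) (g M)) := by
  unfold gav ener
  simp only [Matrix.mulVec, dotProduct, Matrix.of_apply]
  have := hg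
  fun_prop

theorem mo_spin_sq (D : Fin N → Bool) (i : Fin N) : spin D i * spin D i = 1 := by
  unfold spin
  split_ifs <;> norm_num

theorem mo_diag_orth (D : Fin N → Bool) :
    (Matrix.diagonal (spin D))ᵀ * Matrix.diagonal (spin D) = 1 := by
  rw [Matrix.diagonal_transpose, Matrix.diagonal_mul_diagonal]
  simp only [mo_spin_sq]
  exact Matrix.diagonal_one

/-- `|J s|² ≤ l² N` -/
theorem mo_J_sq (lam : Fin N → ℝ) (l : ℝ) (hl : ∀ i, |lam i| ≤ l)
    {U : Matrix (Fin N) (Fin N) ℝ} (hU : Uᵀ * U = 1) (σ : Fin N → Bool) :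
    ∑ i, ((coupling lam U *ᵥ spin σ) i) ^ 2 ≤ l ^ 2 * N := by
  have hU' : U * Uᵀ = 1 := mul_eq_one_comm.1 hU
  have h1 : ∑ i, ((coupling lam U *ᵥ spin σ) i) ^ 2 =
      ∑ i, (lam i * (U *ᵥ spin σ) i) ^ 2 := by
    have e1 : ∀ v : Fin N → ℝ, ∑ i, (v i) ^ 2 = v ⬝ᵥ v := fun v => by
      simp only [dotProduct]
      exact Finset.sum_congr rfl fun i _ => by ring
    have e2 : coupling lam U *ᵥ spin σ = Uᵀ *ᵥ (fun i => lam i * (U *ᵥ spin σ) i) := by
      unfold coupling
      rw [← Matrix.mulVec_mulVec, ← Matrix.mulVec_mulVec]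
      congr 1
      ext i
      rw [Matrix.mulVec_diagonal]
    rw [e1, e1 (fun i => lam i * (U *ᵥ spin σ) i), e2, Matrix.dotProduct_mulVec,
      Matrix.vecMul_transpose, Matrix.mulVec_mulVec, hU', Matrix.one_mulVec]
  rw [h1, ← norm_sq hU σ, Finset.mul_sum]
  refine Finset.sum_le_sum fun i _ => ?_
  rw [mul_pow]
  have : lam i ^ 2 ≤ l ^ 2 := by
    rw [← sq_abs]
    exact pow_le_pow_left₀ (abs_nonneg _) (hl i) 2
  gcongr

/-- the local field squared under a permutation of the columns -/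
theorem mo_coupling_perm (lam : Fin N → ℝ) (U : Matrix (Fin N) (Fin N) ℝ)
    (π : Equiv.Perm (Fin N)) (s : Fin N → ℝ) (i : Fin N) :
    (coupling lam (U.submatrix id π) *ᵥ (fun j => s (π j))) i =
      (coupling lam U *ᵥ s) (π i) := by
  have h1 : coupling lam (U.submatrix id π) = (coupling lam U).submatrix π π := by
    unfold coupling
    ext a b
    simp [Matrix.mul_apply, Matrix.diagonal_apply]
  rw [h1]
  simp only [Matrix.mulVec, dotProduct, Matrix.submatrix_apply]
  exact Equiv.sum_comp π (fun j => coupling lam U (π i) j * s j)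

theorem mo_coupling_flip (lam : Fin N → ℝ) (U : Matrix (Fin N) (Fin N) ℝ) (D : Fin N → Bool)
    (s : Fin N → ℝ) (i : Fin N) :
    (coupling lam (U * Matrix.diagonal (spin D)) *ᵥ (fun j => spin D j * s j)) i =
      spin D i * (coupling lam U *ᵥ s) i := by
  have h1 : coupling lam (U * Matrix.diagonal (spin D)) =
      Matrix.diagonal (spin D) * coupling lam U * Matrix.diagonal (spin D) := by
    unfold coupling
    rw [Matrix.transpose_mul, Matrix.diagonal_transpose]
    simp only [Matrix.mul_assoc]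
  have h2 : Matrix.diagonal (spin D) *ᵥ (fun j => spin D j * s j) = s := by
    ext j
    rw [Matrix.mulVec_diagonal, ← mul_assoc, mo_spin_sq, one_mul]
  rw [h1, ← Matrix.mulVec_mulVec, ← Matrix.mulVec_mulVec, h2, Matrix.mulVec_diagonal]

end Vale.Agent.Lib.P166
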